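import Vale.Agent.P233.H761.HessD3

/-!
P233, block E6 (helper761): the limit `s₀ → 0`, and all centres.
-/

set_option linter.all false

open MeasureTheory Filter Topology Set
open scoped ENNReal NNReal

universe u

namespace Vale.Agent.P233.H761

variable {M : Type u} [MetricSpace M] [MeasurableSpace M] [BorelSpace M]
  [SecondCountableTopology M] {m : Measure M}

/-! ### `mdr` -/

/-- a Lipschitz constant of `md_κ` on `[0,R]` -/
theorem md_lip (κ : ℝ) {R : ℝ} (hR : 0 < R) : ∃ S : ℝ≥0, ∀ a ∈ Icc (0 : ℝ) R, ∀ b ∈ Icc (0 : ℝ) R,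
    |md κ a - md κ b| ≤ S * |a - b| := by
  obtain ⟨S, hS⟩ := (isCompact_Icc (a := (0 : ℝ)) (b := R)).exists_bound_of_continuousOn
    (continuous_sn κ).continuousOn
  have hS0 : 0 ≤ S := (norm_nonneg _).trans (hS 0 ⟨le_rfl, hR.le⟩)
  refine ⟨⟨S, hS0⟩, fun a ha b hb => ?_⟩
  have := (convex_Icc (0 : ℝ) R).norm_image_sub_le_of_norm_hasDerivWithin_le
    (f := md κ) (f' := sn κ) (C := S) (fun x _ => (hasDerivAt_md κ x).hasDerivWithinAt) hS hb ha
  rw [Real.norm_eq_abs, Real.norm_eq_abs] at this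
  exact this

theorem mdr_eq_zero {κ : ℝ} {p : M} {R : ℝ} {x : M} (h : R ≤ dist p x) : mdr κ p R x = 0 := by
  unfold mdr; rw [min_eq_right h, sub_self]

theorem min_mem {p : M} {R : ℝ} (hR : 0 < R) (x : M) : min (dist p x) R ∈ Icc (0 : ℝ) R :=
  ⟨le_min dist_nonneg hR.le, min_le_right _ _⟩

theorem mdr_lip {κ : ℝ} {R : ℝ} (hR : 0 < R) {S : ℝ≥0} (hS : ∀ a ∈ Icc (0 : ℝ) R,
    ∀ b ∈ Icc (0 : ℝ) R, |md κ a - md κ b| ≤ S * |a - b|) (p : M) : LipschitzWith S (mdr κ p R) := by
  refine LipschitzWith.of_dist_le_mul fun x y => ?_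
  rw [Real.dist_eq]
  have e : mdr κ p R x - mdr κ p R y = md κ (min (dist p x) R) - md κ (min (dist p y) R) := by
    unfold mdr; ring
  rw [e]
  refine (hS _ (min_mem hR x) _ (min_mem hR y)).trans ?_
  gcongr
  calc |min (dist p x) R - min (dist p y) R| ≤ max |dist p x - dist p y| |R - R| :=
        abs_min_sub_min_le_max _ _ _ _
    _ = |dist p x - dist p y| := by rw [sub_self, abs_zero, max_eq_left (abs_nonneg _)]
    _ ≤ dist x y := by
        rw [dist_comm p x, dist_comm p y]
        exact abs_dist_sub_le x y p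

theorem mdr_centre {κ : ℝ} {R : ℝ} (hR : 0 < R) {S : ℝ≥0} (hS : ∀ a ∈ Icc (0 : ℝ) R,
    ∀ b ∈ Icc (0 : ℝ) R, |md κ a - md κ b| ≤ S * |a - b|) (p q x : M) :
    |mdr κ q R x - mdr κ p R x| ≤ S * dist q p := by
  have e : mdr κ q R x - mdr κ p R x = md κ (min (dist q x) R) - md κ (min (dist p x) R) := by
    unfold mdr; ring
  rw [e]
  refine (hS _ (min_mem hR x) _ (min_mem hR x)).trans ?_
  gcongr
  calc |min (dist q x) R - min (dist p x) R| ≤ max |dist q x - dist p x| |R - R| :=
        abs_min_sub_min_le_max _ _ _ _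
    _ = |dist q x - dist p x| := by rw [sub_self, abs_zero, max_eq_left (abs_nonneg _)]
    _ ≤ dist q p := abs_dist_sub_le q p x

/-! ### good centres -/

/-- the weak Hessian bound with the constant `Λ₀ = 0` outside -/
def HB (m : Measure M) (κ : ℝ) (p : M) (R : ℝ) : Prop :=
  ∀ h ∈ (sob m).TestI, ∀ w ∈ (sob m).TestI, 0 ≤ w →
    (sob m).wH (cl m (mdr κ p R)) h w
      ≤ I (w * (cl m (fun x => open Classical in if dist p x < R then cs κ (dist p x) else 0)
        * (sob m).Γ h h))

theorem measurable_rad (κ : ℝ) (p : M) (R L : ℝ) :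
    Measurable fun x => open Classical in if dist p x < R then cs κ (dist p x) else L := by
  have hd : Continuous fun x : M => dist p x := by fun_prop
  exact Measurable.ite (measurableSet_lt hd.measurable measurable_const)
    ((continuous_cs κ).comp hd).measurable measurable_const

theorem step_B (hC : IsGamma (sob m)) {k : ℝ} (hB : (sob m).BEi k)
    (hfin : ∀ (x : M) (r : ℝ), m (Metric.ball x r) < ∞) [SigmaFinite m] {κ : ℝ} {p : M}
    {C₀ R : ℝ} (hC₀ : 0 < C₀) (hR : 0 < R) (hRC : R ^ 2 < 2 * C₀)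
    (hκ : √κ * √(2 * C₀) < Real.pi) {s : ℕ → ℝ} (hs : ∀ n, 0 < s n) (hs1 : ∀ n, s n ≤ 1)
    (hs0 : Tendsto s atTop (𝓝 0)) (H : ∀ n, RadHess m κ p (s n) C₀) : HB m κ p R := by
  intro h hh w hw hw0
  have hD := hC.toIsDir
  have hhA := hC.test_A hh.1
  have hwA := hC.test_A hw.1
  have hL : 0 < √(2 * C₀) := Real.sqrt_pos.2 (by positivity)
  have hL2 : √(2 * C₀) ^ 2 = 2 * C₀ := Real.sq_sqrt (by positivity)
  obtain ⟨B, c, hc, hB0, hb⟩ := exists_bounds κ hL hκ
  set η : ℕ → ℝ := fun n => ((n : ℝ) + 1)⁻¹ with hη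
  have hη1 : ∀ n, 0 < η n := fun n => by positivity
  have hη0 : Tendsto η atTop (𝓝 0) := tendsto_inv_atTop_zero.comp
    (tendsto_atTop_add_const_right _ _ tendsto_natCast_atTop_atTop)
  set u : ℕ → M →ₘ[m] ℝ := fun n => cl m (fun x => Psi κ R (η n) (dist p x ^ 2)) with hu
  have huA : ∀ n, u n ∈ (sob m).A := fun n =>
    (stepA1 (κ := κ) (p := p) (s := 0) hC hfin le_rfl hC₀ hR hRC (hη1 n)).1
  have huE : ∀ n, I ((sob m).Γ (u n) (u n))
      ≤ ∫ x, (Metric.ball p R).indicator (fun _ => (4 * B) ^ 2 * (2 * C₀)) x ∂m := fun n =>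
    stepA2 (s := 0) hC hfin le_rfl zero_le_one hC₀ hR hRC (hη1 n) hc hb
  have hdc : Continuous fun x : M => dist p x := by fun_prop
  have hue : ∀ n, ∀ᵐ x ∂m, u n x = Psi κ R (η n) (dist p x ^ 2) := fun n =>
    H183.cl_cont ((Psi_cont κ R (η n)).comp (hdc.pow 2))
  obtain ⟨S, hS⟩ := md_lip κ hR
  have hfA : cl m (mdr κ p R) ∈ (sob m).A :=
    H183.cl_mem_A hfin (mdr_lip hR hS p) (fun x hx => mdr_eq_zero hx)
  have hfe : ∀ᵐ x ∂m, cl m (mdr κ p R) x = mdr κ p R x :=
    H183.cl_cont (mdr_lip hR hS p).continuous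
  set f := cl m (mdr κ p R) with hf
  have hbm : MeasurableSet (Metric.ball p R) := Metric.isOpen_ball.measurableSet
  have hPt : ∀ x, Tendsto (fun n => Psi κ R (η n) (dist p x ^ 2)) atTop (𝓝 (mdr κ p R x)) :=
    fun x => Psi_tendsto hR hη1 hη0 dist_nonneg
  have hPb : ∀ n x, |Psi κ R (η n) (dist p x ^ 2)| ≤ B * R ^ 2 := fun n x =>
    abs_Psi_le (hη1 n) hB0.le (fun y hy => by
      obtain ⟨b1, b2, -, -⟩ := hb y ⟨hy.1, by rw [hL2]; linarith [hy.2]⟩
      rw [abs_of_pos (hc.trans_le b1)]; exact b2) (sq_nonneg _)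
  have hfb : ∀ x, |mdr κ p R x| ≤ B * R ^ 2 := fun x =>
    le_of_tendsto (hPt x).abs (Eventually.of_forall fun n => hPb n x)
  -- convergence in `L²`
  have hlim : Tendsto (fun n => I ((u n - f) ^ 2)) atTop (𝓝 0) := by
    have hi : Integrable ((Metric.ball p R).indicator fun _ => (2 * (B * R ^ 2)) ^ 2) m :=
      (integrable_indicator_iff hbm).2 (integrableOn_const (hfin p R).ne)
    rw [← I_zero (M := M) (m := m)]
    refine I_tendsto_of_dominated hi (fun n => ?_) ?_
    · filter_upwards [sq_ae (u n - f), sub_ae (u n) f, hue n, hfe] with x a1 a2 a3 a4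
      rw [a1, a2, a3, a4]
      by_cases hx : dist p x < R
      · have hx' : x ∈ Metric.ball p R := by rw [Metric.mem_ball, dist_comm]; exact hx
        rw [indicator_of_mem hx', abs_pow]
        gcongr
        refine (abs_sub _ _).trans ?_
        linarith [hPb n x, hfb x]
      · rw [not_lt] at hx
        have hx' : x ∉ Metric.ball p R := by rw [Metric.mem_ball, dist_comm, not_lt]; exact hx
        rw [indicator_of_notMem hx', mdr_eq_zero hx, Psi_zero (hη1 n) (by gcongr)]
        simp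
    · have hall : ∀ᵐ x ∂m, ∀ n, (u n - f) x = u n x - f x ∧ ((u n - f) ^ 2) x = ((u n - f) x) ^ 2
          ∧ u n x = Psi κ R (η n) (dist p x ^ 2) := by
        rw [ae_all_iff]
        intro n
        filter_upwards [sub_ae (u n) f, sq_ae (u n - f), hue n] with x a1 a2 a3
        exact ⟨a1, a2, a3⟩
      filter_upwards [hall, hfe, zero_ae (M := M) (m := m)] with x a1 a2 a3
      rw [a3]
      have h1 := ((hPt x).sub_const (mdr κ p R x)).pow 2
      rw [sub_self, zero_pow two_ne_zero] at h1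
      refine h1.congr fun n => ?_
      rw [(a1 n).2.1, (a1 n).1, (a1 n).2.2, a2]
  have hW := wH_f_lim hC hB huA huE hfA hlim hh hw
  -- the right hand side
  have hge : ∀ n, ∀ᵐ x ∂m, cl m (gco κ R C₀ (s n) (η n) p) x = gco κ R C₀ (s n) (η n) p x :=
    fun n => H183.cl_ae (measurable_gco κ R C₀ (s n) (η n) p).aestronglyMeasurable
  have hGe : ∀ᵐ x ∂m, cl m (fun x => open Classical in if dist p x < R then cs κ (dist p x) else 0) x
      = open Classical in if dist p x < R then cs κ (dist p x) else 0 :=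
    H183.cl_ae (measurable_rad κ p R 0).aestronglyMeasurable
  have hwΓ : MemLp (w * (sob m).Γ h h : M →ₘ[m] ℝ) 1 m := mem_mul_top hwA.2 (hD.mem1 _ hhA.1)
  have hRhs : Tendsto (fun n => I (w * (cl m (gco κ R C₀ (s n) (η n) p) * (sob m).Γ h h))) atTop
      (𝓝 (I (w * (cl m (fun x => open Classical in if dist p x < R then cs κ (dist p x) else 0)
        * (sob m).Γ h h)))) := by
    have hi : Integrable (fun x => Kg B c C₀ * |(w * (sob m).Γ h h : M →ₘ[m] ℝ) x|) m :=
      ((int_of_mem hwΓ).abs).const_mul _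
    refine I_tendsto_of_dominated hi (fun n => ?_) ?_
    · filter_upwards [mul_ae w (cl m (gco κ R C₀ (s n) (η n) p) * (sob m).Γ h h),
        mul_ae (cl m (gco κ R C₀ (s n) (η n) p)) ((sob m).Γ h h), mul_ae w ((sob m).Γ h h),
        hge n] with x a1 a2 a3 a4
      rw [a1, a2, a3, a4]
      have h1 := gco_abs_le (p := p) (κ := κ) (hs n).le (hs1 n) hC₀ hR hRC (hη1 n) hc hb x
      have e : w x * (gco κ R C₀ (s n) (η n) p x * (sob m).Γ h h x)
          = gco κ R C₀ (s n) (η n) p x * (w x * (sob m).Γ h h x) := by ring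
      rw [e, abs_mul]
      exact mul_le_mul_of_nonneg_right h1 (abs_nonneg _)
    · have hall : ∀ᵐ x ∂m, ∀ n, (w * (cl m (gco κ R C₀ (s n) (η n) p) * (sob m).Γ h h)) x
          = w x * (gco κ R C₀ (s n) (η n) p x * (sob m).Γ h h x) := by
        rw [ae_all_iff]
        intro n
        filter_upwards [mul_ae w (cl m (gco κ R C₀ (s n) (η n) p) * (sob m).Γ h h),
          mul_ae (cl m (gco κ R C₀ (s n) (η n) p)) ((sob m).Γ h h), hge n] with x a1 a2 a4
        rw [a1, a2, a4]
      filter_upwards [hall, hGe,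
        mul_ae w (cl m (fun x => open Classical in if dist p x < R then cs κ (dist p x) else 0)
          * (sob m).Γ h h),
        mul_ae (cl m (fun x => open Classical in if dist p x < R then cs κ (dist p x) else 0))
          ((sob m).Γ h h)] with x a1 a2 a3 a4
      rw [a3, a4, a2]
      have hg : Tendsto (fun n => gco κ R C₀ (s n) (η n) p x) atTop
          (𝓝 (open Classical in if dist p x < R then cs κ (dist p x) else 0)) := by
        split_ifs with hx
        · have hx2 : dist p x ^ 2 < R ^ 2 := by gcongr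
          obtain ⟨b1, b2, -, -⟩ := hb (dist p x ^ 2) ⟨sq_nonneg _, by rw [hL2]; linarith⟩
          obtain ⟨t1, t2⟩ := co_tendsto (κ := κ) (r := dist p x) dist_nonneg (hc.trans_le b1) hs hs0
          have t3 := t1.add (t2.abs.const_mul (2 * C₀))
          rw [abs_zero, mul_zero, add_zero] at t3
          refine t3.congr' ?_
          filter_upwards [chi_tendsto hη1 hη0 hx2] with n hn
          unfold gco
          rw [hn, one_mul]
        · rw [not_lt] at hx
          refine tendsto_const_nhds.congr fun n => ?_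
          unfold gco
          rw [chi_zero (hη1 n) (by gcongr), zero_mul]
      exact ((hg.mul_const _).const_mul (w x)).congr fun n => (a1 n).symm
  exact le_of_tendsto_of_tendsto' hW hRhs fun n =>
    stepA3 hC hB hfin (hs n).le (hs1 n) hC₀ hR hRC (hη1 n) hc hb (H n) hh hw hw0

/-- dense set of good centres implies all centres -/
theorem step_C (hC : IsGamma (sob m)) {k : ℝ} (hB : (sob m).BEi k)
    (hfin : ∀ (x : M) (r : ℝ), m (Metric.ball x r) < ∞) [SigmaFinite m] {κ : ℝ}
    {R : ℝ} (hR : 0 < R) {p : M} {q : ℕ → M} (hq : ∀ n, dist (q n) p ≤ 1)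
    (hq0 : Tendsto (fun n => dist (q n) p) atTop (𝓝 0)) (H : ∀ n, HB m κ (q n) R) :
    HessDist m κ p R := by
  have hD := hC.toIsDir
  obtain ⟨Λ₀, hΛ⟩ := (isCompact_Icc (a := (0 : ℝ)) (b := R)).exists_bound_of_continuousOn
    (continuous_cs κ).continuousOn
  have hΛ0 : 0 ≤ Λ₀ := (norm_nonneg _).trans (hΛ 0 ⟨le_rfl, hR.le⟩)
  refine ⟨Λ₀, fun h hh w hw hw0 => ?_⟩
  have hhA := hC.test_A hh.1
  have hwA := hC.test_A hw.1
  obtain ⟨S, hS⟩ := md_lip κ hR
  have hA : ∀ y : M, cl m (mdr κ y R) ∈ (sob m).A := fun y =>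
    H183.cl_mem_A hfin (mdr_lip hR hS y) (fun x hx => mdr_eq_zero hx)
  have he : ∀ y : M, ∀ᵐ x ∂m, cl m (mdr κ y R) x = mdr κ y R x := fun y =>
    H183.cl_cont (mdr_lip hR hS y).continuous
  have hΓ : ∀ y : M, ∀ᵐ x ∂m, (sob m).Γ (cl m (mdr κ y R)) (cl m (mdr κ y R)) x ≤ (S : ℝ) ^ 2 :=
    fun y => H183.Γ_cl_le hfin (mdr_lip hR hS y) (fun x hx => mdr_eq_zero hx)
  have hbm : MeasurableSet (Metric.ball p (R + 1)) := Metric.isOpen_ball.measurableSet
  have hout : ∀ n x, x ∉ Metric.ball p (R + 1) → R ≤ dist (q n) x := by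
    intro n x hx
    rw [Metric.mem_ball, not_lt, dist_comm] at hx
    have h1 := dist_triangle p (q n) x
    have h2 := hq n
    rw [dist_comm] at h2
    linarith
  -- energy bounds
  have hE : ∀ n, I ((sob m).Γ (cl m (mdr κ (q n) R)) (cl m (mdr κ (q n) R)))
      ≤ ∫ x, (Metric.ball p (R + 1)).indicator (fun _ => (S : ℝ) ^ 2) x ∂m := by
    intro n
    have hi : Integrable ((Metric.ball p (R + 1)).indicator fun _ => (S : ℝ) ^ 2) m :=
      (integrable_indicator_iff hbm).2 (integrableOn_const (hfin p (R + 1)).ne)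
    refine integral_mono_ae (int_of_mem (hD.mem1 _ (hA _).1)) hi ?_
    filter_upwards [hΓ (q n), he (q n), hD.Γ_zero_ae (hA (q n)).1] with x a1 a2 a3
    by_cases hx : x ∈ Metric.ball p (R + 1)
    · rw [indicator_of_mem hx]; exact a1
    · rw [indicator_of_notMem hx, a3 (by rw [a2]; exact mdr_eq_zero (hout n x hx))]
  -- convergence in `L²`
  have hlim : Tendsto (fun n => I ((cl m (mdr κ (q n) R) - cl m (mdr κ p R)) ^ 2)) atTop (𝓝 0) := by
    have hi : Integrable ((Metric.ball p (R + 1)).indicator fun _ => (S : ℝ) ^ 2) m :=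
      (integrable_indicator_iff hbm).2 (integrableOn_const (hfin p (R + 1)).ne)
    rw [← I_zero (M := M) (m := m)]
    have hall : ∀ᵐ x ∂m, ∀ n, ((cl m (mdr κ (q n) R) - cl m (mdr κ p R)) ^ 2) x
        = (mdr κ (q n) R x - mdr κ p R x) ^ 2 := by
      rw [ae_all_iff]
      intro n
      filter_upwards [sub_ae (cl m (mdr κ (q n) R)) (cl m (mdr κ p R)),
        sq_ae (cl m (mdr κ (q n) R) - cl m (mdr κ p R)), he (q n), he p] with x a1 a2 a3 a4
      rw [a2, a1, a3, a4]
    refine I_tendsto_of_dominated hi (fun n => ?_) ?_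
    · filter_upwards [hall] with x a1
      rw [a1 n]
      by_cases hx : x ∈ Metric.ball p (R + 1)
      · rw [indicator_of_mem hx, abs_pow]
        gcongr
        refine (mdr_centre hR hS p (q n) x).trans ?_
        exact mul_le_of_le_one_right S.coe_nonneg (hq n)
      · rw [indicator_of_notMem hx, mdr_eq_zero (hout n x hx), mdr_eq_zero]
        · simp
        · rw [Metric.mem_ball, not_lt, dist_comm] at hx
          linarith
    · filter_upwards [hall, zero_ae (M := M) (m := m)] with x a1 a3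
      rw [a3]
      have h1 : Tendsto (fun n => ((S : ℝ) * dist (q n) p) ^ 2) atTop (𝓝 0) := by
        have := (hq0.const_mul (S : ℝ)).pow 2
        simpa using this
      refine squeeze_zero (fun n => ?_) (fun n => ?_) h1
      · rw [a1 n]; positivity
      · rw [a1 n, ← sq_abs]
        exact pow_le_pow_left₀ (abs_nonneg _) (mdr_centre hR hS p (q n) x) 2
  have hW := wH_f_lim hC hB (fun n => hA (q n)) hE (hA p) hlim hh hw
  -- the right hand side
  set G : ℕ → M → ℝ := fun n x => open Classical in if dist p x < R then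
    (if dist (q n) x < R then cs κ (dist (q n) x) else 0) else Λ₀ with hG
  set Gp : M → ℝ := fun x => open Classical in if dist p x < R then cs κ (dist p x) else Λ₀ with hGp
  have hdc : ∀ y : M, Continuous fun x : M => dist y x := fun y => by fun_prop
  have hGm : ∀ n, Measurable (G n) := fun n =>
    Measurable.ite (measurableSet_lt (hdc p).measurable measurable_const)
      (measurable_rad κ (q n) R 0) measurable_const
  have hcb : ∀ y x : M, dist y x < R → |cs κ (dist y x)| ≤ Λ₀ := fun y x hx =>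
    hΛ _ ⟨dist_nonneg, hx.le⟩
  have hGb : ∀ n x, |G n x| ≤ Λ₀ := by
    intro n x
    simp only [hG]
    split_ifs with h1 h2
    · exact hcb _ _ h2
    · rw [abs_zero]; exact hΛ0
    · rw [abs_of_nonneg hΛ0]
  have hGe : ∀ n, ∀ᵐ x ∂m, cl m (G n) x = G n x := fun n =>
    H183.cl_ae (hGm n).aestronglyMeasurable
  have hGpe : ∀ᵐ x ∂m, cl m Gp x = Gp x :=
    H183.cl_ae (measurable_rad κ p R Λ₀).aestronglyMeasurable
  have hwΓ : MemLp (w * (sob m).Γ h h : M →ₘ[m] ℝ) 1 m := mem_mul_top hwA.2 (hD.mem1 _ hhA.1)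
  have hGt : ∀ n, MemLp (cl m (G n)) ∞ m := fun n => by
    rw [mem_top_iff]
    refine ⟨Λ₀, ?_⟩
    filter_upwards [hGe n] with x hx
    rw [hx]; exact hGb n x
  have hstep : ∀ n, (sob m).wH (cl m (mdr κ (q n) R)) h w ≤ I (w * (cl m (G n) * (sob m).Γ h h)) := by
    intro n
    refine (H n h hh w hw hw0).trans ?_
    set g := cl m (fun x => open Classical in if dist (q n) x < R then cs κ (dist (q n) x) else 0)
      with hg
    have hge : ∀ᵐ x ∂m, g x = open Classical in if dist (q n) x < R then cs κ (dist (q n) x) else 0 :=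
      H183.cl_ae (measurable_rad κ (q n) R 0).aestronglyMeasurable
    have hgt : MemLp g ∞ m := by
      rw [mem_top_iff]
      refine ⟨Λ₀, ?_⟩
      filter_upwards [hge] with x hx
      rw [hx]
      split_ifs with h2
      · exact hcb _ _ h2
      · rw [abs_zero]; exact hΛ0
    refine I_mono (mem_mul_top hwA.2 (mem_mul_top hgt (hD.mem1 _ hhA.1)))
      (mem_mul_top hwA.2 (mem_mul_top (hGt n) (hD.mem1 _ hhA.1))) ?_
    rw [le_iff_ae]
    filter_upwards [mul_ae w (g * (sob m).Γ h h), mul_ae g ((sob m).Γ h h),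
      mul_ae w (cl m (G n) * (sob m).Γ h h), mul_ae (cl m (G n)) ((sob m).Γ h h), hge, hGe n,
      hD.Γ_nonneg_ae hhA.1, nonneg_iff_ae.1 hw0] with x a1 a2 a3 a4 a5 a6 a7 a8
    rw [a1, a2, a3, a4, a5, a6]
    refine mul_le_mul_of_nonneg_left (mul_le_mul_of_nonneg_right ?_ a7) a8
    simp only [hG]
    split_ifs with h1 h2
    · exact le_rfl
    · exact (le_abs_self _).trans (hcb _ _ h1)
    · exact le_rfl
    · exact hΛ0
  have hRhs : Tendsto (fun n => I (w * (cl m (G n) * (sob m).Γ h h))) atTop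
      (𝓝 (I (w * (cl m Gp * (sob m).Γ h h)))) := by
    have hi : Integrable (fun x => Λ₀ * |(w * (sob m).Γ h h : M →ₘ[m] ℝ) x|) m :=
      ((int_of_mem hwΓ).abs).const_mul _
    refine I_tendsto_of_dominated hi (fun n => ?_) ?_
    · filter_upwards [mul_ae w (cl m (G n) * (sob m).Γ h h),
        mul_ae (cl m (G n)) ((sob m).Γ h h), mul_ae w ((sob m).Γ h h), hGe n] with x a1 a2 a3 a4
      rw [a1, a2, a3, a4]
      have e : w x * (G n x * (sob m).Γ h h x) = G n x * (w x * (sob m).Γ h h x) := by ring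
      rw [e, abs_mul]
      exact mul_le_mul_of_nonneg_right (hGb n x) (abs_nonneg _)
    · have hall : ∀ᵐ x ∂m, ∀ n, (w * (cl m (G n) * (sob m).Γ h h)) x
          = w x * (G n x * (sob m).Γ h h x) := by
        rw [ae_all_iff]
        intro n
        filter_upwards [mul_ae w (cl m (G n) * (sob m).Γ h h),
          mul_ae (cl m (G n)) ((sob m).Γ h h), hGe n] with x a1 a2 a4
        rw [a1, a2, a4]
      filter_upwards [hall, hGpe, mul_ae w (cl m Gp * (sob m).Γ h h),
        mul_ae (cl m Gp) ((sob m).Γ h h)] with x a1 a2 a3 a4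
      rw [a3, a4, a2]
      have hg : Tendsto (fun n => G n x) atTop (𝓝 (Gp x)) := by
        have hqx : Tendsto (fun n => dist (q n) x) atTop (𝓝 (dist p x)) := by
          rw [tendsto_iff_dist_tendsto_zero]
          refine squeeze_zero (fun n => dist_nonneg) (fun n => ?_) hq0
          rw [Real.dist_eq]
          exact abs_dist_sub_le (q n) p x
        simp only [hG, hGp]
        by_cases hx : dist p x < R
        · simp only [if_pos hx]
          refine (((continuous_cs κ).tendsto _).comp hqx).congr' ?_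
          filter_upwards [hqx.eventually (gt_mem_nhds hx)] with n hn
          rw [if_pos hn]; rfl
        · simp only [if_neg hx]
          exact tendsto_const_nhds
      exact ((hg.mul_const _).const_mul (w x)).congr fun n => (a1 n).symm
  rw [mul_assoc]
  exact le_of_tendsto_of_tendsto' hW hRhs hstep

end Vale.Agent.P233.H761

namespace Vale.Agent.P233

open H761

/-- **Block E6.** -/
theorem blk_E6 : Blk_E6.{u} := by
  intro M _ _ _ _ m K N κ hS HR p R hAdm
  obtain ⟨hR, hκR⟩ := hAdm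
  have hfin := hS.hfin
  have hRcd := hS.rcd
  have hC : IsGamma (sob m) := isGamma_sob hfin hRcd.quadratic hRcd.sobolev_to_lipschitz
  have hB : (sob m).BEi K := hC.bei hS.hN hRcd.bochner
  have hσ : SigmaFinite m := sigmaFinite_of_ball hfin
  have hfull := hS.full
  -- the constant `C₀`
  obtain ⟨C₀, hC₀, hRC, hκC⟩ : ∃ C₀ : ℝ, 0 < C₀ ∧ R ^ 2 < 2 * C₀ ∧ √κ * √(2 * C₀) < Real.pi := by
    have hc : Tendsto (fun L : ℝ => √κ * L) (𝓝[>] R) (𝓝 (√κ * R)) :=
      ((continuous_const.mul continuous_id).tendsto R).mono_left nhdsWithin_le_nhds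
    obtain ⟨L, hL1, hL2⟩ := ((hc.eventually (gt_mem_nhds hκR)).and self_mem_nhdsWithin).exists
    have hL2' : R < L := hL2
    have hL0 : 0 < L := hR.trans hL2'
    refine ⟨L ^ 2 / 2, by positivity, ?_, ?_⟩
    · have : R ^ 2 < L ^ 2 := by gcongr
      linarith
    · rw [show 2 * (L ^ 2 / 2) = L ^ 2 by ring, Real.sqrt_sq hL0.le]
      exact hL1
  set s : ℕ → ℝ := fun n => ((n : ℝ) + 2)⁻¹ with hs
  have hs1 : ∀ n, 0 < s n := fun n => by positivity
  have hs2 : ∀ n, s n < 1 := fun n => by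
    have h0 : (0 : ℝ) ≤ n := n.cast_nonneg
    exact inv_lt_one_of_one_lt₀ (by linarith)
  have hs0 : Tendsto s atTop (𝓝 0) := tendsto_inv_atTop_zero.comp
    (tendsto_atTop_add_const_right _ _ tendsto_natCast_atTop_atTop)
  have hgood : ∀ᵐ p ∂m, HB m κ p R := by
    have h1 : ∀ᵐ p ∂m, ∀ n, RadHess m κ p (s n) C₀ := by
      rw [ae_all_iff]
      exact fun n => HR C₀ hC₀ hκC (s n) ⟨hs1 n, hs2 n⟩
    filter_upwards [h1] with p' hp'
    exact step_B hC hB hfin hC₀ hR hRC hκC hs1 (fun n => (hs2 n).le) hs0 hp'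
  have hdense : Dense {p | HB m κ p R} := Measure.dense_of_ae hgood
  have hex : ∀ n : ℕ, ∃ q : M, HB m κ q R ∧ dist q p < ((n : ℝ) + 1)⁻¹ := by
    intro n
    obtain ⟨q, hq1, hq2⟩ := Metric.dense_iff.1 hdense p ((n : ℝ) + 1)⁻¹ (by positivity)
    exact ⟨q, hq2, hq1⟩
  choose q hq1 hq2 using hex
  refine step_C hC hB hfin hR (q := q) (fun n => ?_) ?_ hq1
  · refine (hq2 n).le.trans (inv_le_one_of_one_le₀ ?_)
    have h0 : (0 : ℝ) ≤ n := n.cast_nonneg
    linarith
  · refine squeeze_zero (fun n => dist_nonneg) (fun n => (hq2 n).le) ?_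
    exact tendsto_inv_atTop_zero.comp
      (tendsto_atTop_add_const_right _ _ tendsto_natCast_atTop_atTop)

end Vale.Agent.P233
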