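import Vale.Agent.P233.H761.Riccati
import Mathlib.MeasureTheory.Integral.IntervalIntegral.LebesgueDifferentiationThm

open MeasureTheory Filter Topology Set
open scoped ENNReal NNReal InnerProductSpace

set_option linter.all false

namespace Vale.Agent.P233.H761

section stk

variable {W : Type*} [NormedAddCommGroup W] [NormedSpace ℝ W]

/-- The Steklov average over `[t,t+e]`. -/
noncomputable def stk (e : ℝ) (h : ℝ → W) (t : ℝ) : W := e⁻¹ • ∫ r in t..(t + e), h r

/-- Local integrability on `(0,T)`. -/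
def LI (T : ℝ) (h : ℝ → W) : Prop :=
  ∀ s t, 0 < s → s ≤ t → t < T → IntervalIntegrable h volume s t

theorem LI.mono {T T' : ℝ} {h : ℝ → W} (hh : LI T h) (hT : T' ≤ T) : LI T' h :=
  fun s t h0 h1 h2 => hh s t h0 h1 (h2.trans_le hT)

theorem LI.any {T : ℝ} {h : ℝ → W} (hh : LI T h) {s t : ℝ} (hs : s ∈ Ioo 0 T) (ht : t ∈ Ioo 0 T) :
    IntervalIntegrable h volume s t := by
  rcases le_total s t with hst | hst
  · exact hh s t hs.1 hst ht.2
  · exact (hh t s ht.1 hst hs.2).symm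

theorem li_of_continuousOn {T : ℝ} {h : ℝ → W} (hh : ContinuousOn h (Ioo 0 T)) : LI T h := by
  intro s t h0 h1 h2
  apply ContinuousOn.intervalIntegrable
  rw [uIcc_of_le h1]
  exact hh.mono fun x hx => ⟨h0.trans_le hx.1, hx.2.trans_lt h2⟩

theorem stk_tendsto {T : ℝ} {h : ℝ → W} (hh : LI T h) {c t : ℝ} (hc : c ∈ Ioo 0 T)
    (ht : t ∈ Ioo 0 T) (hd : HasDerivAt (fun x => ∫ r in c..x, h r) (h t) t) :
    Tendsto (fun e => stk e h t) (𝓝[>] 0) (𝓝 (h t)) := by
  have h1 := (hasDerivAt_iff_tendsto_slope_zero.1 hd).mono_left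
    (nhdsWithin_mono (0 : ℝ) (fun x (hx : 0 < x) => (ne_of_gt hx : x ≠ 0)))
  refine h1.congr' ?_
  have h2 : ∀ᶠ e : ℝ in 𝓝[>] 0, t + e < T := by
    have : Tendsto (fun e : ℝ => t + e) (𝓝[>] 0) (𝓝 (t + 0)) :=
      (tendsto_const_nhds.add tendsto_id).mono_left nhdsWithin_le_nhds
    rw [add_zero] at this
    exact this.eventually (gt_mem_nhds ht.2)
  filter_upwards [h2, self_mem_nhdsWithin] with e he he0
  have he0 : 0 < e := he0
  have ht' : t + e ∈ Ioo 0 T := ⟨by linarith [ht.1], he⟩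
  rw [stk, intervalIntegral.integral_interval_sub_left (hh.any hc ht') (hh.any hc ht)]

/-- The derivative of the primitive of a locally integrable function. -/
theorem continuousOn_prim [CompleteSpace W] {T : ℝ} {h : ℝ → W} (hh : LI T h) {c : ℝ}
    (hc : c ∈ Ioo 0 T) : ContinuousOn (fun x => ∫ r in c..x, h r) (Ioo 0 T) := by
  intro t ht
  obtain ⟨a, ha0, ha⟩ := exists_between (lt_min hc.1 ht.1)
  obtain ⟨b, hb0, hb⟩ := exists_between (max_lt hc.2 ht.2)
  rw [lt_min_iff] at ha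
  rw [max_lt_iff] at hb0
  have h1 : IntervalIntegrable h volume a b := hh a b ha0 (by linarith [ha.1, hb0.1]) hb
  have h2 := intervalIntegral.continuousOn_primitive_interval' h1
    (a := c) (by rw [uIcc_of_le (by linarith [ha.1, hb0.1])]; exact ⟨ha.1.le, hb0.1.le⟩)
  rw [uIcc_of_le (by linarith [ha.1, hb0.1])] at h2
  exact (h2.continuousAt (Icc_mem_nhds ha.2 hb0.2)).continuousWithinAt

theorem continuousOn_stk [CompleteSpace W] {T e : ℝ} {h : ℝ → W} (hh : LI T h) (he : 0 < e) :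
    ContinuousOn (stk e h) (Ioo 0 (T - e)) := by
  intro t ht
  have htT : t ∈ Ioo 0 T := ⟨ht.1, by linarith [ht.2]⟩
  have hteT : t + e ∈ Ioo 0 T := ⟨by linarith [ht.1], by linarith [ht.2]⟩
  have h0 := continuousOn_prim hh htT
  have h1 : ContinuousAt (fun x => ∫ r in t..x, h r) t := h0.continuousAt (Ioo_mem_nhds htT.1 htT.2)
  have h2 : ContinuousAt (fun x => ∫ r in t..x, h r) (t + e) :=
    h0.continuousAt (Ioo_mem_nhds hteT.1 hteT.2)
  have h3 : ContinuousAt (fun x : ℝ => ∫ r in t..(x + e), h r) t :=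
    ContinuousAt.comp (f := fun x : ℝ => x + e) (g := fun x => ∫ r in t..x, h r) h2
      (continuous_id.add continuous_const).continuousAt
  have h4 : ContinuousAt (fun x => e⁻¹ • ((∫ r in t..(x + e), h r) - ∫ r in t..x, h r)) t :=
    continuousAt_const.smul (h3.sub h1)
  refine (h4.congr ?_).continuousWithinAt
  filter_upwards [Ioo_mem_nhds ht.1 ht.2] with x hx
  have hxT : x ∈ Ioo 0 T := ⟨hx.1, by linarith [hx.2]⟩
  have hxeT : x + e ∈ Ioo 0 T := ⟨by linarith [hx.1], by linarith [hx.2]⟩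
  rw [stk, intervalIntegral.integral_interval_sub_left (hh.any htT hxeT) (hh.any htT hxT)]

theorem hasDerivAt_stk [CompleteSpace W] {T e : ℝ} {h : ℝ → W} (hh : ContinuousOn h (Ioo 0 T))
    (he : 0 < e) {t : ℝ} (ht : t ∈ Ioo 0 (T - e)) :
    HasDerivAt (stk e h) (e⁻¹ • (h (t + e) - h t)) t := by
  have htT : t ∈ Ioo 0 T := ⟨ht.1, by linarith [ht.2]⟩
  have hteT : t + e ∈ Ioo 0 T := ⟨by linarith [ht.1], by linarith [ht.2]⟩
  have hl := li_of_continuousOn hh
  have hm : ∀ x ∈ Ioo (0 : ℝ) T, StronglyMeasurableAtFilter h (𝓝 x) volume := fun x hx =>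
    hh.stronglyMeasurableAtFilter isOpen_Ioo x hx
  have h1 : HasDerivAt (fun x => ∫ r in t..x, h r) (h t) t :=
    intervalIntegral.integral_hasDerivAt_right (hl.any htT htT) (hm t htT)
      (hh.continuousAt (Ioo_mem_nhds htT.1 htT.2))
  have h2 : HasDerivAt (fun x => ∫ r in t..x, h r) (h (t + e)) (t + e) :=
    intervalIntegral.integral_hasDerivAt_right (hl.any htT hteT) (hm _ hteT)
      (hh.continuousAt (Ioo_mem_nhds hteT.1 hteT.2))
  have h3 : HasDerivAt (fun x : ℝ => ∫ r in t..(x + e), h r) (h (t + e)) t := by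
    have := HasDerivAt.comp_add_const t e h2
    exact this
  have h4 := (h3.sub h1).const_smul e⁻¹
  refine h4.congr_of_eventuallyEq ?_
  filter_upwards [Ioo_mem_nhds ht.1 ht.2] with x hx
  have hxT : x ∈ Ioo 0 T := ⟨hx.1, by linarith [hx.2]⟩
  have hxeT : x + e ∈ Ioo 0 T := ⟨by linarith [hx.1], by linarith [hx.2]⟩
  simp only [stk, Pi.smul_apply, Pi.sub_apply]
  rw [intervalIntegral.integral_interval_sub_left (hl.any htT hxeT) (hl.any htT hxT)]

end stk

section jensen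

variable {V : Type*} [NormedAddCommGroup V] [InnerProductSpace ℝ V] [CompleteSpace V]

/-- Jensen's inequality for a Steklov average. -/
theorem stk_sq_le {e t : ℝ} (he : 0 < e) {u : ℝ → V} (hu : IntervalIntegrable u volume t (t + e))
    (hu2 : IntervalIntegrable (fun r => ‖u r‖ ^ 2) volume t (t + e)) :
    ‖stk e u t‖ ^ 2 ≤ stk e (fun r => ‖u r‖ ^ 2) t := by
  set c := stk e u t with hc
  have hle : t ≤ t + e := by linarith
  have h1 : ∫ r in t..(t + e), u r = e • c := by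
    rw [hc, stk, smul_smul, mul_inv_cancel₀ he.ne', one_smul]
  have h2 : IntervalIntegrable (fun r => ⟪c, u r⟫_ℝ) volume t (t + e) := by
    exact ⟨Integrable.const_inner c hu.1, Integrable.const_inner c hu.2⟩
  have h3 : 0 ≤ ∫ r in t..(t + e), ‖u r - c‖ ^ 2 :=
    intervalIntegral.integral_nonneg hle fun r _ => sq_nonneg _
  have h4 : ∫ r in t..(t + e), ‖u r - c‖ ^ 2
      = (∫ r in t..(t + e), ‖u r‖ ^ 2) - 2 * (e * ‖c‖ ^ 2) + e * ‖c‖ ^ 2 := by
    have h5 : (fun r => ‖u r - c‖ ^ 2) = fun r => ‖u r‖ ^ 2 - 2 * ⟪c, u r⟫_ℝ + ‖c‖ ^ 2 := by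
      funext r
      rw [norm_sub_sq_real, real_inner_comm]
    have h6 : ∫ r in t..(t + e), ⟪c, u r⟫_ℝ = e * ‖c‖ ^ 2 := by
      rw [intervalIntegral.integral_of_le hle, integral_inner ((intervalIntegrable_iff_integrableOn_Ioc_of_le hle).1 hu),
        ← intervalIntegral.integral_of_le hle, h1, inner_smul_right, real_inner_self_eq_norm_sq]
    rw [h5, intervalIntegral.integral_add (hu2.sub (h2.const_mul 2)) (by simp),
      intervalIntegral.integral_sub hu2 (h2.const_mul 2), intervalIntegral.integral_const_mul, h6]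
    simp
  rw [h4] at h3
  rw [stk, smul_eq_mul]
  rw [le_inv_mul_iff₀ he]
  linarith

end jensen


section anti

/-- If `G t ≤ G s` for a.e. `s < t`, then the averages of `G` are nonincreasing. -/
theorem avg_anti_aux {T : ℝ} {G : ℝ → ℝ} (hG : LI T G)
    (hm : ∀ᵐ s, ∀ᵐ t, 0 < s → s < t → t < T → G t ≤ G s) {a c d : ℝ} (ha : 0 < a) (hd : 0 < d)
    (hac : a + d ≤ c) (hc : c + d < T) :
    ∫ r in c..(c + d), G r ≤ ∫ r in a..(a + d), G r := by
  have hI1 : IntervalIntegrable G volume a (a + d) := hG _ _ ha (by linarith) (by linarith)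
  have hI2 : IntervalIntegrable G volume c (c + d) := hG _ _ (by linarith) (by linarith) hc
  have h1 : ∀ᵐ s, s ∈ Ioo a (a + d) → ∫ r in c..(c + d), G r ≤ d * G s := by
    filter_upwards [hm] with s hs hsa
    have h2 : ∫ r in c..(c + d), G r ≤ ∫ r in c..(c + d), G s := by
      apply intervalIntegral.integral_mono_ae_restrict (by linarith) hI2 (by simp)
      rw [EventuallyLE, ae_restrict_iff' measurableSet_Icc]
      filter_upwards [hs, (measure_eq_zero_iff_ae_notMem.1 (measure_singleton c)),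
        (measure_eq_zero_iff_ae_notMem.1 (measure_singleton (c + d)))] with t ht _ _ htc
      exact ht (ha.trans hsa.1) (hsa.2.trans_le (hac.trans htc.1)) (htc.2.trans_lt hc)
    simpa using h2
  have h3 : ∫ s in a..(a + d), (∫ r in c..(c + d), G r) ≤ ∫ s in a..(a + d), d * G s := by
    apply intervalIntegral.integral_mono_ae_restrict (by linarith) (by simp) (hI1.const_mul d)
    rw [EventuallyLE, ae_restrict_iff' measurableSet_Icc]
    filter_upwards [h1, (measure_eq_zero_iff_ae_notMem.1 (measure_singleton a)),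
        (measure_eq_zero_iff_ae_notMem.1 (measure_singleton (a + d)))] with s hs ha1 ha2 hsa
    exact hs ⟨lt_of_le_of_ne hsa.1 (fun h => ha1 h.symm), lt_of_le_of_ne hsa.2 ha2⟩
  rw [intervalIntegral.integral_const_mul] at h3
  simp only [intervalIntegral.integral_const, smul_eq_mul] at h3
  have h4 : a + d - a = d := by ring
  rw [h4] at h3
  exact le_of_mul_le_mul_left h3 hd

theorem avg_anti {T : ℝ} {G : ℝ → ℝ} (hG : LI T G)
    (hm : ∀ᵐ s, ∀ᵐ t, 0 < s → s < t → t < T → G t ≤ G s) {s t e : ℝ} (hs : 0 < s) (hst : s < t)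
    (he : 0 < e) (ht : t + e < T) :
    ∫ r in t..(t + e), G r ≤ ∫ r in s..(s + e), G r := by
  rcases le_or_gt (s + e) t with h | h
  · exact avg_anti_aux hG hm hs he h ht
  · have hsT : s ∈ Ioo 0 T := ⟨hs, by linarith⟩
    have htT : t ∈ Ioo 0 T := ⟨by linarith, by linarith⟩
    have hseT : s + e ∈ Ioo 0 T := ⟨by linarith, by linarith⟩
    have hteT : t + e ∈ Ioo 0 T := ⟨by linarith, by linarith⟩
    have h1 := avg_anti_aux hG hm (a := s) (c := s + e) (d := t - s) hs (by linarith)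
      (by linarith) (by linarith)
    have e1 : s + e + (t - s) = t + e := by ring
    have e2 : s + (t - s) = t := by ring
    rw [e1, e2] at h1
    have h2 : (∫ r in s..t, G r) + ∫ r in t..(s + e), G r = ∫ r in s..(s + e), G r :=
      intervalIntegral.integral_add_adjacent_intervals (hG.any hsT htT) (hG.any htT hseT)
    have h3 : (∫ r in t..(s + e), G r) + ∫ r in (s + e)..(t + e), G r = ∫ r in t..(t + e), G r :=
      intervalIntegral.integral_add_adjacent_intervals (hG.any htT hseT) (hG.any hseT hteT)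
    linarith

end anti

section main

variable {V : Type*} [NormedAddCommGroup V] [InnerProductSpace ℝ V] [CompleteSpace V]

/-- The weak Riccati inequality on `(0,T)`. -/
structure Ric (v : V) (ρ T : ℝ) (h : ℝ → V →L[ℝ] V) : Prop where
  meas : LI T h
  sq : LI T fun r => ‖h r‖ ^ 2
  symm : ∀ᵐ t, t ∈ Ioo 0 T → ∀ x y, ⟪h t x, y⟫_ℝ = ⟪x, h t y⟫_ℝ
  ineq : ∀ ξ, ∀ᵐ s, ∀ᵐ t, 0 < s → s < t → t < T →
    ⟪h t ξ, ξ⟫_ℝ - ⟪h s ξ, ξ⟫_ℝ ≤ -∫ r in s..t, (‖h r ξ‖ ^ 2 + ρ * prp v ξ)

/-- The strict form: every pair `s < t`, `h` continuous. -/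
structure RicC (v : V) (ρ T : ℝ) (h : ℝ → V →L[ℝ] V) : Prop where
  cont : ContinuousOn h (Ioo 0 T)
  symm : ∀ t ∈ Ioo 0 T, ∀ x y, ⟪h t x, y⟫_ℝ = ⟪x, h t y⟫_ℝ
  ineq : ∀ ξ s t, 0 < s → s < t → t < T →
    ⟪h t ξ, ξ⟫_ℝ - ⟪h s ξ, ξ⟫_ℝ ≤ -∫ r in s..t, (‖h r ξ‖ ^ 2 + ρ * prp v ξ)

theorem apply_sq_le (A : V →L[ℝ] V) (ξ : V) : ‖A ξ‖ ^ 2 ≤ ‖A‖ ^ 2 * ‖ξ‖ ^ 2 := by
  rw [← mul_pow]
  exact pow_le_pow_left₀ (norm_nonneg _) (A.le_opNorm ξ) 2

theorem li_apply {T : ℝ} {h : ℝ → V →L[ℝ] V} (hh : LI T h) (ξ : V) : LI T fun r => h r ξ := by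
  intro s t h0 h1 h2
  have := hh s t h0 h1 h2
  exact ⟨this.1.apply_continuousLinearMap ξ, this.2.apply_continuousLinearMap ξ⟩

theorem li_apply_sq {T : ℝ} {h : ℝ → V →L[ℝ] V} (hh : LI T h) (h2 : LI T fun r => ‖h r‖ ^ 2)
    (ξ : V) : LI T fun r => ‖h r ξ‖ ^ 2 := by
  intro s t hs hst ht
  have h3 := (h2 s t hs hst ht).mul_const (‖ξ‖ ^ 2)
  have h4 := (li_apply hh ξ) s t hs hst ht
  refine h3.mono_fun (h4.def'.aestronglyMeasurable.norm.pow 2) ?_
  refine Eventually.of_forall fun r => ?_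
  simp only [norm_mul, norm_pow, norm_norm]
  exact apply_sq_le _ _

theorem stk_apply {T e : ℝ} {h : ℝ → V →L[ℝ] V} (hh : LI T h) (he : 0 < e) {t : ℝ}
    (ht : t ∈ Ioo 0 (T - e)) (ξ : V) : stk e h t ξ = stk e (fun r => h r ξ) t := by
  have h1 := hh t (t + e) ht.1 (by linarith) (by linarith [ht.2])
  rw [stk, stk, ContinuousLinearMap.smul_apply, ContinuousLinearMap.intervalIntegral_apply h1]

theorem stk_symm {T e : ℝ} {h : ℝ → V →L[ℝ] V} (hh : LI T h) (he : 0 < e)
    (hs : ∀ᵐ t, t ∈ Ioo 0 T → ∀ x y, ⟪h t x, y⟫_ℝ = ⟪x, h t y⟫_ℝ) {t : ℝ}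
    (ht : t ∈ Ioo 0 (T - e)) (x y : V) : ⟪stk e h t x, y⟫_ℝ = ⟪x, stk e h t y⟫_ℝ := by
  have hle : t ≤ t + e := by linarith
  have h1 := (li_apply hh x) t (t + e) ht.1 (by linarith) (by linarith [ht.2])
  have h2 := (li_apply hh y) t (t + e) ht.1 (by linarith) (by linarith [ht.2])
  rw [stk_apply hh he ht, stk_apply hh he ht, stk, stk, inner_smul_left, inner_smul_right,
    real_inner_comm, intervalIntegral.integral_of_le hle, intervalIntegral.integral_of_le hle,
    ← integral_inner ((intervalIntegrable_iff_integrableOn_Ioc_of_le hle).1 h1),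
    ← integral_inner ((intervalIntegrable_iff_integrableOn_Ioc_of_le hle).1 h2)]
  simp only [RCLike.conj_to_real]
  congr 1
  apply integral_congr_ae
  rw [EventuallyEq, ae_restrict_iff' measurableSet_Ioc]
  filter_upwards [hs] with r hr hrt
  rw [real_inner_comm, hr ⟨by linarith [hrt.1, ht.1], by linarith [hrt.2, ht.2]⟩]

theorem stk_quad {T e : ℝ} {h : ℝ → V →L[ℝ] V} (hh : LI T h) (he : 0 < e) {t : ℝ}
    (ht : t ∈ Ioo 0 (T - e)) (ξ : V) :
    ⟪stk e h t ξ, ξ⟫_ℝ = e⁻¹ * ∫ r in t..(t + e), ⟪h r ξ, ξ⟫_ℝ := by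
  have hle : t ≤ t + e := by linarith
  have h1 := (li_apply hh ξ) t (t + e) ht.1 (by linarith) (by linarith [ht.2])
  rw [stk_apply hh he ht, stk, inner_smul_left, real_inner_comm,
    intervalIntegral.integral_of_le hle, intervalIntegral.integral_of_le hle,
    ← integral_inner ((intervalIntegrable_iff_integrableOn_Ioc_of_le hle).1 h1)]
  simp only [RCLike.conj_to_real, real_inner_comm]

/-- The Steklov average of a weak solution is a strict one. -/
theorem ricC_stk {v : V} {ρ T e : ℝ} {h : ℝ → V →L[ℝ] V} (hh : Ric v ρ T h) (he : 0 < e) :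
    RicC v ρ (T - e) (stk e h) := by
  refine ⟨continuousOn_stk hh.meas he, fun t ht x y => stk_symm hh.meas he hh.symm ht x y, ?_⟩
  intro ξ s t hs hst ht
  have hsT : s ∈ Ioo 0 T := ⟨hs, by linarith⟩
  have htT : t ∈ Ioo 0 T := ⟨by linarith, by linarith⟩
  have hseT : s + e ∈ Ioo 0 T := ⟨by linarith, by linarith⟩
  have hteT : t + e ∈ Ioo 0 T := ⟨by linarith, by linarith⟩
  set p : ℝ → ℝ := fun r => ‖h r ξ‖ ^ 2 + ρ * prp v ξ with hp
  have hpi : LI T p := by
    intro a b h0 h1 h2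
    exact ((li_apply_sq hh.meas hh.sq ξ) a b h0 h1 h2).add (by simp)
  set P : ℝ → ℝ := fun x => ∫ r in s..x, p r with hP
  have hPc : ContinuousOn P (Ioo 0 T) := continuousOn_prim hpi hsT
  have hqi : LI T fun r => ⟪h r ξ, ξ⟫_ℝ := by
    intro a b h0 h1 h2
    have := (li_apply hh.meas ξ) a b h0 h1 h2
    exact ⟨Integrable.inner_const this.1 ξ, Integrable.inner_const this.2 ξ⟩
  have hPi : LI T P := li_of_continuousOn hPc
  set G : ℝ → ℝ := fun r => ⟪h r ξ, ξ⟫_ℝ + P r with hG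
  have hGi : LI T G := fun a b h0 h1 h2 => (hqi a b h0 h1 h2).add (hPi a b h0 h1 h2)
  have hGm : ∀ᵐ a, ∀ᵐ b, 0 < a → a < b → b < T → G b ≤ G a := by
    filter_upwards [hh.ineq ξ] with a ha
    filter_upwards [ha] with b hb h0 h1 h2
    have h3 := hb h0 h1 h2
    have h4 : (∫ r in s..a, p r) + ∫ r in a..b, p r = ∫ r in s..b, p r :=
      intervalIntegral.integral_add_adjacent_intervals (hpi.any hsT ⟨h0, by linarith⟩)
        (hpi.any ⟨h0, by linarith⟩ ⟨by linarith, h2⟩)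
    simp only [hG, hP]
    rw [← h4]
    linarith
  have h1 := avg_anti hGi hGm hs hst he (by linarith : t + e < T)
  have h2 : ∀ x, 0 < x → x + e < T → ∫ r in x..(x + e), G r
      = (∫ r in x..(x + e), ⟪h r ξ, ξ⟫_ℝ) + ∫ r in x..(x + e), P r := by
    intro x hx hxe
    exact intervalIntegral.integral_add (hqi _ _ hx (by linarith) hxe)
      (hPi _ _ hx (by linarith) hxe)
  rw [h2 s hs (by linarith), h2 t (by linarith) (by linarith)] at h1
  -- the averages of the primitive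
  have h3 : ∫ r in s..t, stk e p r = stk e P t - stk e P s := by
    have h4 : ∀ x ∈ uIcc s t, HasDerivAt (stk e P) (stk e p x) x := by
      intro x hx
      rw [uIcc_of_le hst.le] at hx
      have hxT : x ∈ Ioo 0 T := ⟨by linarith [hx.1], by linarith [hx.2]⟩
      have hxeT : x + e ∈ Ioo 0 T := ⟨by linarith [hx.1], by linarith [hx.2]⟩
      have h5 := hasDerivAt_stk hPc he (t := x) ⟨by linarith [hx.1], by linarith [hx.2]⟩
      have h6 : e⁻¹ • (P (x + e) - P x) = stk e p x := by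
        simp only [hP, stk]
        rw [intervalIntegral.integral_interval_sub_left (hpi.any hsT hxeT) (hpi.any hsT hxT)]
      rwa [h6] at h5
    apply intervalIntegral.integral_eq_sub_of_hasDerivAt h4
    apply ContinuousOn.intervalIntegrable
    rw [uIcc_of_le hst.le]
    exact (continuousOn_stk hpi he).mono fun x hx => ⟨by linarith [hx.1], by linarith [hx.2]⟩
  have h5 : ∫ r in s..t, (‖stk e h r ξ‖ ^ 2 + ρ * prp v ξ) ≤ ∫ r in s..t, stk e p r := by
    apply intervalIntegral.integral_mono_on hst.le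
    · apply ContinuousOn.intervalIntegrable
      rw [uIcc_of_le hst.le]
      have h6 := (continuousOn_stk hh.meas he).mono
        (fun x (hx : x ∈ Icc s t) => (⟨by linarith [hx.1], by linarith [hx.2]⟩ : x ∈ Ioo 0 (T - e)))
      exact ((h6.clm_apply continuousOn_const).norm.pow 2).add continuousOn_const
    · apply ContinuousOn.intervalIntegrable
      rw [uIcc_of_le hst.le]
      exact (continuousOn_stk hpi he).mono fun x hx => ⟨by linarith [hx.1], by linarith [hx.2]⟩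
    · intro x hx
      have hxe : x ∈ Ioo 0 (T - e) := ⟨by linarith [hx.1], by linarith [hx.2]⟩
      have hxT : x + e < T := by linarith [hx.2]
      rw [stk_apply hh.meas he hxe]
      have h7 := stk_sq_le he ((li_apply hh.meas ξ) x (x + e) hxe.1 (by linarith) hxT)
        ((li_apply_sq hh.meas hh.sq ξ) x (x + e) hxe.1 (by linarith) hxT)
      have h8 : stk e p x = stk e (fun r => ‖h r ξ‖ ^ 2) x + ρ * prp v ξ := by
        simp only [stk, hp, smul_eq_mul]
        rw [intervalIntegral.integral_add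
          ((li_apply_sq hh.meas hh.sq ξ) x (x + e) hxe.1 (by linarith) hxT) (by simp)]
        simp only [intervalIntegral.integral_const, smul_eq_mul]
        field_simp
        ring
      rw [h8]
      linarith
  rw [stk_quad hh.meas he ⟨by linarith, ht⟩, stk_quad hh.meas he ⟨hs, by linarith⟩]
  have h6 : e⁻¹ * ((∫ r in t..(t + e), ⟪h r ξ, ξ⟫_ℝ) + ∫ r in t..(t + e), P r)
      ≤ e⁻¹ * ((∫ r in s..(s + e), ⟪h r ξ, ξ⟫_ℝ) + ∫ r in s..(s + e), P r) :=
    mul_le_mul_of_nonneg_left h1 (inv_nonneg.2 he.le)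
  simp only [stk, smul_eq_mul] at h3 h5
  simp only [stk, smul_eq_mul]
  linarith

/-- The comparison for continuous `h`. -/
theorem riccati_cont {v : V} (hv : ‖v‖ = 1) {ρ T : ℝ} {b b' : ℝ → ℝ} (hb : Model ρ T b b')
    {h : ℝ → V →L[ℝ] V} (hh : RicC v ρ T h) {t : ℝ} (ht : t ∈ Ioo 0 T) (ξ : V) :
    ⟪h t ξ, ξ⟫_ℝ ≤ ⟪v, ξ⟫_ℝ ^ 2 / t + b' t / b t * prp v ξ := by
  have hl := li_of_continuousOn hh.cont
  have hl2 : LI T fun r => ‖h r‖ ^ 2 := li_of_continuousOn (hh.cont.norm.pow 2)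
  have hlim : Tendsto (fun e => stk e h t) (𝓝[>] 0) (𝓝 (h t)) := by
    apply stk_tendsto hl ht ht
    exact intervalIntegral.integral_hasDerivAt_right (by simp)
      (hh.cont.stronglyMeasurableAtFilter isOpen_Ioo t ht) (hh.cont.continuousAt
        (Ioo_mem_nhds ht.1 ht.2))
  have hlim2 : Tendsto (fun e => ⟪stk e h t ξ, ξ⟫_ℝ) (𝓝[>] 0) (𝓝 ⟪h t ξ, ξ⟫_ℝ) := by
    have h1 : Continuous fun A : V →L[ℝ] V => ⟪A ξ, ξ⟫_ℝ := by fun_prop
    exact (h1.tendsto _).comp hlim
  apply le_of_tendsto hlim2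
  have h2 : ∀ᶠ e : ℝ in 𝓝[>] 0, t + e < T := by
    have : Tendsto (fun e : ℝ => t + e) (𝓝[>] 0) (𝓝 (t + 0)) :=
      (tendsto_const_nhds.add tendsto_id).mono_left nhdsWithin_le_nhds
    rw [add_zero] at this
    exact this.eventually (gt_mem_nhds ht.2)
  filter_upwards [h2, self_mem_nhdsWithin] with e he he0
  have he0 : 0 < e := he0
  refine riccati_C1 hv (hb.mono (by linarith : T - e ≤ T)) (h := stk e h)
    (h' := fun t => e⁻¹ • (h (t + e) - h t)) (fun s hs => hasDerivAt_stk hh.cont he0 hs)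
    (fun s hs x y => stk_symm hl he0 (Eventually.of_forall hh.symm) hs x y) ?_
    ⟨ht.1, by linarith⟩ ξ
  intro s hs x
  have hsT : s + e < T := by linarith [hs.2]
  have h3 := hh.ineq x s (s + e) hs.1 (by linarith) hsT
  have h4 := stk_sq_le he0 ((li_apply hl x) s (s + e) hs.1 (by linarith) hsT)
    ((li_apply_sq hl hl2 x) s (s + e) hs.1 (by linarith) hsT)
  rw [stk_apply hl he0 hs]
  rw [intervalIntegral.integral_add ((li_apply_sq hl hl2 x) s (s + e) hs.1 (by linarith) hsT)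
    (by simp)] at h3
  simp only [intervalIntegral.integral_const, smul_eq_mul] at h3
  simp only [stk, smul_eq_mul] at h4
  simp only [ContinuousLinearMap.smul_apply, ContinuousLinearMap.sub_apply, inner_smul_left,
    inner_sub_left, RCLike.conj_to_real, stk]
  have h5 := mul_le_mul_of_nonneg_left h3 (inv_nonneg.2 he0.le)
  have h6 : e⁻¹ * (-((∫ r in s..(s + e), ‖h r x‖ ^ 2) + (s + e - s) * (ρ * prp v x)))
      = -(e⁻¹ * ∫ r in s..(s + e), ‖h r x‖ ^ 2) - ρ * prp v x := by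
    field_simp
    ring
  rw [h6] at h5
  linarith

/-- **E5: the comparison for weak solutions.** -/
theorem riccati {v : V} (hv : ‖v‖ = 1) {ρ T : ℝ} {b b' : ℝ → ℝ} (hb : Model ρ T b b')
    {h : ℝ → V →L[ℝ] V} (hh : Ric v ρ T h) :
    ∀ᵐ t, t ∈ Ioo 0 T → ∀ ξ, ⟪h t ξ, ξ⟫_ℝ ≤ ⟪v, ξ⟫_ℝ ^ 2 / t + b' t / b t * prp v ξ := by
  rcases le_or_gt T 0 with hT | hT
  · exact Eventually.of_forall fun t ht => absurd (ht.1.trans ht.2) (not_lt.2 hT)
  have hTh : T / 2 ∈ Ioo 0 T := ⟨by linarith, by linarith⟩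
  -- Lebesgue points
  have hL : ∀ᵐ t, t ∈ Ioo 0 T → HasDerivAt (fun x => ∫ r in (T / 2)..x, h r) (h t) t := by
    have h1 : ∀ n : ℕ, ∀ᵐ t, t ∈ Ioo (T / 2 / (n + 2)) (T - T / 2 / (n + 2)) →
        HasDerivAt (fun x => ∫ r in (T / 2)..x, h r) (h t) t := by
      intro n
      have hn : (0 : ℝ) < n + 2 := by positivity
      have h2 : T / 2 / (n + 2) ≤ T / 4 := by
        rw [div_div, div_le_div_iff₀ (by positivity) (by norm_num)]
        nlinarith [(Nat.cast_nonneg n : (0 : ℝ) ≤ n)]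
      have h3 : 0 < T / 2 / (n + 2) := by positivity
      have h4 := (hh.meas (T / 2 / (n + 2)) (T - T / 2 / (n + 2)) h3 (by linarith)
        (by linarith)).ae_hasDerivAt_integral
      filter_upwards [h4] with t ht htn
      rw [uIcc_of_le (by linarith)] at ht
      exact ht ⟨htn.1.le, htn.2.le⟩ (T / 2) ⟨by linarith, by linarith⟩
    filter_upwards [ae_all_iff.2 h1] with t ht htT
    obtain ⟨n, hn⟩ := exists_nat_gt (T / 2 / min t (T - t))
    have hm : 0 < min t (T - t) := lt_min htT.1 (by linarith [htT.2])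
    have hn2 : T / 2 / (n + 2) < min t (T - t) := by
      rw [div_lt_iff₀ hm] at hn
      rw [div_lt_iff₀ (by positivity)]
      nlinarith
    exact ht n ⟨hn2.trans_le (min_le_left _ _), by linarith [min_le_right t (T - t)]⟩
  filter_upwards [hL] with t ht htT ξ
  have hlim := stk_tendsto hh.meas hTh htT (ht htT)
  have hlim2 : Tendsto (fun e => ⟪stk e h t ξ, ξ⟫_ℝ) (𝓝[>] 0) (𝓝 ⟪h t ξ, ξ⟫_ℝ) := by
    have h1 : Continuous fun A : V →L[ℝ] V => ⟪A ξ, ξ⟫_ℝ := by fun_prop
    exact (h1.tendsto _).comp hlim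
  apply le_of_tendsto hlim2
  have h2 : ∀ᶠ e : ℝ in 𝓝[>] 0, t + e < T := by
    have : Tendsto (fun e : ℝ => t + e) (𝓝[>] 0) (𝓝 (t + 0)) :=
      (tendsto_const_nhds.add tendsto_id).mono_left nhdsWithin_le_nhds
    rw [add_zero] at this
    exact this.eventually (gt_mem_nhds htT.2)
  filter_upwards [h2, self_mem_nhdsWithin] with e he he0
  have he0 : 0 < e := he0
  exact riccati_cont hv (hb.mono (by linarith : T - e ≤ T)) (ricC_stk hh he0)
    ⟨htT.1, by linarith⟩ ξ

end main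

end Vale.Agent.P233.H761
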