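import Vale.Agent.P233.H761.RiccatiW

open MeasureTheory Filter Topology Set
open scoped ENNReal NNReal InnerProductSpace

set_option linter.all false

namespace Vale.Agent.P233.H761

/-- The solution of `b'' = -κ l² b`, `b 0 = 0`, `b' 0 = 1`. -/
noncomputable def sn (κ l t : ℝ) : ℝ :=
  if κ = 0 then t else if 0 < κ then Real.sin (√κ * l * t) / (√κ * l)
    else Real.sinh (√(-κ) * l * t) / (√(-κ) * l)

/-- The derivative of `sn κ l`. -/
noncomputable def cs (κ l t : ℝ) : ℝ :=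
  if κ = 0 then 1 else if 0 < κ then Real.cos (√κ * l * t) else Real.cosh (√(-κ) * l * t)

theorem model {κ l T : ℝ} (hl : 0 < l) (hT : 0 < κ → √κ * l * T ≤ Real.pi) :
    Model (κ * l ^ 2) T (sn κ l) (cs κ l) := by
  rcases lt_trichotomy κ 0 with hκ | hκ | hκ
  · have hs : 0 < √(-κ) := Real.sqrt_pos.2 (by linarith)
    have hsl : 0 < √(-κ) * l := mul_pos hs hl
    have hsq : √(-κ) ^ 2 = -κ := Real.sq_sqrt (by linarith)
    have e1 : sn κ l = fun t => Real.sinh (√(-κ) * l * t) / (√(-κ) * l) := by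
      funext t; rw [sn, if_neg hκ.ne, if_neg (not_lt.2 hκ.le)]
    have e2 : cs κ l = fun t => Real.cosh (√(-κ) * l * t) := by
      funext t; rw [cs, if_neg hκ.ne, if_neg (not_lt.2 hκ.le)]
    rw [e1, e2]
    have hlin : ∀ t : ℝ, HasDerivAt (fun t => √(-κ) * l * t) (√(-κ) * l) t := fun t => by
      simpa using (hasDerivAt_id t).const_mul (√(-κ) * l)
    refine ⟨fun t _ => ?_, fun t _ => ?_, fun t ht => ?_, ⟨Real.cosh (√(-κ) * l * T), fun t ht => ?_⟩⟩
    · have h1 := ((Real.hasDerivAt_sinh (√(-κ) * l * t)).comp t (hlin t)).div_const (√(-κ) * l)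
      refine h1.congr_deriv ?_
      field_simp
    · have h1 := (Real.hasDerivAt_cosh (√(-κ) * l * t)).comp t (hlin t)
      refine h1.congr_deriv ?_
      have h2 : κ * l ^ 2 = -(√(-κ) * l) ^ 2 := by rw [mul_pow, hsq]; ring
      rw [h2]
      field_simp
    · exact div_pos (Real.sinh_pos_iff.2 (mul_pos hsl ht.1)) hsl
    · have h0 : 0 ≤ √(-κ) * l * t := (mul_pos hsl ht.1).le
      have h1 : Real.sinh (√(-κ) * l * t) ≤ (√(-κ) * l * t) * Real.cosh (√(-κ) * l * t) := by
        have hmono : MonotoneOn (fun x => x * Real.cosh x - Real.sinh x) (Ici 0) := by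
          apply monotoneOn_of_deriv_nonneg (convex_Ici 0)
          · fun_prop
          · fun_prop
          · intro x hx
            rw [interior_Ici] at hx
            have hd : HasDerivAt (fun x => x * Real.cosh x - Real.sinh x) (x * Real.sinh x) x := by
              have := ((hasDerivAt_id x).mul (Real.hasDerivAt_cosh x)).sub (Real.hasDerivAt_sinh x)
              refine this.congr_deriv ?_
              simp
            rw [hd.deriv]
            exact mul_nonneg hx.le (Real.sinh_nonneg_iff.2 hx.le)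
        have := hmono (Set.mem_Ici.2 (le_refl (0 : ℝ))) (Set.mem_Ici.2 h0) h0
        simp at this
        linarith
      have h2 : Real.cosh (√(-κ) * l * t) ≤ Real.cosh (√(-κ) * l * T) := by
        rw [Real.cosh_le_cosh, abs_of_nonneg h0,
          abs_of_nonneg (mul_nonneg hsl.le (ht.1.trans ht.2).le)]
        exact mul_le_mul_of_nonneg_left ht.2.le hsl.le
      rw [div_le_iff₀ hsl]
      calc Real.sinh (√(-κ) * l * t) ≤ (√(-κ) * l * t) * Real.cosh (√(-κ) * l * t) := h1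
        _ ≤ (√(-κ) * l * t) * Real.cosh (√(-κ) * l * T) := mul_le_mul_of_nonneg_left h2 h0
        _ = _ := by ring
  · subst hκ
    have e1 : sn 0 l = fun t => t := by funext t; rw [sn, if_pos rfl]
    have e2 : cs 0 l = fun t => 1 := by funext t; rw [cs, if_pos rfl]
    rw [e1, e2]
    refine ⟨fun t _ => hasDerivAt_id t, fun t _ => ?_, fun t ht => ht.1, ⟨1, fun t ht => by simp⟩⟩
    simpa using hasDerivAt_const t (1 : ℝ)
  · have hs : 0 < √κ := Real.sqrt_pos.2 hκ
    have hsl : 0 < √κ * l := mul_pos hs hl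
    have hsq : √κ ^ 2 = κ := Real.sq_sqrt hκ.le
    have e1 : sn κ l = fun t => Real.sin (√κ * l * t) / (√κ * l) := by
      funext t; rw [sn, if_neg hκ.ne', if_pos hκ]
    have e2 : cs κ l = fun t => Real.cos (√κ * l * t) := by
      funext t; rw [cs, if_neg hκ.ne', if_pos hκ]
    rw [e1, e2]
    have hlin : ∀ t : ℝ, HasDerivAt (fun t => √κ * l * t) (√κ * l) t := fun t => by
      simpa using (hasDerivAt_id t).const_mul (√κ * l)
    refine ⟨fun t _ => ?_, fun t _ => ?_, fun t ht => ?_, ⟨1, fun t ht => ?_⟩⟩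
    · have h1 := ((Real.hasDerivAt_sin (√κ * l * t)).comp t (hlin t)).div_const (√κ * l)
      refine h1.congr_deriv ?_
      field_simp
    · have h1 := (Real.hasDerivAt_cos (√κ * l * t)).comp t (hlin t)
      refine h1.congr_deriv ?_
      have h2 : κ * l ^ 2 = (√κ * l) ^ 2 := by rw [mul_pow, hsq]
      rw [h2]
      field_simp
    · refine div_pos (Real.sin_pos_of_pos_of_lt_pi (mul_pos hsl ht.1) ?_) hsl
      exact (mul_lt_mul_of_pos_left ht.2 hsl).trans_le (hT hκ)
    · rw [div_le_iff₀ hsl]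
      have := Real.sin_le (mul_pos hsl ht.1).le
      linarith

/-- **E5**, all signs of `κ`: for a symmetric `h` with locally square integrable norm on `(0,T)` and
`⟨hξ,ξ⟩' ≤ -|hξ|² - κ l² (|ξ|² - ⟨v,ξ⟩²)` weakly, `⟨hξ,ξ⟩ ≤ ⟨v,ξ⟩²/t + (cs/sn)(|ξ|² - ⟨v,ξ⟩²)`. -/
theorem e5 {V : Type*} [NormedAddCommGroup V] [InnerProductSpace ℝ V] [CompleteSpace V]
    {κ l T : ℝ} (hl : 0 < l) (hT : 0 < κ → √κ * l * T ≤ Real.pi) {v : V} (hv : ‖v‖ = 1)
    {h : ℝ → V →L[ℝ] V} (hh : Ric v (κ * l ^ 2) T h) :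
    ∀ᵐ t, t ∈ Ioo 0 T → ∀ ξ,
      ⟪h t ξ, ξ⟫_ℝ ≤ ⟪v, ξ⟫_ℝ ^ 2 / t + cs κ l t / sn κ l t * (‖ξ‖ ^ 2 - ⟪v, ξ⟫_ℝ ^ 2) :=
  riccati hv (model hl hT) hh

end Vale.Agent.P233.H761
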