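import Vale.Agent.P233.H761.CDJ
import Vale.Agent.P233.H326.If3aDef

/-!
P233, stage 3a, block J in the literal form of `H326/If3aDef` (helper761).
-/

set_option linter.all false

open MeasureTheory Filter Topology Set Metric
open scoped ENNReal NNReal MeasureTheory RealInnerProductSpace

universe u

namespace Vale.Agent.P233.H761.CDJ

open Vale.Agent.P233.RG Vale.Agent.P233.CDc Vale.Agent.P233.H719.CD3

theorem pt_congr {M : Type u} [MetricSpace M] [MeasurableSpace M] [BorelSpace M] {κ : ℝ} {n : ℕ}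
    {s : ℝ} {z : M} {L : M → E n} {S : Set M} {X Y X' Y' : M → M} {u v u' v' : M → ℝ} {Jm Jp : ℝ}
    (h : Pt κ n s z L S X Y u v Jm Jp) (hX : ∀ w ∈ S, X' w = X w) (hY : ∀ w ∈ S, Y' w = Y w)
    (hu : ∀ w ∈ S, u' w = u w) (hv : ∀ w ∈ S, v' w = v w) :
    Pt κ n s z L S X' Y' u' v' Jm Jp where
  n_pos := h.n_pos
  s_pos := h.s_pos
  s_lt := h.s_lt
  reg := h.reg
  zS := h.zS
  pos := by rw [hX z h.zS, hY z h.zS]; exact h.pos
  lt := by rw [hX z h.zS, hY z h.zS]; exact h.lt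
  gx := fun w hw => by rw [hX w hw, hY w hw]; exact h.gx w hw
  gy := fun w hw => by rw [hX w hw, hY w hw]; exact h.gy w hw
  mono := fun w hw w' hw' => by rw [hX w hw, hY w' hw', hu w hw, hv w' hw']; exact h.mono w hw w' hw'
  eq := fun w hw => by rw [hX w hw, hY w hw, hu w hw, hv w hw]; exact h.eq w hw
  lip := by
    obtain ⟨C, hC⟩ := h.lip
    refine ⟨C, fun w hw h1 => ?_⟩
    rw [hX z h.zS, hY z h.zS, hX w hw, hY w hw]
    exact hC w hw h1
  meas := h.meas
  meas_x := by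
    intro c
    have e : {w | w ∈ S ∧ dist (X' w) z ^ 2 / (2 * s) - u' w ≤ c} =
        {w | w ∈ S ∧ dist (X w) z ^ 2 / (2 * s) - u w ≤ c} := by
      ext w
      constructor
      · rintro ⟨h1, h2⟩
        rw [hX w h1, hu w h1] at h2
        exact ⟨h1, h2⟩
      · rintro ⟨h1, h2⟩
        rw [← hX w h1, ← hu w h1] at h2
        exact ⟨h1, h2⟩
    rw [e]; exact h.meas_x c
  meas_y := by
    intro c
    have e : {w | w ∈ S ∧ dist z (Y' w) ^ 2 / (2 * (1 - s)) - v' w ≤ c} =
        {w | w ∈ S ∧ dist z (Y w) ^ 2 / (2 * (1 - s)) - v w ≤ c} := by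
      ext w
      constructor
      · rintro ⟨h1, h2⟩
        rw [hY w h1, hv w h1] at h2
        exact ⟨h1, h2⟩
      · rintro ⟨h1, h2⟩
        rw [← hY w h1, ← hv w h1] at h2
        exact ⟨h1, h2⟩
    rw [e]; exact h.meas_y c
  dens := h.dens
  Jm_nonneg := h.Jm_nonneg
  Jp_nonneg := h.Jp_nonneg
  jm := by
    intro η hη R hR
    filter_upwards [h.jm η hη R hR] with r hr A hA hAm
    have e : X' '' A = X '' A := image_congr fun w hw => hX w (hA hw).1
    rw [e]; exact hr A hA hAm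
  jp := by
    intro η hη R hR
    filter_upwards [h.jp η hη R hR] with r hr A hA hAm
    have e : Y' '' A = Y '' A := image_congr fun w hw => hY w (hA hw).1
    rw [e]; exact hr A hA hAm

/-- **block J**, literally -/
theorem blk_J : CDc.Blk_J.{u} := by
  classical
  intro M _ _ _ _ κ n s G φ ψ F μ₀ μ₁ q Z hn hs0 hs1 hG hc hmono hle heq hF hP0 hP1 hq hqG hZ hZs
  haveI : IsProbabilityMeasure μ₀ := hP0.1
  haveI : IsProbabilityMeasure μ₁ := hP1.1
  have hae : ∀ᵐ p ∂q, p ∈ G := by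
    rw [ae_iff]; exact hqG
  set F' : M → M × M := fun w => if w ∈ Sh s G then F w else (w, w) with hF'
  have hin : ∀ w ∈ Sh s G, F' w = F w := fun w hw => if_pos hw
  have hinv : Inv s G F' := by
    refine ⟨?_, ?_, ?_, ?_, ?_⟩
    · intro w hw; rw [hin w hw]; exact hF.mem w hw
    · intro w hw; rw [hin w hw]; exact hF.sp w hw
    · intro p hp w hw
      rw [hin w ⟨p, hp, hw⟩]; exact hF.eq p hp w hw
    · intro o r
      obtain ⟨C, hC⟩ := hF.lip o r
      refine ⟨C, fun w hw w' hw' => ?_⟩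
      rw [hin w hw.1, hin w' hw'.1]
      exact hC hw hw'
    · exact hF.cont.congr hin
  have key := J (κ := κ) (n := n) (by omega : 1 ≤ n) hs0 hs1 hG hc hmono hle heq hinv
    (fun w hw => if_neg hw) hP0.2.1 hP1.2.1 hq.1 hq.2 hae hZ
    (by filter_upwards [hae] with p hp; exact hZs p hp)
  filter_upwards [key] with p hp
  obtain ⟨⟨a1, a2, a3, a4, a5⟩, a6, a7⟩ := hp
  refine ⟨⟨a1, a2⟩, ⟨a3, a4⟩, a5, ?_, a7⟩
  intro L hL h1 h2
  refine pt_congr (a6 L hL h1 h2) ?_ ?_ ?_ ?_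
  · intro w hw; simp only [hin w hw]
  · intro w hw; simp only [hin w hw]
  · intro w hw; simp only [hin w hw]
  · intro w hw; simp only [hin w hw]

end Vale.Agent.P233.H761.CDJ
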