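import Vale.Agent.P233.H866.MdSqrt

/-!
P233 (helper761): real analysis for the Laplacian comparison of the squared distance: the
inequality `r cs r ≤ (1 - κ r²/3) sn r` and the test function `χ(d) d / sn(d)`, as a `C¹` function
of `d²/2`.
-/

set_option linter.all false

open MeasureTheory Filter Topology Set
open scoped ENNReal NNReal

namespace Vale.Agent.P233.H761

/-! ### `r cs r ≤ (1 - κ r²/3) sn r` -/

theorem sn_nonneg' {κ r : ℝ} (hr : 0 ≤ r) (h : √κ * r < Real.pi) : 0 ≤ sn κ r := by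
  rcases hr.eq_or_lt with h0 | h0
  · rw [← h0, sn_zero_arg]
  · exact (H616.sn_pos h0 (fun _ => h)).le

theorem sn_pos' {κ r : ℝ} (hr : 0 < r) (h : √κ * r < Real.pi) : 0 < sn κ r :=
  H616.sn_pos hr (fun _ => h)

/-- `x ↦ sn x - x cs x` has the derivative `κ x sn x` -/
theorem hasDerivAt_aux1 (κ x : ℝ) :
    HasDerivAt (fun x => sn κ x - x * cs κ x) (κ * x * sn κ x) x := by
  refine ((hasDerivAt_sn κ x).sub ((hasDerivAt_id x).mul (hasDerivAt_cs κ x))).congr_deriv ?_
  simp only [id_eq]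
  ring

/-- `0 ≤ κ (sn r - r cs r)` -/
theorem kappa_aux_nonneg {κ r : ℝ} (hr : 0 ≤ r) (h : √κ * r < Real.pi) :
    0 ≤ κ * (sn κ r - r * cs κ r) := by
  have hmono : MonotoneOn (fun x => κ * (sn κ x - x * cs κ x)) (Icc 0 r) := by
    refine monotoneOn_of_deriv_nonneg (convex_Icc 0 r) ?_ ?_ ?_
    · exact fun x _ => ((hasDerivAt_aux1 κ x).const_mul κ).continuousAt.continuousWithinAt
    · exact fun x _ => ((hasDerivAt_aux1 κ x).const_mul κ).differentiableAt.differentiableWithinAt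
    · intro x hx
      rw [interior_Icc] at hx
      rw [((hasDerivAt_aux1 κ x).const_mul κ).deriv]
      have hs : 0 ≤ sn κ x := sn_nonneg' hx.1.le
        (lt_of_le_of_lt (mul_le_mul_of_nonneg_left hx.2.le (Real.sqrt_nonneg _)) h)
      have := mul_nonneg (mul_nonneg (mul_self_nonneg κ) hx.1.le) hs
      linarith
  have h1 := hmono (left_mem_Icc.2 hr) (right_mem_Icc.2 hr) hr
  simpa [sn_zero_arg] using h1

/-- `r cs r ≤ (1 - κ r²/3) sn r` -/
theorem mul_cs_le {κ r : ℝ} (hr : 0 ≤ r) (h : √κ * r < Real.pi) :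
    r * cs κ r ≤ (1 - κ * r ^ 2 / 3) * sn κ r := by
  have hd : ∀ x, HasDerivAt (fun x => (1 - κ * x ^ 2 / 3) * sn κ x - x * cs κ x)
      (κ * x / 3 * (sn κ x - x * cs κ x)) x := by
    intro x
    have h1 : HasDerivAt (fun x : ℝ => 1 - κ * x ^ 2 / 3) (-(2 * κ * x / 3)) x := by
      refine ((((hasDerivAt_pow 2 x).const_mul κ).div_const 3).const_sub 1).congr_deriv ?_
      push_cast
      ring
    refine ((h1.mul (hasDerivAt_sn κ x)).sub
      ((hasDerivAt_id x).mul (hasDerivAt_cs κ x))).congr_deriv ?_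
    simp only [id_eq]
    ring
  have hmono : MonotoneOn (fun x => (1 - κ * x ^ 2 / 3) * sn κ x - x * cs κ x) (Icc 0 r) := by
    refine monotoneOn_of_deriv_nonneg (convex_Icc 0 r) ?_ ?_ ?_
    · exact fun x _ => (hd x).continuousAt.continuousWithinAt
    · exact fun x _ => (hd x).differentiableAt.differentiableWithinAt
    · intro x hx
      rw [interior_Icc] at hx
      rw [(hd x).deriv]
      have hs := kappa_aux_nonneg hx.1.le
        (lt_of_le_of_lt (mul_le_mul_of_nonneg_left hx.2.le (Real.sqrt_nonneg _)) h)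
      have := mul_nonneg hx.1.le hs
      nlinarith
  have h1 := hmono (left_mem_Icc.2 hr) (right_mem_Icc.2 hr) hr
  simp only [sn_zero_arg, mul_zero, zero_mul, sub_zero] at h1
  linarith

/-! ### a `C¹` step function -/

/-- `(x₊)²` -/
noncomputable def psq (x : ℝ) : ℝ := (max 0 x) ^ 2

theorem hasDerivAt_psq (x : ℝ) : HasDerivAt psq (2 * max 0 x) x := by
  rw [hasDerivAt_iff_isLittleO]
  have h : (fun y => psq y - psq x - (y - x) • (2 * max 0 x)) =O[𝓝 x] fun y => (y - x) ^ 2 := by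
    refine Asymptotics.IsBigO.of_bound 1 (Eventually.of_forall fun y => ?_)
    unfold psq
    rw [smul_eq_mul, Real.norm_eq_abs, Real.norm_eq_abs, one_mul,
      abs_of_nonneg (sq_nonneg (y - x)), abs_le]
    rcases le_total x 0 with hx | hx <;> rcases le_total y 0 with hy | hy
    · rw [max_eq_left hx, max_eq_left hy]
      constructor <;> nlinarith [sq_nonneg (y - x)]
    · rw [max_eq_left hx, max_eq_right hy]
      constructor <;> nlinarith [sq_nonneg (y - x)]
    · rw [max_eq_right hx, max_eq_left hy]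
      constructor <;> nlinarith [sq_nonneg (y - x), mul_nonneg hx (sub_nonneg.2 hy)]
    · rw [max_eq_right hx, max_eq_right hy]
      constructor <;> nlinarith [sq_nonneg (y - x)]
  refine h.trans_isLittleO ?_
  have h2 : (fun y => (y - x) ^ 2) =o[𝓝 x] fun y => (y - x) ^ 1 := by
    have h3 := (Asymptotics.isLittleO_pow_pow (𝕜 := ℝ) (m := 1) (n := 2) (by norm_num))
    have h4 : Tendsto (fun y : ℝ => y - x) (𝓝 x) (𝓝 0) := by
      have := (by fun_prop : Continuous fun y : ℝ => y - x).tendsto x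
      simpa using this
    exact h3.comp_tendsto h4
  simpa using h2

/-- the step -/
noncomputable def stp (x : ℝ) : ℝ := 2 * (psq x - 2 * psq (x - 1 / 2) + psq (x - 1))

/-- its derivative -/
noncomputable def stp' (x : ℝ) : ℝ := 4 * (max 0 x - 2 * max 0 (x - 1 / 2) + max 0 (x - 1))

theorem hasDerivAt_stp (x : ℝ) : HasDerivAt stp (stp' x) x := by
  have h1 := hasDerivAt_psq x
  have h2 := (hasDerivAt_psq (x - 1 / 2)).comp_sub_const x (1 / 2)
  have h3 := (hasDerivAt_psq (x - 1)).comp_sub_const x 1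
  refine (((h1.sub (h2.const_mul 2)).add h3).const_mul 2).congr_deriv ?_
  unfold stp'
  ring

theorem continuous_stp' : Continuous stp' := by
  unfold stp'
  fun_prop

theorem stp'_nonneg (x : ℝ) : 0 ≤ stp' x := by
  unfold stp'
  rcases le_total x 0 with h1 | h1
  · rw [max_eq_left h1, max_eq_left (by linarith), max_eq_left (by linarith)]; norm_num
  · rcases le_total x (1 / 2) with h2 | h2
    · rw [max_eq_right h1, max_eq_left (by linarith), max_eq_left (by linarith)]; linarith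
    · rcases le_total x 1 with h3 | h3
      · rw [max_eq_right h1, max_eq_right (by linarith), max_eq_left (by linarith)]; linarith
      · rw [max_eq_right h1, max_eq_right (by linarith), max_eq_right (by linarith)]; linarith

theorem stp'_le (x : ℝ) : stp' x ≤ 2 := by
  unfold stp'
  rcases le_total x 0 with h1 | h1
  · rw [max_eq_left h1, max_eq_left (by linarith), max_eq_left (by linarith)]; norm_num
  · rcases le_total x (1 / 2) with h2 | h2
    · rw [max_eq_right h1, max_eq_left (by linarith), max_eq_left (by linarith)]; linarith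
    · rcases le_total x 1 with h3 | h3
      · rw [max_eq_right h1, max_eq_right (by linarith), max_eq_left (by linarith)]; linarith
      · rw [max_eq_right h1, max_eq_right (by linarith), max_eq_right (by linarith)]; linarith

theorem stp_of_nonpos {x : ℝ} (h : x ≤ 0) : stp x = 0 := by
  unfold stp psq
  rw [max_eq_left h, max_eq_left (by linarith), max_eq_left (by linarith)]; norm_num

theorem stp_of_one_le {x : ℝ} (h : 1 ≤ x) : stp x = 1 := by
  unfold stp psq
  rw [max_eq_right (by linarith), max_eq_right (by linarith), max_eq_right (by linarith)]; ring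

theorem stp'_of_one_le {x : ℝ} (h : 1 ≤ x) : stp' x = 0 := by
  unfold stp'
  rw [max_eq_right (by linarith), max_eq_right (by linarith), max_eq_right (by linarith)]; ring

theorem stp_mem (x : ℝ) : 0 ≤ stp x ∧ stp x ≤ 1 := by
  unfold stp psq
  rcases le_total x 0 with h1 | h1
  · rw [max_eq_left h1, max_eq_left (by linarith), max_eq_left (by linarith)]; norm_num
  · rcases le_total x (1 / 2) with h2 | h2
    · rw [max_eq_right h1, max_eq_left (by linarith), max_eq_left (by linarith)]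
      constructor <;> nlinarith
    · rcases le_total x 1 with h3 | h3
      · rw [max_eq_right h1, max_eq_right (by linarith), max_eq_left (by linarith)]
        constructor <;> nlinarith [sq_nonneg (x - 1)]
      · rw [max_eq_right h1, max_eq_right (by linarith), max_eq_right (by linarith)]
        constructor <;> nlinarith

/-! ### `d / sn d` as a function of `t = d²/2` -/

/-- `clamp` to `[0,T]` -/
noncomputable def clm (T t : ℝ) : ℝ := max 0 (min t T)

theorem continuous_clm (T : ℝ) : Continuous (clm T) := by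
  unfold clm
  fun_prop

theorem clm_nonneg (T t : ℝ) : 0 ≤ clm T t := le_max_left _ _

theorem clm_le {T : ℝ} (hT : 0 ≤ T) (t : ℝ) : clm T t ≤ T := max_le hT (min_le_right _ _)

theorem clm_of_mem {T t : ℝ} (h0 : 0 ≤ t) (h1 : t ≤ T) : clm T t = t := by
  unfold clm
  rw [min_eq_left h1, max_eq_right h0]

/-- `d(q)/dt` for `q = 1 / (2 hm1 (2t))` -/
noncomputable def qd (κ T t : ℝ) : ℝ := -(hm2 κ (2 * clm T t)) / hm1 κ (2 * clm T t) ^ 2

theorem hm1_pos_of {κ T : ℝ} (hT : 0 ≤ T) (h : √κ * √(2 * T) < Real.pi) (t : ℝ) :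
    0 < hm1 κ (2 * clm T t) := by
  refine hm1_pos (mul_nonneg zero_le_two (clm_nonneg _ _)) fun _ => ?_
  refine lt_of_le_of_lt (mul_le_mul_of_nonneg_left (Real.sqrt_le_sqrt ?_) (Real.sqrt_nonneg _)) h
  have := clm_le hT t
  linarith

theorem continuous_qd {κ T : ℝ} (hT : 0 ≤ T) (h : √κ * √(2 * T) < Real.pi) :
    Continuous (qd κ T) := by
  have hc : Continuous fun t => 2 * clm T t := continuous_const.mul (continuous_clm T)
  have hm : ∀ t, 2 * clm T t ∈ Ici (0 : ℝ) := fun t => mul_nonneg zero_le_two (clm_nonneg _ _)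
  have h1 : Continuous fun t => hm1 κ (2 * clm T t) := (continuousOn_hm1 κ).comp_continuous hc hm
  have h2 : Continuous fun t => hm2 κ (2 * clm T t) := (continuousOn_hm2 κ).comp_continuous hc hm
  exact h2.neg.div (h1.pow 2) fun t => (pow_pos (hm1_pos_of hT h t) 2).ne'

/-- the `C¹` extension of `1 / (2 hm1 (2t))` from `[0,T]` -/
noncomputable def qq (κ T t : ℝ) : ℝ := 1 + ∫ s in (0 : ℝ)..t, qd κ T s

theorem hasDerivAt_qq {κ T : ℝ} (hT : 0 ≤ T) (h : √κ * √(2 * T) < Real.pi) (t : ℝ) :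
    HasDerivAt (qq κ T) (qd κ T t) t := by
  have hc := continuous_qd hT h
  exact (intervalIntegral.integral_hasDerivAt_right (hc.intervalIntegrable _ _)
    hc.stronglyMeasurable.stronglyMeasurableAtFilter hc.continuousAt).const_add 1

theorem qq_eq {κ T t : ℝ} (h : √κ * √(2 * T) < Real.pi) (h0 : 0 ≤ t) (h1 : t ≤ T) :
    qq κ T t = 1 / (2 * hm1 κ (2 * t)) := by
  have hT : 0 ≤ T := h0.trans h1
  have hpos : ∀ s, 0 ≤ s → s ≤ T → 0 < hm1 κ (2 * s) := by
    intro s hs hs'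
    have := hm1_pos_of hT h s
    rwa [clm_of_mem hs hs'] at this
  have key : ∫ s in (0 : ℝ)..t, qd κ T s = 1 / (2 * hm1 κ (2 * t)) - 1 / (2 * hm1 κ (2 * 0)) := by
    refine intervalIntegral.integral_eq_sub_of_hasDerivAt_of_le
      (f := fun s => 1 / (2 * hm1 κ (2 * s))) h0 ?_ ?_ ?_
    · have hc : ContinuousOn (fun s => hm1 κ (2 * s)) (Icc 0 t) :=
        (continuousOn_hm1 κ).comp (continuous_const.mul continuous_id).continuousOn
          fun s hs => mul_nonneg zero_le_two hs.1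
      exact continuousOn_const.div (continuousOn_const.mul hc) fun s hs =>
        (mul_pos two_pos (hpos s hs.1 (hs.2.trans h1))).ne'
    · intro s hs
      have hs0 : 0 < s := hs.1
      have hd : HasDerivAt (fun s => hm1 κ (2 * s)) (hm2 κ (2 * s) * 2) s := by
        have e := (hasDerivAt_hm1 (κ := κ) (y := 2 * s) (by linarith))
        have e2 : HasDerivAt (fun s : ℝ => 2 * s) 2 s := by
          simpa using (hasDerivAt_id s).const_mul (2 : ℝ)
        exact e.comp s e2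
      have hp := hpos s hs0.le (hs.2.le.trans h1)
      have hd2 := ((hasDerivAt_const s (1 : ℝ)).div (hd.const_mul 2) (mul_pos two_pos hp).ne')
      refine hd2.congr_deriv ?_
      unfold qd
      rw [clm_of_mem hs0.le (hs.2.le.trans h1)]
      field_simp
      ring
    · exact (continuous_qd hT h).intervalIntegrable _ _
  unfold qq
  rw [key]
  have : hm1 κ (2 * 0) = 1 / 2 := by simp [hm1]
  rw [this]
  ring

theorem sqrt_two_mul_half {r : ℝ} (hr : 0 ≤ r) : √(2 * (r ^ 2 / 2)) = r := by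
  rw [show 2 * (r ^ 2 / 2) = r ^ 2 by ring, Real.sqrt_sq hr]

theorem qq_pos {κ T t : ℝ} (h : √κ * √(2 * T) < Real.pi) (h0 : 0 ≤ t) (h1 : t ≤ T) :
    0 < qq κ T t := by
  rw [qq_eq h h0 h1]
  have := hm1_pos_of (h0.trans h1) h t
  rw [clm_of_mem h0 h1] at this
  positivity

/-- `q(r²/2) sn r = r` -/
theorem qq_mul_sn {κ T r : ℝ} (h : √κ * √(2 * T) < Real.pi) (hr : 0 ≤ r) (h1 : r ^ 2 / 2 ≤ T) :
    qq κ T (r ^ 2 / 2) * sn κ r = r := by
  have h0 : 0 ≤ r ^ 2 / 2 := by positivity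
  rw [qq_eq h h0 h1]
  have hp := hm1_pos_of (h0.trans h1) h (r ^ 2 / 2)
  rw [clm_of_mem h0 h1] at hp
  rcases hr.eq_or_lt with h2 | h2
  · rw [← h2, sn_zero_arg, mul_zero]
  · have e : 2 * (r ^ 2 / 2) = r ^ 2 := by ring
    rw [e] at hp ⊢
    unfold hm1 at hp ⊢
    rw [if_neg (by positivity), Real.sqrt_sq hr] at hp ⊢
    have hs : 0 < sn κ r := by
      rwa [div_pos_iff_of_pos_right (by positivity)] at hp
    field_simp

/-- `n cs q + sn r q'(r²/2) ≤ n - (2K/3) (r²/2)` -/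
theorem qq_main {κ T r : ℝ} (n : ℕ) (hn : 1 ≤ n) (h : √κ * √(2 * T) < Real.pi) (hr : 0 ≤ r)
    (h1 : r ^ 2 / 2 ≤ T) :
    n * cs κ r * qq κ T (r ^ 2 / 2) + sn κ r * (r * qd κ T (r ^ 2 / 2))
      ≤ n - 2 * ((n - 1) * κ) / 3 * (r ^ 2 / 2) := by
  have h0 : 0 ≤ r ^ 2 / 2 := by positivity
  have hn' : (1 : ℝ) ≤ n := by exact_mod_cast hn
  have hrT : √κ * r < Real.pi := by
    refine lt_of_le_of_lt (mul_le_mul_of_nonneg_left ?_ (Real.sqrt_nonneg _)) h
    rw [← sqrt_two_mul_half hr]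
    exact Real.sqrt_le_sqrt (by linarith)
  rcases hr.eq_or_lt with h2 | h2
  · rw [← h2]
    have e : qq κ T ((0 : ℝ) ^ 2 / 2) = 1 := by
      rw [show (0 : ℝ) ^ 2 / 2 = 0 by norm_num, qq_eq h le_rfl (by rw [← h2] at h1; simpa using h1)]
      simp [hm1]
    rw [e, sn_zero_arg, cs_zero_arg]
    norm_num
  · have hs : 0 < sn κ r := sn_pos' h2 hrT
    have e1 : qq κ T (r ^ 2 / 2) = r / sn κ r := by
      rw [eq_div_iff hs.ne']
      exact qq_mul_sn h hr h1
    have e2 : sn κ r * (r * qd κ T (r ^ 2 / 2)) = 1 - r * cs κ r / sn κ r := by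
      unfold qd
      rw [clm_of_mem h0 h1, show 2 * (r ^ 2 / 2) = r ^ 2 by ring]
      unfold hm1 hm2
      rw [if_neg (by positivity), if_neg (by positivity), Real.sqrt_sq hr]
      field_simp
      ring
    rw [e1, e2]
    have h3 := mul_cs_le hr hrT
    have h4 : r * cs κ r / sn κ r ≤ 1 - κ * r ^ 2 / 3 := by
      rwa [div_le_iff₀ hs]
    have h5 : (n : ℝ) * cs κ r * (r / sn κ r) = n * (r * cs κ r / sn κ r) := by ring
    rw [h5]
    have h6 := mul_le_mul_of_nonneg_left h4 (sub_nonneg.2 hn')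
    linarith

/-- **The test function** -/
theorem exists_test (κ : ℝ) (n : ℕ) (hn : 1 ≤ n) (R₁ R₂ : ℝ) (h1 : 0 < R₁) (h2 : R₁ < R₂)
    (h : √κ * R₂ < Real.pi) :
    ∃ Φ Φ' χ : ℝ → ℝ, Continuous Φ ∧ Continuous Φ' ∧ (∀ t, HasDerivAt Φ (Φ' t) t) ∧
      (∃ K, ∀ t, |Φ' t| ≤ K) ∧ (∃ K, ∀ t, 0 ≤ t → 0 ≤ Φ t ∧ Φ t ≤ K) ∧ Continuous χ ∧
      (∀ t, 0 ≤ χ t ∧ χ t ≤ 1) ∧ (∀ t, t ≤ R₁ ^ 2 / 2 → χ t = 1) ∧
      (∀ t, R₂ ^ 2 / 2 ≤ t → χ t = 0 ∧ Φ t = 0 ∧ Φ' t = 0) ∧
      ∀ r, 0 ≤ r → Φ (r ^ 2 / 2) * sn κ r = χ (r ^ 2 / 2) * r ∧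
        n * cs κ r * Φ (r ^ 2 / 2) + sn κ r * (r * Φ' (r ^ 2 / 2))
          ≤ χ (r ^ 2 / 2) * (n - 2 * ((n - 1) * κ) / 3 * (r ^ 2 / 2)) := by
  set t₁ := R₁ ^ 2 / 2 with ht₁
  set T := R₂ ^ 2 / 2 with hTdef
  have hR₂ : 0 ≤ R₂ := (h1.trans h2).le
  have hT1 : t₁ < T := by
    rw [ht₁, hTdef]
    have := pow_lt_pow_left₀ h2 h1.le two_ne_zero
    linarith
  have ht0 : 0 < t₁ := by positivity
  have hT0 : 0 ≤ T := (ht0.trans hT1).le
  have hh : √κ * √(2 * T) < Real.pi := by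
    rw [hTdef, sqrt_two_mul_half hR₂]
    exact h
  have hw : 0 < T - t₁ := sub_pos.2 hT1
  have hχd : ∀ t, HasDerivAt (fun t => 1 - stp ((t - t₁) / (T - t₁)))
      (-(stp' ((t - t₁) / (T - t₁)) * (1 / (T - t₁)))) t := by
    intro t
    have e : HasDerivAt (fun t => (t - t₁) / (T - t₁)) (1 / (T - t₁)) t :=
      ((hasDerivAt_id t).sub_const t₁).div_const (T - t₁)
    exact ((hasDerivAt_stp _).comp t e).const_sub 1
  have hχ'c : Continuous fun t => -(stp' ((t - t₁) / (T - t₁)) * (1 / (T - t₁))) := by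
    have := continuous_stp'
    fun_prop
  have hχ1 : ∀ t, t ≤ t₁ → 1 - stp ((t - t₁) / (T - t₁)) = 1 := by
    intro t ht
    rw [stp_of_nonpos (div_nonpos_of_nonpos_of_nonneg (by linarith) hw.le), sub_zero]
  have hge : ∀ t, T ≤ t → 1 ≤ (t - t₁) / (T - t₁) := by
    intro t ht
    rw [le_div_iff₀ hw]
    linarith
  have hχ0 : ∀ t, T ≤ t → 1 - stp ((t - t₁) / (T - t₁)) = 0 := by
    intro t ht
    rw [stp_of_one_le (hge t ht), sub_self]
  have hχm : ∀ t, 0 ≤ 1 - stp ((t - t₁) / (T - t₁)) ∧ 1 - stp ((t - t₁) / (T - t₁)) ≤ 1 := by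
    intro t
    have := stp_mem ((t - t₁) / (T - t₁))
    constructor <;> linarith [this.1, this.2]
  have hqd := hasDerivAt_qq (κ := κ) hT0 hh
  have hΦd : ∀ t, HasDerivAt (fun t => (1 - stp ((t - t₁) / (T - t₁))) * qq κ T t)
      (-(stp' ((t - t₁) / (T - t₁)) * (1 / (T - t₁))) * qq κ T t
        + (1 - stp ((t - t₁) / (T - t₁))) * qd κ T t) t := fun t => (hχd t).mul (hqd t)
  have hχc : Continuous fun t => 1 - stp ((t - t₁) / (T - t₁)) :=
    continuous_iff_continuousAt.2 fun t => (hχd t).continuousAt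
  have hqc : Continuous (qq κ T) := continuous_iff_continuousAt.2 fun t => (hqd t).continuousAt
  have hqdc := continuous_qd (κ := κ) hT0 hh
  have hΦ'c : Continuous fun t => -(stp' ((t - t₁) / (T - t₁)) * (1 / (T - t₁))) * qq κ T t
        + (1 - stp ((t - t₁) / (T - t₁))) * qd κ T t := (hχ'c.mul hqc).add (hχc.mul hqdc)
  have hΦ'0 : ∀ t, T ≤ t → -(stp' ((t - t₁) / (T - t₁)) * (1 / (T - t₁))) * qq κ T t
        + (1 - stp ((t - t₁) / (T - t₁))) * qd κ T t = 0 := by
    intro t ht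
    rw [hχ0 t ht, stp'_of_one_le (hge t ht)]
    ring
  have hΦ0 : ∀ t, T ≤ t → (1 - stp ((t - t₁) / (T - t₁))) * qq κ T t = 0 := by
    intro t ht
    rw [hχ0 t ht, zero_mul]
  refine ⟨fun t => (1 - stp ((t - t₁) / (T - t₁))) * qq κ T t,
    fun t => -(stp' ((t - t₁) / (T - t₁)) * (1 / (T - t₁))) * qq κ T t
      + (1 - stp ((t - t₁) / (T - t₁))) * qd κ T t,
    fun t => 1 - stp ((t - t₁) / (T - t₁)), hχc.mul hqc, hΦ'c, hΦd, ?_, ?_, hχc, hχm, hχ1,
    fun t ht => ⟨hχ0 t ht, hΦ0 t ht, hΦ'0 t ht⟩, ?_⟩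
  · -- bounded derivative
    obtain ⟨K, hK⟩ := (isCompact_Icc (a := (0 : ℝ)) (b := T)).exists_bound_of_continuousOn
      hΦ'c.continuousOn
    refine ⟨max K |qd κ T 0|, fun t => ?_⟩
    rcases le_total t 0 with ht | ht
    · refine le_trans ?_ (le_max_right _ _)
      have hz : (t - t₁) / (T - t₁) ≤ 0 :=
        div_nonpos_of_nonpos_of_nonneg (by linarith) hw.le
      have e1 : stp' ((t - t₁) / (T - t₁)) = 0 := by
        unfold stp'
        rw [max_eq_left hz, max_eq_left (by linarith), max_eq_left (by linarith)]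
        norm_num
      have e2 : qd κ T t = qd κ T 0 := by
        unfold qd clm
        rw [min_eq_left (ht.trans hT0), max_eq_left ht, min_eq_left hT0, max_self]
      show |-(stp' ((t - t₁) / (T - t₁)) * (1 / (T - t₁))) * qq κ T t
        + (1 - stp ((t - t₁) / (T - t₁))) * qd κ T t| ≤ |qd κ T 0|
      rw [e1, stp_of_nonpos hz, e2]
      simp
    · rcases le_total t T with ht' | ht'
      · exact (hK t ⟨ht, ht'⟩).trans (le_max_left _ _)
      · show |-(stp' ((t - t₁) / (T - t₁)) * (1 / (T - t₁))) * qq κ T t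
          + (1 - stp ((t - t₁) / (T - t₁))) * qd κ T t| ≤ _
        rw [hΦ'0 t ht', abs_zero]
        exact (abs_nonneg _).trans (le_max_right _ _)
  · obtain ⟨K, hK⟩ := (isCompact_Icc (a := (0 : ℝ)) (b := T)).exists_bound_of_continuousOn
      (hχc.mul hqc).continuousOn
    refine ⟨K, fun t ht => ?_⟩
    have hK0 : 0 ≤ K := (norm_nonneg _).trans (hK 0 ⟨le_rfl, hT0⟩)
    rcases le_total t T with ht' | ht'
    · exact ⟨mul_nonneg (hχm t).1 (qq_pos hh ht ht').le, (le_abs_self _).trans (hK t ⟨ht, ht'⟩)⟩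
    · show 0 ≤ (1 - stp ((t - t₁) / (T - t₁))) * qq κ T t ∧ _ ≤ K
      constructor
      · rw [hΦ0 t ht']
      · show (1 - stp ((t - t₁) / (T - t₁))) * qq κ T t ≤ K
        rw [hΦ0 t ht']
        exact hK0
  · intro r hr
    show (1 - stp ((r ^ 2 / 2 - t₁) / (T - t₁))) * qq κ T (r ^ 2 / 2) * sn κ r
        = (1 - stp ((r ^ 2 / 2 - t₁) / (T - t₁))) * r ∧
      n * cs κ r * ((1 - stp ((r ^ 2 / 2 - t₁) / (T - t₁))) * qq κ T (r ^ 2 / 2))
        + sn κ r * (r * (-(stp' ((r ^ 2 / 2 - t₁) / (T - t₁)) * (1 / (T - t₁))) * qq κ T (r ^ 2 / 2)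
        + (1 - stp ((r ^ 2 / 2 - t₁) / (T - t₁))) * qd κ T (r ^ 2 / 2)))
        ≤ (1 - stp ((r ^ 2 / 2 - t₁) / (T - t₁))) * (n - 2 * ((n - 1) * κ) / 3 * (r ^ 2 / 2))
    rcases le_total (r ^ 2 / 2) T with ht | ht
    · have hrT : √κ * r < Real.pi := by
        refine lt_of_le_of_lt (mul_le_mul_of_nonneg_left ?_ (Real.sqrt_nonneg _)) h
        have : r ^ 2 ≤ R₂ ^ 2 := by rw [hTdef] at ht; linarith
        exact (pow_le_pow_iff_left₀ hr hR₂ two_ne_zero).1 this
      refine ⟨by rw [mul_assoc, qq_mul_sn hh hr ht], ?_⟩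
      have hm := mul_le_mul_of_nonneg_left (qq_main n hn hh hr ht) (hχm (r ^ 2 / 2)).1
      have hs := sn_nonneg' hr hrT
      have hq := (qq_pos hh (by positivity : (0 : ℝ) ≤ r ^ 2 / 2) ht).le
      have hst := stp'_nonneg ((r ^ 2 / 2 - t₁) / (T - t₁))
      have hneg : 0 ≤ sn κ r * (r * ((stp' ((r ^ 2 / 2 - t₁) / (T - t₁)) * (1 / (T - t₁)))
          * qq κ T (r ^ 2 / 2))) := by positivity
      nlinarith [hm, hneg]
    · rw [hχ0 _ ht, stp'_of_one_le (hge _ ht)]
      simp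

end Vale.Agent.P233.H761
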