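import Vale.Agent.P233.H715.CDDef
import Vale.Agent.P233.H719.CDLip
import Mathlib.MeasureTheory.Measure.Decomposition.RadonNikodym

/-!
P233, stage 3a, block J (helper761): at almost every intermediate point the data `Pt` of the
pointwise inequality are available: density points, approximate continuity of the densities,
Jacobian inequalities.
-/

set_option linter.all false

open MeasureTheory Filter Topology Set Metric
open scoped ENNReal NNReal MeasureTheory RealInnerProductSpace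

universe u

namespace Vale.Agent.P233.H761.CDJ

open Vale.Agent.P233.RG Vale.Agent.P233.CDc Vale.Agent.P233.H719.CD3

section dens

variable {M : Type u} [MetricSpace M] [MeasurableSpace M] [BorelSpace M] {m : Measure M} {n : ℕ}

/-- `A` has density one at `z` -/
def DP (m : Measure M) (n : ℕ) (A : Set M) (z : M) : Prop :=
  ∀ η > 0, ∀ R > 0, ∀ᶠ r : ℝ in 𝓝[>] 0, m (ball z (R * r) \ A) ≤ ENNReal.ofReal (η * r ^ n)

theorem DP.mono {A B : Set M} {z : M} (h : DP m n A z) (hAB : A ⊆ B) : DP m n B z := by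
  intro η hη R hR
  filter_upwards [h η hη R hR] with r hr
  exact (measure_mono (diff_subset_diff_right hAB)).trans hr

theorem DP.inter {A B : Set M} {z : M} (hA : DP m n A z) (hB : DP m n B z) :
    DP m n (A ∩ B) z := by
  intro η hη R hR
  filter_upwards [hA (η / 2) (by positivity) R hR, hB (η / 2) (by positivity) R hR,
    self_mem_nhdsWithin] with r h1 h2 h3
  have hr : (0 : ℝ) < r := h3
  rw [diff_inter]
  calc _ ≤ m (ball z (R * r) \ A) + m (ball z (R * r) \ B) := measure_union_le _ _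
    _ ≤ ENNReal.ofReal (η / 2 * r ^ n) + ENNReal.ofReal (η / 2 * r ^ n) := add_le_add h1 h2
    _ = _ := by
      rw [← ENNReal.ofReal_add (by positivity) (by positivity)]
      congr 1; ring

/-- the volume of small balls -/
theorem vol_le (hG : GeoN m n) (z : M) {R : ℝ} (hR : 0 < R) :
    ∃ C : ℝ, 0 < C ∧ ∀ᶠ r : ℝ in 𝓝[>] 0, m (ball z (R * r)) ≤ ENNReal.ofReal (C * r ^ n) := by
  obtain ⟨c, hc, C, hC⟩ := hG.geo.vol z 1
  refine ⟨|C| * R ^ n + 1, by positivity, ?_⟩
  have h1 : ∀ᶠ r : ℝ in 𝓝[>] 0, r < 1 / R :=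
    nhdsWithin_le_nhds (Iio_mem_nhds (by positivity))
  filter_upwards [h1, self_mem_nhdsWithin] with r h2 h3
  have hr : (0 : ℝ) < r := h3
  have h4 : R * r ≤ 1 := by
    rw [lt_div_iff₀ hR] at h2; linarith
  refine ((hC z (mem_ball_self one_pos) (R * r) (by positivity) h4).2).trans ?_
  apply ENNReal.ofReal_le_ofReal
  have h5 : C * (R * r) ^ n ≤ |C| * (R * r) ^ n :=
    mul_le_mul_of_nonneg_right (le_abs_self C) (by positivity)
  have h6 : |C| * (R * r) ^ n = |C| * R ^ n * r ^ n := by rw [mul_pow]; ring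
  have h7 : (0 : ℝ) ≤ r ^ n := by positivity
  nlinarith

theorem ae_dp [SecondCountableTopology M] (hG : GeoN m n) {A : Set M} (hA : MeasurableSet A) :
    ∀ᵐ z ∂m, z ∈ A → DP m n A z := by
  haveI : IsUnifLocDoublingMeasure m := hG.geo.dbl
  haveI : IsLocallyFiniteMeasure m := ⟨fun x => ⟨ball x 1, ball_mem_nhds x one_pos, hG.fin x 1⟩⟩
  have h := IsUnifLocDoublingMeasure.ae_tendsto_measure_inter_div m A 1
  rw [ae_restrict_iff' hA] at h
  filter_upwards [h] with z hz hzA η hη R hR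
  obtain ⟨C, hC, hv⟩ := vol_le hG z (R := 2 * R) (by positivity)
  have hδ : Tendsto (fun r : ℝ => R * r) (𝓝[>] 0) (𝓝[>] 0) := by
    apply tendsto_nhdsWithin_iff.2
    refine ⟨?_, ?_⟩
    · have : Tendsto (fun r : ℝ => R * r) (𝓝 0) (𝓝 (R * 0)) := (continuous_const_mul R).tendsto 0
      rw [mul_zero] at this
      exact this.mono_left nhdsWithin_le_nhds
    · filter_upwards [self_mem_nhdsWithin] with r hr
      exact mul_pos hR hr
  have hlim := hz hzA (fun _ : ℝ => z) (fun r : ℝ => R * r) hδ (by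
    filter_upwards [self_mem_nhdsWithin] with r hr
    rw [one_mul]
    exact mem_closedBall_self (mul_pos hR hr).le)
  set ε : ℝ := min (1 / 2) (η / C) with hε
  have hε0 : 0 < ε := lt_min (by norm_num) (by positivity)
  have hε1 : ε < 1 := lt_of_le_of_lt (min_le_left _ _) (by norm_num)
  have hεC : ε * C ≤ η := by
    have : ε ≤ η / C := min_le_right _ _
    rw [le_div_iff₀ hC] at this; exact this
  have hev : ∀ᶠ r : ℝ in 𝓝[>] 0, ENNReal.ofReal (1 - ε) <
      m (A ∩ closedBall z (R * r)) / m (closedBall z (R * r)) := by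
    apply hlim.eventually_const_lt
    rw [← ENNReal.ofReal_one]
    exact (ENNReal.ofReal_lt_ofReal_iff one_pos).2 (by linarith)
  filter_upwards [hev, hv, self_mem_nhdsWithin] with r h1 h2 h3
  have hr : (0 : ℝ) < r := h3
  set B := closedBall z (R * r) with hB
  have hBsub : B ⊆ ball z (2 * R * r) := closedBall_subset_ball (by nlinarith [mul_pos hR hr])
  have hBfin : m B ≤ ENNReal.ofReal (C * r ^ n) := (measure_mono hBsub).trans h2
  have hBtop : m B ≠ ⊤ := (lt_of_le_of_lt hBfin ENNReal.ofReal_lt_top).ne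
  have h4 : ENNReal.ofReal (1 - ε) * m B ≤ m (A ∩ B) := by
    have := h1.le
    exact ENNReal.mul_le_of_le_div this
  have h5 : m (A ∩ B) + m (B \ A) = m B := by
    rw [inter_comm]; exact measure_inter_add_diff B hA
  have h6 : (m (B \ A)).toReal ≤ ε * (m B).toReal := by
    have t1 : m (A ∩ B) ≠ ⊤ := ne_top_of_le_ne_top hBtop (measure_mono inter_subset_right)
    have t2 : m (B \ A) ≠ ⊤ := ne_top_of_le_ne_top hBtop (measure_mono diff_subset)
    have e1 : (m (A ∩ B)).toReal + (m (B \ A)).toReal = (m B).toReal := by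
      rw [← ENNReal.toReal_add t1 t2, h5]
    have e2 : (1 - ε) * (m B).toReal ≤ (m (A ∩ B)).toReal := by
      have := ENNReal.toReal_mono t1 h4
      rw [ENNReal.toReal_mul, ENNReal.toReal_ofReal (by linarith)] at this
      exact this
    linarith
  have h7 : (m B).toReal ≤ C * r ^ n := by
    have := ENNReal.toReal_mono ENNReal.ofReal_ne_top hBfin
    rwa [ENNReal.toReal_ofReal (by positivity)] at this
  calc m (ball z (R * r) \ A) ≤ m (B \ A) := measure_mono (diff_subset_diff_left ball_subset_closedBall)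
    _ = ENNReal.ofReal (m (B \ A)).toReal :=
      (ENNReal.ofReal_toReal (ne_top_of_le_ne_top hBtop (measure_mono diff_subset))).symm
    _ ≤ _ := by
      apply ENNReal.ofReal_le_ofReal
      have h8 : ε * (m B).toReal ≤ ε * (C * r ^ n) := mul_le_mul_of_nonneg_left h7 hε0.le
      have h9 : ε * (C * r ^ n) ≤ η * r ^ n := by
        have : (0 : ℝ) ≤ r ^ n := by positivity
        nlinarith
      linarith

/-- approximate continuity -/
theorem ae_dp_preimage [SecondCountableTopology M] (hG : GeoN m n) {Y : Type*}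
    [TopologicalSpace Y] [SecondCountableTopology Y] [MeasurableSpace Y] [OpensMeasurableSpace Y]
    {f : M → Y} (hf : Measurable f) : ∀ᵐ z ∂m, ∀ V ∈ 𝓝 (f z), DP m n (f ⁻¹' V) z := by
  have h : ∀ᵐ z ∂m, ∀ U ∈ TopologicalSpace.countableBasis Y, z ∈ f ⁻¹' U → DP m n (f ⁻¹' U) z := by
    rw [ae_ball_iff (TopologicalSpace.countable_countableBasis Y)]
    intro U hU
    exact ae_dp hG (hf ((TopologicalSpace.isBasis_countableBasis Y).isOpen hU).measurableSet)
  filter_upwards [h] with z hz V hV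
  obtain ⟨U, hU, hzU, hUV⟩ := (TopologicalSpace.isBasis_countableBasis Y).mem_nhds_iff.1 hV
  exact (hz U hU hzU).mono (preimage_mono hUV)

theorem exists_small (K : ℝ≥0∞) (hK : K ≠ ⊤) {η : ℝ} (hη : 0 < η) :
    ∃ δ : ℝ, 0 < δ ∧ ENNReal.ofReal δ * K ≤ ENNReal.ofReal η := by
  refine ⟨η / (K.toReal + 1), by positivity, ?_⟩
  nth_rewrite 2 [← ENNReal.ofReal_toReal hK]
  rw [← ENNReal.ofReal_mul (by positivity)]
  apply ENNReal.ofReal_le_ofReal
  rw [div_mul_eq_mul_div, div_le_iff₀ (by positivity)]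
  have : 0 ≤ K.toReal := ENNReal.toReal_nonneg
  nlinarith

/-- the Jacobian inequality -/
theorem jac (hG : GeoN m n) {ν : Measure M} {ρs ρ : M → ℝ≥0∞} (hρ : Measurable ρ)
    (hν : ∀ A, MeasurableSet A → ν A = ∫⁻ x in A, ρ x ∂m) {X : M → M} {S : Set M} {z : M}
    (h1 : ∀ A ⊆ S, MeasurableSet A → ∫⁻ w in A, ρs w ∂m ≤ ν (X '' A))
    (hX : Measurable X) (hρs : Measurable ρs)
    (h2 : ∀ V ∈ 𝓝 (ρs z), DP m n (ρs ⁻¹' V) z)
    (h3 : ∀ V ∈ 𝓝 (ρ (X z)), DP m n ((fun w => ρ (X w)) ⁻¹' V) z)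
    {L : ℝ≥0∞} (hL : L ≠ ⊤) {r₁ : ℝ} (hr₁ : 0 < r₁) (h5 : ∀ A ⊆ S ∩ ball z r₁, m (X '' A) ≤ L * m A)
    (ha : ρs z ≠ ⊤) (hb0 : ρ (X z) ≠ 0) (hb : ρ (X z) ≠ ⊤) :
    ∀ η > 0, ∀ R > 0, ∀ᶠ r : ℝ in 𝓝[>] 0, ∀ A ⊆ S ∩ ball z (R * r), MeasurableSet A →
      ENNReal.ofReal (ρs z / ρ (X z)).toReal * m A ≤ m (X '' A) + ENNReal.ofReal (η * r ^ n) := by
  intro η hη R hR
  set a := ρs z with hadef
  set b := ρ (X z) with hbdef
  have hJ : a / b ≠ ⊤ := ENNReal.div_ne_top ha hb0
  obtain ⟨C, hC, hv⟩ := vol_le hG z hR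
  obtain ⟨δ, hδ, hδK⟩ := exists_small (b⁻¹ * (L + 1) * ENNReal.ofReal C)
    (ENNReal.mul_ne_top (ENNReal.mul_ne_top (ENNReal.inv_ne_top.2 hb0)
      (ENNReal.add_ne_top.2 ⟨hL, ENNReal.one_ne_top⟩)) ENNReal.ofReal_ne_top)
    (η := η / 2) (by positivity)
  obtain ⟨δ₂, hδ₂, hδ₂K⟩ := exists_small (a / b) hJ (η := η / 2) (by positivity)
  set δ' := ENNReal.ofReal δ with hδ'
  have hδ0 : δ' ≠ 0 := (ENNReal.ofReal_pos.2 hδ).ne'
  have hδt : δ' ≠ ⊤ := ENNReal.ofReal_ne_top
  have V1 : {t : ℝ≥0∞ | a < t + δ'} ∈ 𝓝 a := by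
    apply IsOpen.mem_nhds
    · exact isOpen_Ioi.preimage (by fun_prop : Continuous fun t : ℝ≥0∞ => t + δ')
    · exact ENNReal.lt_add_right ha hδ0
  have V2 : Iio (b + δ') ∈ 𝓝 b := Iio_mem_nhds (ENNReal.lt_add_right hb hδ0)
  have hGd := (h2 _ V1).inter (h3 _ V2)
  set G : Set M := ρs ⁻¹' {t : ℝ≥0∞ | a < t + δ'} ∩ (fun w => ρ (X w)) ⁻¹' Iio (b + δ') with hGdef
  have hGm : MeasurableSet G := by
    apply MeasurableSet.inter
    · exact hρs (isOpen_Ioi.preimage
        (by fun_prop : Continuous fun t : ℝ≥0∞ => t + δ')).measurableSet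
    · exact (hρ.comp hX) measurableSet_Iio
  have hr1 : ∀ᶠ r : ℝ in 𝓝[>] 0, R * r < r₁ := by
    have h0 : ∀ᶠ r : ℝ in 𝓝[>] 0, r < r₁ / R := nhdsWithin_le_nhds (Iio_mem_nhds (by positivity))
    filter_upwards [h0] with r h
    rw [lt_div_iff₀ hR] at h; linarith
  filter_upwards [hv, hGd δ₂ hδ₂ R hR, hr1, self_mem_nhdsWithin] with r k1 k2 k3 k4 A hA hAm
  have hr : (0 : ℝ) < r := k4
  have hrn : (0 : ℝ) ≤ r ^ n := by positivity
  rw [ENNReal.ofReal_toReal hJ]
  set A' := A ∩ G with hA'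
  have hA'm : MeasurableSet A' := hAm.inter hGm
  have hA'S : A' ⊆ S := fun w hw => (hA hw.1).1
  -- step 1
  have s1 : a * m A' ≤ ν (X '' A') + δ' * m A' := by
    calc a * m A' = ∫⁻ _ in A', a ∂m := by rw [setLIntegral_const]
      _ ≤ ∫⁻ w in A', (ρs w + δ') ∂m := by
        apply setLIntegral_mono' hA'm
        intro w hw
        exact (show a < ρs w + δ' from hw.2.1).le
      _ = ∫⁻ w in A', ρs w ∂m + δ' * m A' := by
        rw [lintegral_add_right _ measurable_const, setLIntegral_const]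
      _ ≤ _ := by gcongr; exact h1 A' hA'S hA'm
  -- step 2
  have s2 : ν (X '' A') ≤ (b + δ') * m (X '' A') := by
    set T := toMeasurable m (X '' A') ∩ ρ ⁻¹' Iio (b + δ') with hT
    have hTm : MeasurableSet T := (measurableSet_toMeasurable _ _).inter (hρ measurableSet_Iio)
    have hsub : X '' A' ⊆ T := by
      intro y hy
      refine ⟨subset_toMeasurable _ _ hy, ?_⟩
      obtain ⟨w, hw, rfl⟩ := hy
      exact hw.2.2
    calc ν (X '' A') ≤ ν T := measure_mono hsub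
      _ = ∫⁻ x in T, ρ x ∂m := hν T hTm
      _ ≤ ∫⁻ _ in T, (b + δ') ∂m := by
        apply setLIntegral_mono' hTm
        intro w hw
        exact (show ρ w < b + δ' from hw.2).le
      _ = (b + δ') * m T := by rw [setLIntegral_const]
      _ ≤ (b + δ') * m (X '' A') := by
        refine mul_le_mul_right ?_ _
        calc m T ≤ m (toMeasurable m (X '' A')) := measure_mono inter_subset_left
          _ = _ := measure_toMeasurable _
  -- step 3
  have hball : m A' ≤ ENNReal.ofReal (C * r ^ n) :=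
    (measure_mono fun w hw => (hA hw.1).2).trans k1
  have s3 : m (X '' A') ≤ L * m A' := h5 A' fun w hw =>
    ⟨hA'S hw, ball_subset_ball k3.le (hA hw.1).2⟩
  have s4 : a * m A' ≤ b * m (X '' A') + δ' * ((L + 1) * m A') := by
    calc a * m A' ≤ (b + δ') * m (X '' A') + δ' * m A' := s1.trans (by gcongr)
      _ = b * m (X '' A') + δ' * (m (X '' A') + m A') := by ring
      _ ≤ b * m (X '' A') + δ' * (L * m A' + m A') := by gcongr
      _ = _ := by ring
  have s5 : a / b * m A' ≤ m (X '' A') + ENNReal.ofReal (η / 2 * r ^ n) := by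
    calc a / b * m A' = b⁻¹ * (a * m A') := by rw [div_eq_mul_inv]; ring
      _ ≤ b⁻¹ * (b * m (X '' A') + δ' * ((L + 1) * m A')) := by gcongr
      _ = b⁻¹ * b * m (X '' A') + δ' * (b⁻¹ * (L + 1)) * m A' := by ring
      _ = m (X '' A') + δ' * (b⁻¹ * (L + 1)) * m A' := by
        rw [ENNReal.inv_mul_cancel hb0 hb, one_mul]
      _ ≤ m (X '' A') + δ' * (b⁻¹ * (L + 1)) * (ENNReal.ofReal C * ENNReal.ofReal (r ^ n)) := by
        rw [← ENNReal.ofReal_mul hC.le]; gcongr
      _ = m (X '' A') + δ' * (b⁻¹ * (L + 1) * ENNReal.ofReal C) * ENNReal.ofReal (r ^ n) := by ring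
      _ ≤ m (X '' A') + ENNReal.ofReal (η / 2) * ENNReal.ofReal (r ^ n) := by gcongr
      _ = _ := by rw [← ENNReal.ofReal_mul (by positivity)]
  have s6 : m (A \ G) ≤ ENNReal.ofReal (δ₂ * r ^ n) :=
    (measure_mono fun w hw => (⟨(hA hw.1).2, hw.2⟩ : w ∈ ball z (R * r) \ G)).trans k2
  calc a / b * m A ≤ a / b * (m A' + m (A \ G)) := by
        gcongr; exact measure_le_inter_add_diff m A G
    _ = a / b * m A' + a / b * m (A \ G) := by ring
    _ ≤ (m (X '' A') + ENNReal.ofReal (η / 2 * r ^ n)) + a / b * ENNReal.ofReal (δ₂ * r ^ n) := by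
        gcongr
    _ ≤ (m (X '' A) + ENNReal.ofReal (η / 2 * r ^ n)) + ENNReal.ofReal (η / 2 * r ^ n) := by
        gcongr
        · exact inter_subset_left
        · rw [ENNReal.ofReal_mul hδ₂.le, ENNReal.ofReal_mul (by positivity : (0 : ℝ) ≤ η / 2)]
          calc a / b * (ENNReal.ofReal δ₂ * ENNReal.ofReal (r ^ n)) =
                (ENNReal.ofReal δ₂ * (a / b)) * ENNReal.ofReal (r ^ n) := by ring
            _ ≤ _ := by gcongr
    _ = _ := by
        rw [add_assoc, ← ENNReal.ofReal_add (by positivity) (by positivity)]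
        congr 2; ring

end dens

/-! ### the end statement -/

section main

variable {M : Type u} [MetricSpace M] [CompleteSpace M] [SecondCountableTopology M]
  [MeasurableSpace M] [BorelSpace M] {n : ℕ} {s : ℝ} {G : Set (M × M)} {F : M → M × M}

/-- continuity of the potentials along the intermediate points -/
theorem cont_pot {X Y : M → M} {S : Set M} {u u' : M → ℝ}
    (hX : ContinuousOn X S) (hY : ContinuousOn Y S)
    (mono : ∀ w ∈ S, ∀ w' ∈ S, u w + u' w' ≤ dist (X w) (Y w') ^ 2 / 2)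
    (eq : ∀ w ∈ S, u w + u' w = dist (X w) (Y w) ^ 2 / 2) : ContinuousOn u S := by
  intro w hw
  have hXw := hX w hw
  have hYw := hY w hw
  have c1 : Tendsto (fun w' => u w + (dist (X w') (Y w) ^ 2 / 2 - dist (X w) (Y w) ^ 2 / 2))
      (𝓝[S] w) (𝓝 (u w + (dist (X w) (Y w) ^ 2 / 2 - dist (X w) (Y w) ^ 2 / 2))) :=
    (((hXw.tendsto.dist tendsto_const_nhds).pow 2).div_const 2 |>.sub_const _).const_add _
  have c2 : Tendsto (fun w' => u w - (dist (X w) (Y w') ^ 2 / 2 - dist (X w') (Y w') ^ 2 / 2))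
      (𝓝[S] w) (𝓝 (u w - (dist (X w) (Y w) ^ 2 / 2 - dist (X w) (Y w) ^ 2 / 2))) :=
    ((((tendsto_const_nhds.dist hYw.tendsto).pow 2).div_const 2).sub
      (((hXw.tendsto.dist hYw.tendsto).pow 2).div_const 2)).const_sub _
  rw [sub_self, add_zero] at c1
  rw [sub_self, sub_zero] at c2
  refine tendsto_of_tendsto_of_tendsto_of_le_of_le' c2 c1 ?_ ?_
  · filter_upwards [self_mem_nhdsWithin] with w' hw'
    have h1 := mono w hw w' hw'
    have h2 := eq w' hw'
    linarith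
  · filter_upwards [self_mem_nhdsWithin] with w' hw'
    have h1 := mono w' hw' w hw
    have h2 := eq w hw
    linarith

/-- **block J** -/
theorem J {κ : ℝ} (hn : 1 ≤ n) (hs0 : 0 < s) (hs1 : s < 1) (hG : GeoN (μH[n] : Measure M) n)
    (hc : IsClosed G) (hmono : Mono2 G) {φ ψ : M → ℝ}
    (hle : ∀ p ∈ G, ∀ p' ∈ G, φ p.1 + ψ p'.2 ≤ dist p.1 p'.2 ^ 2 / 2)
    (heq : ∀ p ∈ G, φ p.1 + ψ p.2 = dist p.1 p.2 ^ 2 / 2)
    (hF : Inv s G F) (hFd : ∀ w, w ∉ Sh s G → F w = (w, w))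
    {μ₀ μ₁ : Measure M} [IsProbabilityMeasure μ₀] [IsProbabilityMeasure μ₁]
    (h₀ : μ₀ ≪ (μH[n] : Measure M)) (h₁ : μ₁ ≪ (μH[n] : Measure M))
    {q : Measure (M × M)} (hq0 : q.map Prod.fst = μ₀) (hq1 : q.map Prod.snd = μ₁)
    (hqG : ∀ᵐ p ∂q, p ∈ G) {Z : M × M → M} (hZ : Measurable Z)
    (hZs : ∀ᵐ p ∂q, SP s p.1 p.2 (Z p)) :
    ∀ᵐ p ∂q, (0 < μ₀.rnDeriv μH[n] p.1 ∧ μ₀.rnDeriv μH[n] p.1 < ⊤ ∧
        0 < μ₁.rnDeriv μH[n] p.2 ∧ μ₁.rnDeriv μH[n] p.2 < ⊤ ∧
        (q.map Z).rnDeriv μH[n] (Z p) < ⊤) ∧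
      (∀ L : M → E n, Reg κ n (Z p) L → 0 < dist p.1 p.2 → √κ * dist p.1 p.2 < Real.pi →
        Pt κ n s (Z p) L (Sh s G) (fun w => (F w).1) (fun w => (F w).2)
          (fun w => φ (F w).1) (fun w => ψ (F w).2)
          ((q.map Z).rnDeriv μH[n] (Z p) / μ₀.rnDeriv μH[n] p.1).toReal
          ((q.map Z).rnDeriv μH[n] (Z p) / μ₁.rnDeriv μH[n] p.2).toReal) ∧
      (p.1 = p.2 → (q.map Z).rnDeriv μH[n] (Z p) ≤ μ₀.rnDeriv μH[n] p.1 ∧
        (q.map Z).rnDeriv μH[n] (Z p) ≤ μ₁.rnDeriv μH[n] p.2) := by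
  haveI : ProperSpace M := hG.geo.proper
  haveI : IsLocallyFiniteMeasure (μH[n] : Measure M) :=
    ⟨fun x => ⟨ball x 1, ball_mem_nhds x one_pos, hG.fin x 1⟩⟩
  haveI hqp : IsProbabilityMeasure q := by
    constructor
    have h1 : μ₀ univ = 1 := measure_univ
    rw [← hq0, Measure.map_apply measurable_fst MeasurableSet.univ] at h1
    simpa using h1
  haveI : IsProbabilityMeasure (q.map Z) := Measure.isProbabilityMeasure_map hZ.aemeasurable
  have hShc : IsClosed (Sh s G) := isClosed_Sh hs0 hs1 hmono hc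
  have hShm : MeasurableSet (Sh s G) := hShc.measurableSet
  have hFm : Measurable F := hF.measurable hFd hShc
  have hXm : Measurable fun w => (F w).1 := measurable_fst.comp hFm
  have hYm : Measurable fun w => (F w).2 := measurable_snd.comp hFm
  have hac : q.map Z ≪ (μH[n] : Measure M) :=
    hF.ac (Nat.cast_nonneg n) hqG hZ.aemeasurable hZs (Or.inl (by rw [hq0]; exact h₀))
  set m : Measure M := μH[n] with hm
  set ρs := (q.map Z).rnDeriv m with hρs
  set ρ₀ := μ₀.rnDeriv m with hρ₀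
  set ρ₁ := μ₁.rnDeriv m with hρ₁
  have hρsm : Measurable ρs := Measure.measurable_rnDeriv _ _
  have hρ₀m : Measurable ρ₀ := Measure.measurable_rnDeriv _ _
  have hρ₁m : Measurable ρ₁ := Measure.measurable_rnDeriv _ _
  -- densities
  have d0 : ∀ A, MeasurableSet A → μ₀ A = ∫⁻ x in A, ρ₀ x ∂m := fun A hA =>
    (Measure.setLIntegral_rnDeriv h₀ A).symm
  have d1 : ∀ A, MeasurableSet A → μ₁ A = ∫⁻ x in A, ρ₁ x ∂m := fun A hA =>
    (Measure.setLIntegral_rnDeriv h₁ A).symm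
  have ds : ∀ A, MeasurableSet A → (q.map Z) A = ∫⁻ x in A, ρs x ∂m := fun A hA =>
    (Measure.setLIntegral_rnDeriv hac A).symm
  -- images
  have i0 : ∀ A ⊆ Sh s G, MeasurableSet A → ∫⁻ w in A, ρs w ∂m ≤ μ₀ ((fun w => (F w).1) '' A) := by
    intro A hA hAm
    rw [← ds A hAm, Measure.map_apply hZ hAm]
    set T := toMeasurable μ₀ ((fun w => (F w).1) '' A) with hT
    have hTm : MeasurableSet T := measurableSet_toMeasurable _ _
    calc q (Z ⁻¹' A) ≤ q (Prod.fst ⁻¹' T) := by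
          apply measure_mono_ae
          filter_upwards [hqG, hZs] with p hp1 hp2 hp3
          apply subset_toMeasurable
          refine ⟨Z p, hp3, ?_⟩
          simp only
          rw [hF.eq p hp1 _ hp2]
      _ = μ₀ T := by rw [← hq0, Measure.map_apply measurable_fst hTm]
      _ = _ := measure_toMeasurable _
  have i1 : ∀ A ⊆ Sh s G, MeasurableSet A → ∫⁻ w in A, ρs w ∂m ≤ μ₁ ((fun w => (F w).2) '' A) := by
    intro A hA hAm
    rw [← ds A hAm, Measure.map_apply hZ hAm]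
    set T := toMeasurable μ₁ ((fun w => (F w).2) '' A) with hT
    have hTm : MeasurableSet T := measurableSet_toMeasurable _ _
    calc q (Z ⁻¹' A) ≤ q (Prod.snd ⁻¹' T) := by
          apply measure_mono_ae
          filter_upwards [hqG, hZs] with p hp1 hp2 hp3
          apply subset_toMeasurable
          refine ⟨Z p, hp3, ?_⟩
          simp only
          rw [hF.eq p hp1 _ hp2]
      _ = μ₁ T := by rw [← hq1, Measure.map_apply measurable_snd hTm]
      _ = _ := measure_toMeasurable _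
  -- the exceptional sets for `m`
  have e1 := ae_dp (m := m) (n := n) hG hShm
  have e2 := ae_dp_preimage (m := m) (n := n) hG hρsm
  have e3 := ae_dp_preimage (m := m) (n := n) hG (hρ₀m.comp hXm)
  have e4 := ae_dp_preimage (m := m) (n := n) hG (hρ₁m.comp hYm)
  have e5 : ∀ᵐ z ∂m, ρs z < ⊤ := Measure.rnDeriv_lt_top _ _
  -- the diagonal part
  set D : Set M := Sh s G ∩ {w | F w = (w, w)} with hD
  have hDm : MeasurableSet D := by
    apply hShm.inter
    exact measurableSet_eq_fun hFm (by fun_prop)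
  have e6 : ∀ᵐ z ∂m, z ∈ D → ρs z ≤ ρ₀ z := by
    rw [← ae_restrict_iff' hDm]
    apply ae_le_of_forall_setLIntegral_le_of_sigmaFinite₀ hρsm.aemeasurable
    intro A hA _
    rw [Measure.restrict_restrict hA]
    have hAD : MeasurableSet (A ∩ D) := hA.inter hDm
    calc ∫⁻ w in A ∩ D, ρs w ∂m ≤ μ₀ ((fun w => (F w).1) '' (A ∩ D)) :=
          i0 _ (fun w hw => hw.2.1) hAD
      _ = μ₀ (A ∩ D) := by
          congr 1
          ext w
          constructor
          · rintro ⟨w', hw', rfl⟩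
            have : F w' = (w', w') := hw'.2.2
            simp only [this]; exact hw'
          · intro hw
            refine ⟨w, hw, ?_⟩
            have : F w = (w, w) := hw.2.2
            simp only [this]
      _ = _ := d0 _ hAD
  have e7 : ∀ᵐ z ∂m, z ∈ D → ρs z ≤ ρ₁ z := by
    rw [← ae_restrict_iff' hDm]
    apply ae_le_of_forall_setLIntegral_le_of_sigmaFinite₀ hρsm.aemeasurable
    intro A hA _
    rw [Measure.restrict_restrict hA]
    have hAD : MeasurableSet (A ∩ D) := hA.inter hDm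
    calc ∫⁻ w in A ∩ D, ρs w ∂m ≤ μ₁ ((fun w => (F w).2) '' (A ∩ D)) :=
          i1 _ (fun w hw => hw.2.1) hAD
      _ = μ₁ (A ∩ D) := by
          congr 1
          ext w
          constructor
          · rintro ⟨w', hw', rfl⟩
            have : F w' = (w', w') := hw'.2.2
            simp only [this]; exact hw'
          · intro hw
            refine ⟨w, hw, ?_⟩
            have : F w = (w, w) := hw.2.2
            simp only [this]
      _ = _ := d1 _ hAD
  have E : ∀ᵐ p ∂q, (Z p ∈ Sh s G → DP m n (Sh s G) (Z p)) ∧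
      (∀ V ∈ 𝓝 (ρs (Z p)), DP m n (ρs ⁻¹' V) (Z p)) ∧
      (∀ V ∈ 𝓝 (ρ₀ (F (Z p)).1), DP m n ((fun w => ρ₀ (F w).1) ⁻¹' V) (Z p)) ∧
      (∀ V ∈ 𝓝 (ρ₁ (F (Z p)).2), DP m n ((fun w => ρ₁ (F w).2) ⁻¹' V) (Z p)) ∧
      ρs (Z p) < ⊤ ∧ (Z p ∈ D → ρs (Z p) ≤ ρ₀ (Z p)) ∧ (Z p ∈ D → ρs (Z p) ≤ ρ₁ (Z p)) := by
    have h1 : ∀ᵐ z ∂(q.map Z), (z ∈ Sh s G → DP m n (Sh s G) z) ∧
      (∀ V ∈ 𝓝 (ρs z), DP m n (ρs ⁻¹' V) z) ∧
      (∀ V ∈ 𝓝 (ρ₀ (F z).1), DP m n ((fun w => ρ₀ (F w).1) ⁻¹' V) z) ∧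
      (∀ V ∈ 𝓝 (ρ₁ (F z).2), DP m n ((fun w => ρ₁ (F w).2) ⁻¹' V) z) ∧
      ρs z < ⊤ ∧ (z ∈ D → ρs z ≤ ρ₀ z) ∧ (z ∈ D → ρs z ≤ ρ₁ z) := by
      apply hac.ae_le
      filter_upwards [e1, e2, e3, e4, e5, e6, e7] with z a1 a2 a3 a4 a5 a6 a7
      exact ⟨a1, a2, a3, a4, a5, a6, a7⟩
    exact ae_of_ae_map hZ.aemeasurable h1
  have P0 : ∀ᵐ p ∂q, 0 < ρ₀ p.1 ∧ ρ₀ p.1 < ⊤ := by
    have h1 : ∀ᵐ x ∂(q.map Prod.fst), 0 < ρ₀ x ∧ ρ₀ x < ⊤ := by
      rw [hq0]
      filter_upwards [Measure.rnDeriv_pos h₀, h₀.ae_le (Measure.rnDeriv_lt_top μ₀ m)] with x a b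
      exact ⟨a, b⟩
    exact ae_of_ae_map measurable_fst.aemeasurable h1
  have P1 : ∀ᵐ p ∂q, 0 < ρ₁ p.2 ∧ ρ₁ p.2 < ⊤ := by
    have h1 : ∀ᵐ x ∂(q.map Prod.snd), 0 < ρ₁ x ∧ ρ₁ x < ⊤ := by
      rw [hq1]
      filter_upwards [Measure.rnDeriv_pos h₁, h₁.ae_le (Measure.rnDeriv_lt_top μ₁ m)] with x a b
      exact ⟨a, b⟩
    exact ae_of_ae_map measurable_snd.aemeasurable h1
  filter_upwards [E, P0, P1, hqG, hZs] with p hE hp0 hp1 hpG hpZ
  obtain ⟨E1, E2, E3, E4, E5, E6, E7⟩ := hE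
  have hSh : Z p ∈ Sh s G := ⟨p, hpG, hpZ⟩
  have hFZ : F (Z p) = p := hF.eq p hpG _ hpZ
  refine ⟨⟨hp0.1, hp0.2, hp1.1, hp1.2, E5⟩, ?_, ?_⟩
  · intro L hReg hpos hlt
    have hle' : ∀ w ∈ Sh s G, ∀ w' ∈ Sh s G,
        φ (F w).1 + ψ (F w').2 ≤ dist (F w).1 (F w').2 ^ 2 / 2 :=
      fun w hw w' hw' => hle _ (hF.mem w hw) _ (hF.mem w' hw')
    have heq' : ∀ w ∈ Sh s G, φ (F w).1 + ψ (F w).2 = dist (F w).1 (F w).2 ^ 2 / 2 :=
      fun w hw => heq _ (hF.mem w hw)
    have cX : ContinuousOn (fun w => (F w).1) (Sh s G) := hF.cont.fst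
    have cY : ContinuousOn (fun w => (F w).2) (Sh s G) := hF.cont.snd
    have cu : ContinuousOn (fun w => φ (F w).1) (Sh s G) := cont_pot cX cY hle' heq'
    have cu' : ContinuousOn (fun w => ψ (F w).2) (Sh s G) := by
      apply cont_pot (u' := fun w => φ (F w).1) cY cX
      · intro w hw w' hw'
        rw [add_comm, dist_comm]; exact hle' w' hw' w hw
      · intro w hw
        rw [add_comm, dist_comm]; exact heq' w hw
    obtain ⟨CL, hCL⟩ := hF.lip (Z p) 1
    have hvol : ∀ (f : M → M), LipschitzOnWith CL f (Sh s G ∩ closedBall (Z p) 1) →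
        ∀ A ⊆ Sh s G ∩ ball (Z p) 1, m (f '' A) ≤ ((CL : ℝ≥0∞) ^ (n : ℝ)) * m A := by
      intro f hf A hA
      exact (hf.mono (hA.trans (inter_subset_inter_right _ ball_subset_closedBall))
        ).hausdorffMeasure_image_le (Nat.cast_nonneg n)
    have hCLt : ((CL : ℝ≥0∞) ^ (n : ℝ)) ≠ ⊤ :=
      (ENNReal.rpow_lt_top_of_nonneg (Nat.cast_nonneg n) ENNReal.coe_ne_top).ne
    have L1 : LipschitzOnWith CL (fun w => (F w).1) (Sh s G ∩ closedBall (Z p) 1) := by
      have := (LipschitzWith.prod_fst (α := M) (β := M)).comp_lipschitzOnWith hCL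
      simpa [Function.comp_def] using this
    have L2 : LipschitzOnWith CL (fun w => (F w).2) (Sh s G ∩ closedBall (Z p) 1) := by
      have := (LipschitzWith.prod_snd (α := M) (β := M)).comp_lipschitzOnWith hCL
      simpa [Function.comp_def] using this
    have J0 := jac hG (ν := μ₀) hρ₀m d0 (X := fun w => (F w).1) (S := Sh s G) (z := Z p) i0 hXm hρsm
      E2 E3 hCLt one_pos (hvol _ L1) E5.ne (by rw [hFZ]; exact hp0.1.ne')
      (by rw [hFZ]; exact hp0.2.ne)
    have J1 := jac hG (ν := μ₁) hρ₁m d1 (X := fun w => (F w).2) (S := Sh s G) (z := Z p) i1 hYm hρsm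
      E2 E4 hCLt one_pos (hvol _ L2) E5.ne (by rw [hFZ]; exact hp1.1.ne')
      (by rw [hFZ]; exact hp1.2.ne)
    simp only [hFZ] at J0 J1
    refine
      { n_pos := hn
        s_pos := hs0
        s_lt := hs1
        reg := hReg
        zS := hSh
        pos := by simp only [hFZ]; exact hpos
        lt := by simp only [hFZ]; exact hlt
        gx := fun w hw => (hF.sp w hw).1
        gy := fun w hw => (hF.sp w hw).2
        mono := hle'
        eq := heq'
        lip := hF.lip_at subset_rfl hSh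
        meas := hShm
        meas_x := ?_
        meas_y := ?_
        dens := E1 hSh
        Jm_nonneg := ENNReal.toReal_nonneg
        Jp_nonneg := ENNReal.toReal_nonneg
        jm := J0
        jp := J1 }
    · intro c
      have h1 : ContinuousOn (fun w => dist (F w).1 (Z p) ^ 2 / (2 * s) - φ (F w).1) (Sh s G) :=
        (((((continuous_id.dist continuous_const).comp_continuousOn cX)).pow 2).div_const _).sub cu
      exact (h1.preimage_isClosed_of_isClosed hShc isClosed_Iic).measurableSet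
    · intro c
      have h1 : ContinuousOn (fun w => dist (Z p) (F w).2 ^ 2 / (2 * (1 - s)) - ψ (F w).2)
          (Sh s G) :=
        (((((continuous_const.dist continuous_id).comp_continuousOn cY)).pow 2).div_const _).sub cu'
      exact (h1.preimage_isClosed_of_isClosed hShc isClosed_Iic).measurableSet
  · intro h12
    have hz : Z p = p.1 := by
      have h3 := hpZ.1
      rw [← h12, dist_self, mul_zero] at h3
      exact (dist_eq_zero.1 h3).symm
    have hzD : Z p ∈ D := by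
      refine ⟨hSh, ?_⟩
      simp only [mem_setOf_eq]
      rw [hFZ, hz]
      exact Prod.ext rfl h12.symm
    refine ⟨?_, ?_⟩
    · have := E6 hzD
      rwa [hz] at this ⊢
    · have := E7 hzD
      rw [← h12]
      rwa [hz] at this ⊢

end main

end Vale.Agent.P233.H761.CDJ
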