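import Vale.Agent.P233.AB.StmtAB
import Mathlib.Analysis.SpecialFunctions.Trigonometric.Series

/-!
P233, stage 3 (CD(K,N) verbatim), part (3a), helper761: the end-point maps of a family of geodesics
with `d²`-monotone end points are Lipschitz functions of the intermediate point (curvature `≥ κ`,
`κ ≤ 0`, bounded lengths), in particular the geodesics do not cross.
-/

set_option linter.all false

open MeasureTheory Filter Topology Real Set

namespace Vale.Agent.P233.H761.CD

open Vale.Agent.P233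

/-! ### real analysis -/

theorem convexOn_sinh : ConvexOn ℝ (Ici 0) sinh := by
  apply convexOn_of_deriv2_nonneg (convex_Ici 0) Real.continuous_sinh.continuousOn
    Real.differentiable_sinh.differentiableOn
  · rw [Real.deriv_sinh]; exact Real.differentiable_cosh.differentiableOn
  · intro x hx
    rw [interior_Ici] at hx
    have : deriv^[2] sinh x = sinh x := by
      simp [Function.iterate_succ, Real.deriv_sinh, Real.deriv_cosh]
    rw [this]
    exact Real.sinh_nonneg_iff.2 (le_of_lt hx)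

theorem sinh_le_mul {r A : ℝ} (h0 : 0 ≤ r) (h : r ≤ A) (hA : 0 < A) : sinh r ≤ r / A * sinh A := by
  have h1 : 0 ≤ r / A := div_nonneg h0 hA.le
  have h2 : r / A ≤ 1 := by rw [div_le_one hA]; exact h
  have h3 := convexOn_sinh.2 (x := 0) (by simp) (y := A) hA.le (sub_nonneg.2 h2) h1 (by ring)
  simp only [smul_eq_mul, mul_zero, zero_add, Real.sinh_zero] at h3
  rw [div_mul_cancel₀ _ hA.ne'] at h3
  exact h3

/-- tangent inequality for the convex function `u ↦ cosh √u` -/
theorem cosh_tangent {r A : ℝ} (h0 : 0 ≤ r) (hA : 0 < A) :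
    cosh A + sinh A / (2 * A) * (r ^ 2 - A ^ 2) ≤ cosh r := by
  set F : ℝ → ℝ := fun r => cosh r - sinh A / (2 * A) * r ^ 2 with hF
  have hd : ∀ r, HasDerivAt F (sinh r - r / A * sinh A) r := by
    intro r
    have h1 := (Real.hasDerivAt_cosh r).sub
      (((hasDerivAt_id r).pow 2).const_mul (sinh A / (2 * A)))
    refine h1.congr_deriv ?_
    simp only [id]
    field_simp
    ring
  have hcont : Continuous F := continuous_iff_continuousAt.2 fun r => (hd r).continuousAt
  have hmain : F A ≤ F r := by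
    rcases le_total r A with h | h
    · have hanti : AntitoneOn F (Icc 0 A) := by
        apply antitoneOn_of_deriv_nonpos (convex_Icc 0 A) hcont.continuousOn
        · exact fun x _ => (hd x).differentiableAt.differentiableWithinAt
        · intro x hx
          rw [interior_Icc] at hx
          rw [(hd x).deriv]
          have := sinh_le_mul hx.1.le hx.2.le hA
          linarith
      exact hanti ⟨h0, h⟩ ⟨hA.le, le_refl A⟩ h
    · have hmono : MonotoneOn F (Ici A) := by
        apply monotoneOn_of_deriv_nonneg (convex_Ici A) hcont.continuousOn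
        · exact fun x _ => (hd x).differentiableAt.differentiableWithinAt
        · intro x hx
          rw [interior_Ici] at hx
          rw [(hd x).deriv]
          have hx0 : 0 < x := hA.trans hx
          have h1 := sinh_le_mul hA.le (le_of_lt hx) hx0
          have h2 : x / A * sinh A ≤ x / A * (A / x * sinh x) :=
            mul_le_mul_of_nonneg_left h1 (div_nonneg hx0.le hA.le)
          have h3 : x / A * (A / x * sinh x) = sinh x := by field_simp
          linarith
      exact hmono (mem_Ici.2 (le_refl A)) (mem_Ici.2 h) h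
  simp only [hF] at hmain
  have e : sinh A / (2 * A) * (r ^ 2 - A ^ 2) =
    sinh A / (2 * A) * r ^ 2 - sinh A / (2 * A) * A ^ 2 := by ring
  rw [e]; linarith

theorem one_add_le_cosh (r : ℝ) : 1 + r ^ 2 / 2 ≤ cosh r := by
  have h1 : |r / 2| ≤ sinh |r / 2| := Real.self_le_sinh_iff.2 (abs_nonneg _)
  have h2 : cosh r = 1 + 2 * sinh (r / 2) ^ 2 := by
    have h3 := Real.cosh_two_mul (r / 2)
    have h4 := Real.cosh_sq (r / 2)
    have h5 : 2 * (r / 2) = r := by ring
    rw [h5] at h3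
    rw [h3, h4]; ring
  have h3 : (r / 2) ^ 2 ≤ sinh (r / 2) ^ 2 := by
    rw [sq_le_sq]
    calc |r / 2| ≤ sinh |r / 2| := h1
      _ = |sinh (r / 2)| := by
        rcases abs_cases (r / 2) with ⟨h, h'⟩ | ⟨h, h'⟩
        · rw [h, abs_of_nonneg (Real.sinh_nonneg_iff.2 h')]
        · rw [h, Real.sinh_neg, abs_of_neg (Real.sinh_neg_iff.2 h')]
  rw [h2]; nlinarith

theorem cosh_le_sq {r : ℝ} (h : |r| ≤ 1) : cosh r ≤ 1 + r ^ 2 / 2 + r ^ 4 / 4 := by
  have h1 := Real.cosh_le_exp_half_sq r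
  have h2 : r ^ 2 ≤ 1 := by
    rw [← sq_abs]; nlinarith [abs_nonneg r]
  have h3 := Real.abs_exp_sub_one_sub_id_le (x := r ^ 2 / 2) (by
    rw [abs_of_nonneg (by positivity)]; linarith)
  have h4 := (abs_le.1 h3).2
  have h5 : (r ^ 2 / 2) ^ 2 = r ^ 4 / 4 := by ring
  rw [h5] at h4
  linarith

/-- the inequality of four points, hyperbolic plane, lengths at most `1` -/
theorem four_hyp {a b X Y P Q e : ℝ} (ha : 0 ≤ a) (hb : 0 ≤ b) (ha1 : a ≤ 1) (hb1 : b ≤ 1)
    (hX : 0 ≤ X) (hY : 0 ≤ Y) (hP : 0 ≤ P) (hQ : 0 ≤ Q) (he : 0 ≤ e)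
    (hX1 : X ≤ a / 2 + e + b / 2) (hY1 : Y ≤ a / 2 + e + b / 2) (hab : |a - b| ≤ X + Y)
    (hc : a ^ 2 + b ^ 2 ≤ P ^ 2 + Q ^ 2)
    (h : cosh X + cosh Q + (cosh P + cosh Y) ≤ 4 * cosh (a / 2) * cosh (b / 2) * cosh e) :
    X ^ 2 + Y ^ 2 ≤ 16 * e ^ 2 := by
  rcases le_total 1 e with he1 | he1
  · have h1 : X ≤ 2 * e := by linarith
    have h2 : Y ≤ 2 * e := by linarith
    nlinarith
  set A := (a + b) / 2 with hA
  set d := (a - b) / 2 with hd
  have hA0 : 0 ≤ A := by positivity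
  have hA1 : A ≤ 1 := by rw [hA]; linarith
  have hd2 : d ^ 2 ≤ 1 / 4 := by
    have h1 : -(1 / 2) ≤ d := by rw [hd]; linarith
    have h2 : d ≤ 1 / 2 := by rw [hd]; linarith
    nlinarith
  have hdabs : |d| ≤ 1 := by
    rw [← sq_le_one_iff_abs_le_one]; linarith
  have hdXY : d ^ 2 ≤ (X ^ 2 + Y ^ 2) / 2 := by
    have h1 : (a - b) ^ 2 ≤ (X + Y) ^ 2 := by
      rw [← sq_abs (a - b)]
      exact pow_le_pow_left₀ (abs_nonneg _) hab 2
    have h2 : d ^ 2 = (a - b) ^ 2 / 4 := by rw [hd]; ring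
    rw [h2]
    nlinarith [sq_nonneg (X - Y)]
  have hsum : 2 * cosh (a / 2) * cosh (b / 2) = cosh A + cosh d := by
    have e1 : A = a / 2 + b / 2 := by rw [hA]; ring
    have e2 : d = a / 2 - b / 2 := by rw [hd]; ring
    rw [e1, e2, Real.cosh_add, Real.cosh_sub]; ring
  -- lower bound of `cosh P + cosh Q`
  have hPQ : 2 * cosh A + d ^ 2 ≤ cosh P + cosh Q := by
    rcases hA0.eq_or_lt with h0 | h0
    · have ha0 : a = 0 := by rw [hA] at h0; linarith
      have hb0 : b = 0 := by rw [hA] at h0; linarith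
      have hd0 : d = 0 := by rw [hd, ha0, hb0]; norm_num
      rw [← h0, hd0]
      have h1 := Real.one_le_cosh P
      have h2 := Real.one_le_cosh Q
      simp only [Real.cosh_zero]; linarith
    · have h1 := cosh_tangent hP h0
      have h2 := cosh_tangent hQ h0
      have h3 : 1 / 2 ≤ sinh A / (2 * A) := by
        rw [div_le_div_iff₀ two_pos (by positivity)]
        have := Real.self_le_sinh_iff.2 hA0
        linarith
      have h4 : 2 * d ^ 2 ≤ P ^ 2 + Q ^ 2 - 2 * A ^ 2 := by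
        have : 2 * A ^ 2 + 2 * d ^ 2 = a ^ 2 + b ^ 2 := by rw [hA, hd]; ring
        linarith
      have h5 : 1 / 2 * (2 * d ^ 2) ≤ sinh A / (2 * A) * (P ^ 2 + Q ^ 2 - 2 * A ^ 2) := by
        apply mul_le_mul h3 h4 (by positivity)
        linarith
      have h6 : sinh A / (2 * A) * (P ^ 2 + Q ^ 2 - 2 * A ^ 2) =
        sinh A / (2 * A) * (P ^ 2 - A ^ 2) + sinh A / (2 * A) * (Q ^ 2 - A ^ 2) := by ring
      linarith
  have h7 : cosh X + cosh Y + d ^ 2 + 2 * cosh A ≤ 2 * (cosh A + cosh d) * cosh e := by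
    rw [← hsum]
    calc _ ≤ cosh X + cosh Q + (cosh P + cosh Y) := by linarith
      _ ≤ _ := h
      _ = _ := by ring
  have hX2 := one_add_le_cosh X
  have hY2 := one_add_le_cosh Y
  have hcd := cosh_le_sq hdabs
  have hce := cosh_le_sq (r := e) (by rw [abs_of_nonneg he]; exact he1)
  have hcA := cosh_le_sq (r := A) (by rw [abs_of_nonneg hA0]; exact hA1)
  have hd4 : d ^ 4 ≤ d ^ 2 / 4 := by
    have h1 : d ^ 2 * d ^ 2 ≤ d ^ 2 * (1 / 4) := mul_le_mul_of_nonneg_left hd2 (sq_nonneg d)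
    calc d ^ 4 = d ^ 2 * d ^ 2 := by ring
      _ ≤ d ^ 2 * (1 / 4) := h1
      _ = _ := by ring
  have he4 : e ^ 4 ≤ e ^ 2 := by
    have h0 : e ^ 2 ≤ 1 := pow_le_one₀ he he1
    have h1 : e ^ 2 * e ^ 2 ≤ e ^ 2 * 1 := mul_le_mul_of_nonneg_left h0 (sq_nonneg e)
    calc e ^ 4 = e ^ 2 * e ^ 2 := by ring
      _ ≤ e ^ 2 * 1 := h1
      _ = _ := by ring
  have hA2 : A ^ 2 ≤ 1 := pow_le_one₀ hA0 hA1
  have hA4 : A ^ 4 ≤ 1 := pow_le_one₀ hA0 hA1
  have hcA2 : cosh A ≤ 2 := by linarith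
  have hcd2 : cosh d ≤ 2 := by linarith
  have hce1 : cosh e - 1 ≤ 3 / 4 * e ^ 2 := by linarith
  have h8 : 2 * (cosh A + cosh d) * (cosh e - 1) ≤ 2 * (2 + 2) * (3 / 4 * e ^ 2) := by
    apply mul_le_mul (by linarith) hce1
    · have := Real.one_le_cosh e; linarith
    · norm_num
  have h9 : 2 * (cosh A + cosh d) * cosh e =
    2 * (cosh A + cosh d) * (cosh e - 1) + 2 * (cosh A + cosh d) := by ring
  have he2 : 0 ≤ e ^ 2 := sq_nonneg e
  rw [h9] at h7
  linarith

/-- the inequality of four points, Euclidean plane -/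
theorem four_euc {a b X Y P Q W₁ W₂ e : ℝ}
    (hc : a ^ 2 + b ^ 2 ≤ P ^ 2 + Q ^ 2)
    (h₁ : X ^ 2 + Q ^ 2 - a ^ 2 / 2 ≤ 2 * W₁ ^ 2) (h₂ : P ^ 2 + Y ^ 2 - a ^ 2 / 2 ≤ 2 * W₂ ^ 2)
    (h₃ : W₁ ^ 2 + W₂ ^ 2 - b ^ 2 / 2 ≤ 2 * e ^ 2) :
    X ^ 2 + Y ^ 2 ≤ 16 * e ^ 2 := by
  nlinarith [sq_nonneg X, sq_nonneg Y]

/-! ### the metric inequality -/

section metric

variable {M : Type*} [MetricSpace M] {κ : ℝ}

/-- comparison for the midpoint, `κ < 0` -/
theorem mid_hyp (hA : T.IsAlexandrov M κ) (hκ : κ < 0) {p x y w : M}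
    (h1 : dist x w = dist x y / 2) (h2 : dist w y = dist x y / 2) :
    cosh (√(-κ) * dist p x) + cosh (√(-κ) * dist p y)
      ≤ 2 * cosh (√(-κ) * dist x y / 2) * cosh (√(-κ) * dist p w) := by
  have hk : 0 < √(-κ) := Real.sqrt_pos.2 (by linarith)
  rcases (dist_nonneg (x := x) (y := y)).eq_or_lt with h0 | h0
  · have e1 : x = y := dist_eq_zero.1 h0.symm
    have e2 : x = w := dist_eq_zero.1 (by rw [h1, ← h0]; norm_num)
    subst e1; subst e2
    simp only [dist_self, mul_zero, zero_div, Real.cosh_zero]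
    linarith
  · have h3 := (hA.comparison p x y w (by rw [h1, h2]; ring) (by
      rw [Real.sqrt_eq_zero_of_nonpos hκ.le, zero_mul]; positivity)).2.2 hκ
    rw [h1, h2] at h3
    set L := √(-κ) * (dist x y / 2) with hL
    have hL0 : 0 < L := by rw [hL]; positivity
    have hs : 0 < sinh L := Real.sinh_pos_iff.2 hL0
    have e3 : √(-κ) * (dist x y / 2 + dist x y / 2) = 2 * L := by rw [hL]; ring
    have e4 : √(-κ) * dist x y / 2 = L := by rw [hL]; ring
    rw [e3, Real.sinh_two_mul] at h3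
    rw [e4]
    have h4 : sinh L * (cosh (√(-κ) * dist p x) + cosh (√(-κ) * dist p y)) ≤
        sinh L * (2 * cosh L * cosh (√(-κ) * dist p w)) := by
      calc _ = _ := by ring
        _ ≤ _ := h3
        _ = _ := by ring
    exact le_of_mul_le_mul_left h4 hs

/-- comparison for the midpoint, `κ = 0` -/
theorem mid_euc (hA : T.IsAlexandrov M 0) {p x y w : M}
    (h1 : dist x w = dist x y / 2) (h2 : dist w y = dist x y / 2) :
    dist p x ^ 2 + dist p y ^ 2 - dist x y ^ 2 / 2 ≤ 2 * dist p w ^ 2 := by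
  rcases (dist_nonneg (x := x) (y := y)).eq_or_lt with h0 | h0
  · have e1 : x = y := dist_eq_zero.1 h0.symm
    have e2 : x = w := dist_eq_zero.1 (by rw [h1, ← h0]; norm_num)
    subst e1; subst e2
    simp only [dist_self]
    linarith
  · have h3 := (hA.comparison p x y w (by rw [h1, h2]; ring) (by
      simp [Real.pi_pos])).1 rfl
    rw [h1, h2] at h3
    have h4 : dist x y * (dist p x ^ 2 + dist p y ^ 2 - dist x y ^ 2 / 2) ≤
        dist x y * (2 * dist p w ^ 2) := by nlinarith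
    exact le_of_mul_le_mul_left h4 h0

/-- **midpoints**: if the end points are `d²`-monotone, then they are Lipschitz functions of the
midpoint -/
theorem mid_lip (hA : T.IsAlexandrov M κ) (hκ : κ ≤ 0) {x y w x' y' w' : M}
    (h1 : dist x w = dist x y / 2) (h2 : dist w y = dist x y / 2)
    (h1' : dist x' w' = dist x' y' / 2) (h2' : dist w' y' = dist x' y' / 2)
    (ha : √(-κ) * dist x y ≤ 1) (hb : √(-κ) * dist x' y' ≤ 1)
    (hc : dist x y ^ 2 + dist x' y' ^ 2 ≤ dist x y' ^ 2 + dist x' y ^ 2) :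
    dist x x' ^ 2 + dist y y' ^ 2 ≤ 16 * dist w w' ^ 2 := by
  rcases hκ.eq_or_lt with h0 | h0
  · subst h0
    have k1 := mid_euc hA (p := x') h1 h2
    have k2 := mid_euc hA (p := y') h1 h2
    have k3 := mid_euc hA (p := w) h1' h2'
    rw [dist_comm w x', dist_comm w y'] at k3
    rw [dist_comm x' x] at k1
    rw [dist_comm y' x, dist_comm y' y] at k2
    exact four_euc (P := dist x y') (Q := dist x' y) (W₁ := dist x' w) (W₂ := dist y' w) hc
      k1 k2 k3
  · have hk : 0 < √(-κ) := Real.sqrt_pos.2 (by linarith)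
    set α := √(-κ) with hα
    have k1 := mid_hyp hA h0 (p := x') h1 h2
    have k2 := mid_hyp hA h0 (p := y') h1 h2
    have k3 := mid_hyp hA h0 (p := w) h1' h2'
    rw [← hα] at k1 k2 k3
    rw [dist_comm w x', dist_comm w y'] at k3
    rw [dist_comm x' x] at k1
    rw [dist_comm y' x, dist_comm y' y] at k2
    have hc0 : 0 < cosh (α * dist x y / 2) := Real.cosh_pos _
    have t1 : dist x x' ≤ dist x y / 2 + dist w w' + dist x' y' / 2 := by
      have := dist_triangle4 x w w' x'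
      rw [h1, dist_comm w' x', h1'] at this
      exact this
    have t2 : dist y y' ≤ dist x y / 2 + dist w w' + dist x' y' / 2 := by
      have := dist_triangle4 y w w' y'
      rw [h2', dist_comm y w, h2] at this
      exact this
    have t3 : |dist x y - dist x' y'| ≤ dist x x' + dist y y' := by
      rw [abs_sub_le_iff]
      have u1 := dist_triangle4 x x' y' y
      have u2 := dist_triangle4 x' x y y'
      rw [dist_comm y' y] at u1
      rw [dist_comm x' x] at u2
      constructor <;> linarith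
    have key := four_hyp (a := α * dist x y) (b := α * dist x' y') (X := α * dist x x')
      (Y := α * dist y y') (P := α * dist x y') (Q := α * dist x' y) (e := α * dist w w')
      (by positivity) (by positivity) ha hb (by positivity) (by positivity) (by positivity)
      (by positivity) (by positivity)
      (by have := mul_le_mul_of_nonneg_left t1 hk.le; linarith)
      (by have := mul_le_mul_of_nonneg_left t2 hk.le; linarith)
      (by
        have e1 : α * dist x y - α * dist x' y' = α * (dist x y - dist x' y') := by ring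
        rw [e1, abs_mul, abs_of_pos hk]
        have := mul_le_mul_of_nonneg_left t3 hk.le
        linarith)
      (by
        have := mul_le_mul_of_nonneg_left hc (sq_nonneg α)
        nlinarith)
      (by
        calc _ = (cosh (α * dist x x') + cosh (α * dist x' y)) +
              (cosh (α * dist x y') + cosh (α * dist y y')) := by ring
          _ ≤ 2 * cosh (α * dist x y / 2) * cosh (α * dist x' w) +
              2 * cosh (α * dist x y / 2) * cosh (α * dist y' w) := add_le_add k1 k2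
          _ = 2 * cosh (α * dist x y / 2) * (cosh (α * dist x' w) + cosh (α * dist y' w)) := by
              ring
          _ ≤ 2 * cosh (α * dist x y / 2) *
              (2 * cosh (α * dist x' y' / 2) * cosh (α * dist w w')) :=
              mul_le_mul_of_nonneg_left k3 (by positivity)
          _ = _ := by ring)
    have e2 : (α * dist x x') ^ 2 + (α * dist y y') ^ 2 =
      α ^ 2 * (dist x x' ^ 2 + dist y y' ^ 2) := by ring
    have e3 : 16 * (α * dist w w') ^ 2 = α ^ 2 * (16 * dist w w' ^ 2) := by ring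
    rw [e2, e3] at key
    exact le_of_mul_le_mul_left key (by positivity)

/-- a constant speed geodesic of length `a` on `[0,1]` -/
def CSG (γ : ℝ → M) (a : ℝ) : Prop :=
  ∀ s ∈ Icc (0 : ℝ) 1, ∀ t ∈ Icc (0 : ℝ) 1, dist (γ s) (γ t) = |s - t| * a

theorem CSG.rev {γ : ℝ → M} {a : ℝ} (h : CSG γ a) : CSG (fun t => γ (1 - t)) a := by
  intro s hs t ht
  rw [h (1 - s) ⟨by linarith [hs.2], by linarith [hs.1]⟩ (1 - t)
    ⟨by linarith [ht.2], by linarith [ht.1]⟩]
  congr 1
  rw [abs_sub_comm]; congr 1; ring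

/-- monotonicity of the end points is inherited by the parts -/
theorem mono_part {γ γ' : ℝ → M} {a b : ℝ} (hγ : CSG γ a) (hγ' : CSG γ' b) (ha : 0 ≤ a)
    (hb : 0 ≤ b) (hc : a ^ 2 + b ^ 2 ≤ dist (γ 0) (γ' 1) ^ 2 + dist (γ' 0) (γ 1) ^ 2)
    {s t : ℝ} (hs : 0 ≤ s) (hst : s < t) (ht : t ≤ 1) :
    dist (γ s) (γ t) ^ 2 + dist (γ' s) (γ' t) ^ 2 ≤
      dist (γ s) (γ' t) ^ 2 + dist (γ' s) (γ t) ^ 2 := by
  have m0 : (0 : ℝ) ∈ Icc (0 : ℝ) 1 := by simp
  have m1 : (1 : ℝ) ∈ Icc (0 : ℝ) 1 := by simp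
  have ms : s ∈ Icc (0 : ℝ) 1 := ⟨hs, by linarith⟩
  have mt : t ∈ Icc (0 : ℝ) 1 := ⟨by linarith, ht⟩
  have d1 : dist (γ 0) (γ s) = s * a := by rw [hγ 0 m0 s ms, zero_sub, abs_neg, abs_of_nonneg hs]
  have d1' : dist (γ' 0) (γ' s) = s * b := by
    rw [hγ' 0 m0 s ms, zero_sub, abs_neg, abs_of_nonneg hs]
  have d2 : dist (γ t) (γ 1) = (1 - t) * a := by
    rw [hγ t mt 1 m1, abs_sub_comm, abs_of_nonneg (by linarith)]
  have d2' : dist (γ' t) (γ' 1) = (1 - t) * b := by
    rw [hγ' t mt 1 m1, abs_sub_comm, abs_of_nonneg (by linarith)]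
  have d3 : dist (γ s) (γ t) = (t - s) * a := by
    rw [hγ s ms t mt, abs_sub_comm, abs_of_pos (by linarith)]
  have d3' : dist (γ' s) (γ' t) = (t - s) * b := by
    rw [hγ' s ms t mt, abs_sub_comm, abs_of_pos (by linarith)]
  have q1 := dist_triangle4 (γ 0) (γ s) (γ' t) (γ' 1)
  have q2 := dist_triangle4 (γ' 0) (γ' s) (γ t) (γ 1)
  rw [d1, d2'] at q1
  rw [d1', d2] at q2
  rw [d3, d3']
  set u := dist (γ s) (γ' t)
  set v := dist (γ' s) (γ t)
  set l := t - s with hl
  have hl0 : 0 < l := by rw [hl]; linarith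
  have conv : ∀ a b u : ℝ, l * (s * a + u + (1 - t) * b) ^ 2 ≤
      l * (s * a ^ 2 + (1 - t) * b ^ 2) + u ^ 2 := by
    intro a b u
    have hr : 0 ≤ 1 - t := by linarith
    have e : l * (s * a ^ 2 + (1 - t) * b ^ 2) + u ^ 2 - l * (s * a + u + (1 - t) * b) ^ 2
        = s * (l * a - u) ^ 2 + (1 - t) * (u - l * b) ^ 2 + l * s * (1 - t) * (a - b) ^ 2 := by
      rw [hl]; ring
    nlinarith [mul_nonneg hs (sq_nonneg (l * a - u)), mul_nonneg hr (sq_nonneg (u - l * b)),
      mul_nonneg (mul_nonneg hl0.le hs) (mul_nonneg hr (sq_nonneg (a - b)))]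
  have c1 := conv a b u
  have c2 := conv b a v
  have q3 : dist (γ 0) (γ' 1) ^ 2 ≤ (s * a + u + (1 - t) * b) ^ 2 :=
    pow_le_pow_left₀ dist_nonneg q1 2
  have q4 : dist (γ' 0) (γ 1) ^ 2 ≤ (s * b + v + (1 - t) * a) ^ 2 :=
    pow_le_pow_left₀ dist_nonneg q2 2
  have q5 : l * (a ^ 2 + b ^ 2) ≤
      l * ((s * a + u + (1 - t) * b) ^ 2 + (s * b + v + (1 - t) * a) ^ 2) :=
    mul_le_mul_of_nonneg_left (by linarith) hl0.le
  have e5 : l * (a ^ 2 + b ^ 2) - (l * (s * a ^ 2 + (1 - t) * b ^ 2)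
    + l * (s * b ^ 2 + (1 - t) * a ^ 2)) = (l * a) ^ 2 + (l * b) ^ 2 := by rw [hl]; ring
  nlinarith

/-- one step -/
theorem lip_step (hA : T.IsAlexandrov M κ) (hκ : κ ≤ 0) {γ γ' : ℝ → M} {a b : ℝ}
    (hγ : CSG γ a) (hγ' : CSG γ' b) (ha : 0 ≤ a) (hb : 0 ≤ b)
    (hc : a ^ 2 + b ^ 2 ≤ dist (γ 0) (γ' 1) ^ 2 + dist (γ' 0) (γ 1) ^ 2)
    {t h : ℝ} (hh : 0 < h) (h0 : 0 ≤ t - h) (h1 : t + h ≤ 1)
    (ha1 : √(-κ) * (2 * h * a) ≤ 1) (hb1 : √(-κ) * (2 * h * b) ≤ 1) :
    dist (γ (t - h)) (γ' (t - h)) ≤ 4 * dist (γ t) (γ' t) ∧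
      dist (γ (t + h)) (γ' (t + h)) ≤ 4 * dist (γ t) (γ' t) := by
  have m1 : t - h ∈ Icc (0 : ℝ) 1 := ⟨h0, by linarith⟩
  have m2 : t + h ∈ Icc (0 : ℝ) 1 := ⟨by linarith, h1⟩
  have m3 : t ∈ Icc (0 : ℝ) 1 := ⟨by linarith, by linarith⟩
  have D : ∀ {γ : ℝ → M} {a : ℝ}, CSG γ a → dist (γ (t - h)) (γ (t + h)) = 2 * h * a ∧
      dist (γ (t - h)) (γ t) = dist (γ (t - h)) (γ (t + h)) / 2 ∧
      dist (γ t) (γ (t + h)) = dist (γ (t - h)) (γ (t + h)) / 2 := by
    intro γ a hγ
    rw [hγ _ m1 _ m2, hγ _ m1 _ m3, hγ _ m3 _ m2]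
    have e1 : |t - h - (t + h)| = 2 * h := by
      have : t - h - (t + h) = -(2 * h) := by ring
      rw [this, abs_neg, abs_of_pos (by linarith)]
    have e2 : |t - h - t| = h := by
      have : t - h - t = -h := by ring
      rw [this, abs_neg, abs_of_pos hh]
    have e3 : |t - (t + h)| = h := by
      have : t - (t + h) = -h := by ring
      rw [this, abs_neg, abs_of_pos hh]
    rw [e1, e2, e3]
    refine ⟨rfl, by ring, by ring⟩
  obtain ⟨A1, A2, A3⟩ := D hγ
  obtain ⟨B1, B2, B3⟩ := D hγ'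
  have hm := mono_part hγ hγ' ha hb hc h0 (by linarith : t - h < t + h) h1
  have key := mid_lip hA hκ A2 A3 B2 B3 (by rw [A1]; exact ha1) (by rw [B1]; exact hb1) hm
  have hw : 0 ≤ 4 * dist (γ t) (γ' t) := by positivity
  constructor
  · apply abs_le_of_sq_le_sq' _ hw |>.2
    nlinarith [sq_nonneg (dist (γ (t + h)) (γ' (t + h)))]
  · apply abs_le_of_sq_le_sq' _ hw |>.2
    nlinarith [sq_nonneg (dist (γ (t - h)) (γ' (t - h)))]

/-- **the end points are Lipschitz functions of the intermediate point** -/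
theorem exists_lip (hA : T.IsAlexandrov M κ) (hκ : κ ≤ 0) {s Θ : ℝ} (hs0 : 0 < s) (hs1 : s < 1)
    (hΘ : 0 ≤ Θ) : ∃ C : ℝ, 1 ≤ C ∧ ∀ (γ γ' : ℝ → M) (a b : ℝ), CSG γ a → CSG γ' b → 0 ≤ a → 0 ≤ b →
      a ≤ Θ → b ≤ Θ → a ^ 2 + b ^ 2 ≤ dist (γ 0) (γ' 1) ^ 2 + dist (γ' 0) (γ 1) ^ 2 →
      ∀ t ∈ Icc (0 : ℝ) 1, dist (γ t) (γ' t) ≤ C * dist (γ s) (γ' s) := by
  set α := √(-κ) with hα
  have hα0 : 0 ≤ α := Real.sqrt_nonneg _
  -- the step
  set d := min s (min (1 - s) (1 / (2 * (α * Θ + 1)))) with hd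
  have hd0 : 0 < d := by
    apply lt_min hs0 (lt_min (by linarith) (by positivity))
  obtain ⟨N, hN⟩ := exists_nat_gt (1 / d)
  have hN0 : 0 < (N : ℝ) := lt_trans (by positivity) hN
  have hN1 : 1 / (N : ℝ) ≤ d := by
    rw [div_le_iff₀ hN0]
    rw [div_lt_iff₀ hd0] at hN
    linarith
  refine ⟨4 ^ N, one_le_pow₀ (by norm_num), ?_⟩
  intro γ γ' a b hγ hγ' ha hb haΘ hbΘ hc t ht
  rcases eq_or_ne t s with hts | hts
  · rw [hts]
    calc dist (γ s) (γ' s) = 1 * dist (γ s) (γ' s) := (one_mul _).symm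
      _ ≤ _ := mul_le_mul_of_nonneg_right (one_le_pow₀ (by norm_num)) dist_nonneg
  set h := |t - s| / N with hh
  have habs : |t - s| ≤ 1 := by
    rw [abs_le]; constructor <;> linarith [ht.1, ht.2]
  have hh0 : 0 < h := div_pos (abs_pos.2 (sub_ne_zero.2 hts)) hN0
  have hhd : h ≤ d := by
    calc h ≤ 1 / N := by rw [hh]; exact div_le_div_of_nonneg_right habs hN0.le
      _ ≤ d := hN1
  have hds : d ≤ s := min_le_left _ _
  have hds1 : d ≤ 1 - s := (min_le_right _ _).trans (min_le_left _ _)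
  have hdθ : d ≤ 1 / (2 * (α * Θ + 1)) := (min_le_right _ _).trans (min_le_right _ _)
  have hsmall : ∀ c : ℝ, 0 ≤ c → c ≤ Θ → α * (2 * h * c) ≤ 1 := by
    intro c hc0 hcΘ
    have h1 : α * c ≤ α * Θ + 1 := by
      have := mul_le_mul_of_nonneg_left hcΘ hα0; linarith
    have h2 : 2 * h ≤ 2 * (1 / (2 * (α * Θ + 1))) := by linarith
    have h3 : 2 * (1 / (2 * (α * Θ + 1))) * (α * Θ + 1) = 1 := by
      have : α * Θ + 1 ≠ 0 := by positivity
      field_simp
    calc α * (2 * h * c) = 2 * h * (α * c) := by ring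
      _ ≤ 2 * (1 / (2 * (α * Θ + 1))) * (α * Θ + 1) :=
        mul_le_mul h2 h1 (by positivity) (by positivity)
      _ = 1 := h3
  rcases lt_or_gt_of_ne hts with hlt | hgt
  · -- to the left
    have key : ∀ k : ℕ, k ≤ N → dist (γ (s - k * h)) (γ' (s - k * h)) ≤
        4 ^ k * dist (γ s) (γ' s) := by
      intro k
      induction k with
      | zero => intro _; simp
      | succ k ih =>
        intro hk
        have ih' := ih (by omega)
        have hk' : ((k : ℝ) + 1) ≤ N := by exact_mod_cast hk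
        have htot : (N : ℝ) * h = s - t := by
          rw [hh, abs_of_neg (by linarith)]; field_simp; ring
        have h0 : 0 ≤ s - k * h - h := by
          have : ((k : ℝ) + 1) * h ≤ N * h := mul_le_mul_of_nonneg_right hk' hh0.le
          nlinarith [ht.1]
        have h1 : s - k * h + h ≤ 1 := by
          have : 0 ≤ (k : ℝ) * h := by positivity
          linarith
        have st := (lip_step hA hκ hγ hγ' ha hb hc hh0 h0 h1 (hsmall a ha haΘ)
          (hsmall b hb hbΘ)).1
        have e : s - ((k + 1 : ℕ) : ℝ) * h = s - k * h - h := by push_cast; ring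
        rw [e]
        calc _ ≤ _ := st
          _ ≤ 4 * (4 ^ k * dist (γ s) (γ' s)) := by linarith
          _ = _ := by ring
    have e : s - N * h = t := by
      rw [hh, abs_of_neg (by linarith)]; field_simp; ring
    have := key N le_rfl
    rw [e] at this
    exact this
  · -- to the right
    have key : ∀ k : ℕ, k ≤ N → dist (γ (s + k * h)) (γ' (s + k * h)) ≤
        4 ^ k * dist (γ s) (γ' s) := by
      intro k
      induction k with
      | zero => intro _; simp
      | succ k ih =>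
        intro hk
        have ih' := ih (by omega)
        have hk' : ((k : ℝ) + 1) ≤ N := by exact_mod_cast hk
        have htot : (N : ℝ) * h = t - s := by
          rw [hh, abs_of_pos (by linarith)]; field_simp
        have h0 : 0 ≤ s + k * h - h := by
          have : 0 ≤ (k : ℝ) * h := by positivity
          linarith
        have h1 : s + k * h + h ≤ 1 := by
          have : ((k : ℝ) + 1) * h ≤ N * h := mul_le_mul_of_nonneg_right hk' hh0.le
          nlinarith [ht.2]
        have st := (lip_step hA hκ hγ hγ' ha hb hc hh0 h0 h1 (hsmall a ha haΘ)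
          (hsmall b hb hbΘ)).2
        have e : s + ((k + 1 : ℕ) : ℝ) * h = s + k * h + h := by push_cast; ring
        rw [e]
        calc _ ≤ _ := st
          _ ≤ 4 * (4 ^ k * dist (γ s) (γ' s)) := by linarith
          _ = _ := by ring
    have e : s + N * h = t := by
      rw [hh, abs_of_pos (by linarith)]; field_simp; ring
    have := key N le_rfl
    rw [e] at this
    exact this

end metric

end Vale.Agent.P233.H761.CD
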