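import Vale.Agent.P233.Gig.Defs

set_option linter.all false

open MeasureTheory Filter Topology Set
open scoped ENNReal NNReal

namespace Vale.Agent.P233.H761

variable {M : Type*} [MeasurableSpace M] {m : Measure M} {C : Calc m}
variable {F f h w g Z A B : M →ₘ[m] ℝ} {κ : ℝ}

/-- `Γ h X_n → Γ h w` in `L²` for a Lipschitz `h`. -/
theorem T2_Γ (hC : IsDir C) (hh : h ∈ C.W) (hh' : MemLp (C.Γ h h) ∞ m) {X : ℕ → M →ₘ[m] ℝ}
    (hX : C.TW X w) : T2 (fun n => C.Γ h (X n)) (C.Γ h w) := by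
  refine ⟨fun n => hC.Γ_mem2 hh hh' (hX.mem n), hC.Γ_mem2 hh hh' hX.mem', ?_⟩
  obtain ⟨K, hK⟩ := mem_top_iff.1 hh'
  have hb : ∀ n, I ((C.Γ h (X n) - C.Γ h w) ^ 2) ≤ |K| * I (C.Γ (X n - w) (X n - w)) := by
    intro n
    have hs : X n - w ∈ C.W := hC.sub_mem (hX.mem n) hX.mem'
    rw [← hC.Γ_sub_right hh (hX.mem n) hX.mem', ← I_smul]
    apply I_mono (mem_sq (hC.Γ_mem2 hh hh' hs)) (mem_smul _ (hC.mem1 _ hs))
    rw [le_iff_ae]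
    filter_upwards [hC.Γ_cs_ae hh hs, hK, hC.Γ_nonneg_ae hs, sq_ae (C.Γ h (X n - w)),
      smul_ae (C.Γ (X n - w) (X n - w)) |K|] with x h1 h2 h3 h4 h5
    rw [h4, h5]
    refine h1.trans (mul_le_mul_of_nonneg_right ?_ h3)
    exact (le_abs_self _).trans (h2.trans (le_abs_self _))
  have h0 : Tendsto (fun n => |K| * I (C.Γ (X n - w) (X n - w))) atTop (𝓝 0) := by
    simpa using (hC.TW_E hX).const_mul |K|
  exact squeeze_zero (fun n => I_sq_nonneg _) hb h0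

/-- `wH F h` is continuous in the weight. -/
theorem wH_w_lim (hC : IsGamma C) (hB : C.BEi κ) [SigmaFinite m] (hF : F ∈ C.A)
    (hF' : MemLp (C.Γ F F) ∞ m) (hh : h ∈ C.TestI) {X : ℕ → M →ₘ[m] ℝ} (hX : C.TW X w) :
    Tendsto (fun n => C.wH F h (X n)) atTop (𝓝 (C.wH F h w)) := by
  have hD := hC.toIsDir
  have hhA := hC.test_A hh.1
  have hh' : MemLp (C.Γ h h) ∞ m := (hC.mem_test_iff.1 hh.1).2.2.1
  have hG2 : MemLp (C.Γ F h) 2 m := hD.Γ_mem2 hF.1 hF' hhA.1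
  have h1 : T2 (fun n => C.lap h * X n) (C.lap h * w) := (Tb.const hh.2).mul (hD.TW_T2 hX)
  have h2 := T2_Γ hD hhA.1 hh' hX
  have h3 := (T2.const hG2).mul_lim (h1.add h2)
  have hΓ : C.Γ h h ∈ C.W := (hC.Γ_mem hB hh.1 hh.1).1
  have h4 := (hD.TW_T2 hX).mul_lim (T2.const (hD.Γ_mem2 hF.1 hF' hΓ))
  have h5 := h3.neg.sub (h4.const_mul (2⁻¹ : ℝ))
  have e : ∀ v : M →ₘ[m] ℝ, C.wH F h v
      = -I (C.Γ F h * (C.lap h * v + C.Γ h v)) - 2⁻¹ * I (v * C.Γ F (C.Γ h h)) := by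
    intro v
    rw [Calc.wH, mul_comm v (C.lap h)]
  simp only [e]
  exact h5

/-- Extension of an inequality from weights in `TestI` to Lipschitz weights. -/
theorem wH_ext (hC : IsGamma C) (hB : C.BEi κ) [SigmaFinite m] (hF : F ∈ C.A)
    (hF' : MemLp (C.Γ F F) ∞ m) (hh : h ∈ C.TestI) (hZ : MemLp Z 2 m)
    (H : ∀ w ∈ C.TestI, 0 ≤ w → C.wH F h w ≤ I (w * Z)) (hw : w ∈ C.A)
    (hw' : MemLp (C.Γ w w) ∞ m) (h0 : 0 ≤ w) : C.wH F h w ≤ I (w * Z) := by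
  have hD := hC.toIsDir
  obtain ⟨N, hN⟩ := IsGamma.exists_small κ
  set X : ℕ → M →ₘ[m] ℝ := fun n => C.J (((n + N : ℕ) : ℝ) + 1)⁻¹ w with hX
  have hl : ∀ n : ℕ, (0 : ℝ) < (((n + N : ℕ) : ℝ) + 1)⁻¹ := fun n => by positivity
  have hT : ∀ n, X n ∈ C.TestI := fun n =>
    hC.testI_J hB (hl n) (hN (n + N) (by omega)) hw hw'
  have hlim : C.TW X w := by
    refine ⟨fun n => (hC.test_A (hT n).1).1, hw.1, ?_⟩
    exact (hD.J_tendsto_W hw.1).comp (tendsto_add_atTop_nat N)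
  have h1 := wH_w_lim hC hB hF hF' hh hlim
  have h2 := (hD.TW_T2 hlim).mul_lim (T2.const hZ)
  exact le_of_tendsto_of_tendsto' h1 h2 fun n =>
    H _ (hT n) (hD.J_nonneg (hl n) (hC.memLp _ hw.1) h0)

/-- Weak continuity of `I (Γ f g)` in `f`. -/
theorem weak_lim (hC : IsDir C) {u : ℕ → M →ₘ[m] ℝ} {K : ℝ} (hu : ∀ n, u n ∈ C.W)
    (hK : ∀ n, I (C.Γ (u n) (u n)) ≤ K) (hf : f ∈ C.W)
    (hlim : Tendsto (fun n => I ((u n - f) ^ 2)) atTop (𝓝 0)) (hg : g ∈ C.W) :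
    Tendsto (fun n => I (C.Γ (u n) g)) atTop (𝓝 (I (C.Γ f g))) := by
  have hs : ∀ n, u n - f ∈ C.W := fun n => hC.sub_mem (hu n) hf
  -- energy bound of the differences
  set L : ℝ := 2 * |K| + 2 * I (C.Γ f f) with hL
  have hL0 : 0 ≤ L := by have := hC.E_nonneg hf; positivity
  have hE : ∀ n, I (C.Γ (u n - f) (u n - f)) ≤ L := by
    intro n
    have h1 := hC.E_add_le (hu n) (hC.neg_mem hf)
    rw [hC.E_neg hf, ← sub_eq_add_neg] at h1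
    have := hK n
    have := le_abs_self K
    linarith
  rw [Metric.tendsto_atTop]
  intro ε hε
  -- approximate `g`
  have hJ := hC.J_tendsto_W hg
  obtain ⟨j, hj⟩ := (hJ.eventually (gt_mem_nhds
    (show (0 : ℝ) < ε ^ 2 / (16 * (L + 1)) by positivity))).exists
  have hl : (0 : ℝ) < ((j : ℝ) + 1)⁻¹ := by positivity
  set g' := C.J ((j : ℝ) + 1)⁻¹ g with hg'
  have hg2 := hC.memLp _ hg
  have hlap := hC.J_isLap hl hg2
  set k := (((j : ℝ) + 1)⁻¹)⁻¹ • (g' - g) with hk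
  have hgW : g' ∈ C.W := hC.J_mem hl hg2
  have hd : g' - g ∈ C.W := hC.sub_mem hgW hg
  have hEd : I (C.Γ (g' - g) (g' - g)) ≤ ε ^ 2 / (16 * (L + 1)) :=
    (hC.E_le_nrm2 _).trans hj.le
  -- `L²` part
  have h2 : Tendsto (fun n => √(I ((u n - f) ^ 2)) * √(I (k ^ 2))) atTop (𝓝 0) := by
    have := (hlim.sqrt).mul_const (√(I (k ^ 2)))
    simpa using this
  obtain ⟨N, hN⟩ := eventually_atTop.1 (h2.eventually (gt_mem_nhds (show (0 : ℝ) < ε / 2 by positivity)))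
  refine ⟨N, fun n hn => ?_⟩
  rw [Real.dist_eq]
  have e1 : I (C.Γ (u n) g) - I (C.Γ f g) = I (C.Γ (u n - f) g') - I (C.Γ (u n - f) (g' - g)) := by
    rw [hC.Γ_sub_right (hs n) hgW hg, I_sub (hC.Γ_mem1 (hs n) hgW) (hC.Γ_mem1 (hs n) hg),
      hC.Γ_sub_left (hu n) hf hg, I_sub (hC.Γ_mem1 (hu n) hg) (hC.Γ_mem1 hf hg)]
    ring
  have e2 : I (C.Γ (u n - f) g') = -I (k * (u n - f)) := by
    rw [hC.symm _ (hs n) _ hgW]
    exact hlap.2.2 _ (hs n)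
  have b1 : |I (k * (u n - f))| ≤ √(I ((u n - f) ^ 2)) * √(I (k ^ 2)) := by
    have := I_abs_le hlap.2.1 (hC.memLp _ (hs n))
    rw [mul_comm (√(I (k ^ 2)))] at this
    exact this
  have b2 : |I (C.Γ (u n - f) (g' - g))| ≤ ε / 4 := by
    refine (hC.E_abs_le (hs n) hd).trans ?_
    have h3 : √(I (C.Γ (u n - f) (u n - f))) ≤ √(L + 1) :=
      Real.sqrt_le_sqrt ((hE n).trans (by linarith))
    have h4 : √(I (C.Γ (g' - g) (g' - g))) ≤ √(ε ^ 2 / (16 * (L + 1))) := Real.sqrt_le_sqrt hEd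
    calc √(I (C.Γ (u n - f) (u n - f))) * √(I (C.Γ (g' - g) (g' - g)))
        ≤ √(L + 1) * √(ε ^ 2 / (16 * (L + 1))) :=
          mul_le_mul h3 h4 (Real.sqrt_nonneg _) (Real.sqrt_nonneg _)
      _ = ε / 4 := by
          rw [← Real.sqrt_mul (by positivity)]
          have : (L + 1) * (ε ^ 2 / (16 * (L + 1))) = (ε / 4) ^ 2 := by field_simp; ring
          rw [this, Real.sqrt_sq (by positivity)]
  rw [e1, e2]
  have h5 := hN n hn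
  have h6 := abs_le.1 b1
  have h7 := abs_le.1 b2
  rw [abs_lt]
  constructor <;> linarith

/-- Integration by parts: `I (P * Γ f h)` in terms of `f` only. -/
theorem I_mul_Γ (hC : IsGamma C) {P : M →ₘ[m] ℝ} (hP : P ∈ C.A) (hf : f ∈ C.A)
    (hh : h ∈ C.TestI) : I (P * C.Γ f h) = -I (f * (C.lap h * P + C.Γ h P)) := by
  have hD := hC.toIsDir
  have hhA := hC.test_A hh.1
  have hlap : C.IsLap h (C.lap h) := hC.test_isLap hh.1
  have hfP : f * P ∈ C.W := (hD.mul_mem_A hf hP).1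
  have h1 : I (C.Γ h (f * P)) = -I (C.lap h * (f * P)) := hlap.2.2 _ hfP
  have h2 : C.Γ h (f * P) = f * C.Γ h P + P * C.Γ h f := hD.Γ_mul_right hf hP hhA.1
  have hh' : MemLp (C.Γ h h) ∞ m := (hC.mem_test_iff.1 hh.1).2.2.1
  have m1 : MemLp (f * C.Γ h P : M →ₘ[m] ℝ) 1 m :=
    mem_mul_22 (hC.memLp _ hf.1) (hD.Γ_mem2 hhA.1 hh' hP.1)
  have m2 : MemLp (P * C.Γ h f : M →ₘ[m] ℝ) 1 m :=
    mem_mul_22 (hC.memLp _ hP.1) (hD.Γ_mem2 hhA.1 hh' hf.1)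
  have m3 : MemLp (f * (C.lap h * P) : M →ₘ[m] ℝ) 1 m :=
    mem_mul_22 (hC.memLp _ hf.1) (mem_mul_top hh.2 (hC.memLp _ hP.1))
  rw [h2, I_add m1 m2] at h1
  rw [mul_add, I_add m3 m1, hC.symm f hf.1 h hhA.1]
  have e : C.lap h * (f * P) = f * (C.lap h * P) := by ring
  rw [e] at h1
  linarith

/-- `wH f h w` is weakly continuous in `f`. -/
theorem wH_f_lim (hC : IsGamma C) (hB : C.BEi κ) [SigmaFinite m] {u : ℕ → M →ₘ[m] ℝ} {K : ℝ}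
    (hu : ∀ n, u n ∈ C.A) (hK : ∀ n, I (C.Γ (u n) (u n)) ≤ K) (hf : f ∈ C.A)
    (hlim : Tendsto (fun n => I ((u n - f) ^ 2)) atTop (𝓝 0)) (hh : h ∈ C.TestI)
    (hw : w ∈ C.TestI) : Tendsto (fun n => C.wH (u n) h w) atTop (𝓝 (C.wH f h w)) := by
  have hD := hC.toIsDir
  have hhA := hC.test_A hh.1
  have hwA := hC.test_A hw.1
  have hT2 : T2 u f := ⟨fun n => hC.memLp _ (hu n).1, hC.memLp _ hf.1, hlim⟩
  have hP : w * C.lap h + C.Γ h w ∈ C.A :=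
    hD.A_add (hD.mul_mem_A hwA (hC.testI_lap_A' hh)) (hC.Γ_mem hB hh.1 hw.1)
  have hg : C.Γ h h ∈ C.A := hC.Γ_mem hB hh.1 hh.1
  -- the first term
  have key : ∀ (P k : M →ₘ[m] ℝ), P ∈ C.A → k ∈ C.TestI →
      Tendsto (fun n => I (P * C.Γ (u n) k)) atTop (𝓝 (I (P * C.Γ f k))) := by
    intro P k hP hk
    have hkA := hC.test_A hk.1
    have hk' : MemLp (C.Γ k k) ∞ m := (hC.mem_test_iff.1 hk.1).2.2.1
    have h1 : MemLp (C.lap k * P + C.Γ k P : M →ₘ[m] ℝ) 2 m :=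
      mem_add (mem_mul_top hk.2 (hC.memLp _ hP.1)) (hD.Γ_mem2 hkA.1 hk' hP.1)
    have h2 := (hT2.mul_lim (T2.const h1)).neg
    rw [← I_mul_Γ hC hP hf hk] at h2
    refine h2.congr fun n => ?_
    rw [I_mul_Γ hC hP (hu n) hk]
  have t1 := key _ _ hP hh
  have t2 := key _ _ hg hw
  have t3 := weak_lim hD (fun n => (hu n).1) hK hf.1 hlim (hD.mul_mem_A hwA hg).1
  have e : ∀ v : M →ₘ[m] ℝ, v ∈ C.A → C.wH v h w
      = -I ((w * C.lap h + C.Γ h w) * C.Γ v h)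
        - 2⁻¹ * (I (C.Γ v (w * C.Γ h h)) - I (C.Γ h h * C.Γ v w)) := by
    intro v hv
    have m1 : MemLp (w * C.Γ v (C.Γ h h) : M →ₘ[m] ℝ) 1 m :=
      mem_mul_top hwA.2 (hD.Γ_mem1 hv.1 hg.1)
    have m2 : MemLp (C.Γ h h * C.Γ v w : M →ₘ[m] ℝ) 1 m :=
      mem_mul_top hg.2 (hD.Γ_mem1 hv.1 hwA.1)
    rw [Calc.wH, hD.Γ_mul_right hwA hg hv.1, I_add m1 m2, mul_comm (C.Γ v h)]
    ring
  have h5 := t1.neg.sub ((t3.sub t2).const_mul (2⁻¹ : ℝ))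
  rw [← e f hf] at h5
  exact h5.congr fun n => (e (u n) (hu n)).symm

/-- The chain rule for the weak Hessian. -/
theorem wH_chain (hC : IsGamma C) (hB : C.BEi κ) [SigmaFinite m] (hF : F ∈ C.A)
    (hF' : MemLp (C.Γ F F) ∞ m) (hh : h ∈ C.TestI) (hw : w ∈ C.A) {f1 f2 : M →ₘ[m] ℝ}
    (hf1 : f1 ∈ C.A) (hf2 : MemLp f2 ∞ m) (hf : f ∈ C.A)
    (H1 : ∀ g ∈ C.W, C.Γ f g = f1 * C.Γ F g) (H2 : ∀ g ∈ C.W, C.Γ f1 g = f2 * C.Γ F g) :
    C.wH f h w = C.wH F h (f1 * w) + I (w * (f2 * C.Γ F h ^ 2)) := by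
  have hD := hC.toIsDir
  have hhA := hC.test_A hh.1
  have hh' : MemLp (C.Γ h h) ∞ m := (hC.mem_test_iff.1 hh.1).2.2.1
  have hg : C.Γ h h ∈ C.A := hC.Γ_mem hB hh.1 hh.1
  have e1 : C.Γ h (f1 * w) = f1 * C.Γ h w + w * (f2 * C.Γ F h) := by
    rw [hD.Γ_mul_right hf1 hw hhA.1, hC.symm h hhA.1 f1 hf1.1, H2 h hhA.1]
  have hG2 : MemLp (C.Γ F h) 2 m := hD.Γ_mem2 hF.1 hF' hhA.1
  have m0 : MemLp (f1 * (w * C.lap h + C.Γ h w) : M →ₘ[m] ℝ) 2 m :=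
    mem_mul_top hf1.2 (mem_add (mem_mul_top hw.2 (hC.test_isLap hh.1).2.1)
      (hD.Γ_mem2 hhA.1 hh' hw.1))
  have m1 : MemLp (C.Γ F h * (f1 * (w * C.lap h + C.Γ h w)) : M →ₘ[m] ℝ) 1 m := mem_mul_22 hG2 m0
  have m2 : MemLp (w * (f2 * C.Γ F h ^ 2) : M →ₘ[m] ℝ) 1 m :=
    mem_mul_top hw.2 (mem_mul_top hf2 (mem_sq hG2))
  rw [Calc.wH, Calc.wH, H1 h hhA.1, H1 _ hg.1, e1]
  have e2 : C.Γ F h * (f1 * w * C.lap h + (f1 * C.Γ h w + w * (f2 * C.Γ F h)))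
      = C.Γ F h * (f1 * (w * C.lap h + C.Γ h w)) + w * (f2 * C.Γ F h ^ 2) := by ring
  have e3 : f1 * C.Γ F h * (w * C.lap h + C.Γ h w)
      = C.Γ F h * (f1 * (w * C.lap h + C.Γ h w)) := by ring
  have e4 : w * (f1 * C.Γ F (C.Γ h h)) = f1 * w * C.Γ F (C.Γ h h) := by ring
  rw [e2, e3, e4, I_add m1 m2]
  ring

end Vale.Agent.P233.H761
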