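import Vale.Agent.P233.Gig.IfE
import Vale.Agent.P233.H866.MdSqrt

/-!
P233, block E6 (helper761): real functions for the change of variables
`md_κ(d_p) = ψ(d_p²)`, with a smooth cut-off at `d_p = R`.
-/

set_option linter.all false

open MeasureTheory Filter Topology Set
open scoped ENNReal NNReal

namespace Vale.Agent.P233.H761

/-! ### the cut-off -/

/-- smooth cut-off in the variable `y = d²` -/
noncomputable def chi (R η y : ℝ) : ℝ := Real.smoothTransition ((R ^ 2 - y) / η)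

/-- derivative of `chi` -/
noncomputable def chi' (R η y : ℝ) : ℝ := -(deriv Real.smoothTransition ((R ^ 2 - y) / η) / η)

theorem st_deriv (x : ℝ) : HasDerivAt Real.smoothTransition (deriv Real.smoothTransition x) x :=
  ((Real.smoothTransition.contDiff (n := 1)).differentiable (by norm_num) x).hasDerivAt

theorem st_deriv_cont : Continuous (deriv Real.smoothTransition) :=
  (Real.smoothTransition.contDiff (n := 1)).continuous_deriv (by norm_num)

theorem st_deriv_nonneg (x : ℝ) : 0 ≤ deriv Real.smoothTransition x :=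
  Real.smoothTransition.monotone.deriv_nonneg

theorem st_deriv_zero {x : ℝ} (hx : x ≤ 0) : deriv Real.smoothTransition x = 0 := by
  apply IsLocalMin.deriv_eq_zero
  filter_upwards with y
  rw [Real.smoothTransition.zero_of_nonpos hx]
  exact Real.smoothTransition.nonneg y

theorem chi_cont (R η : ℝ) : Continuous (chi R η) :=
  Real.smoothTransition.continuous.comp (by fun_prop)

theorem chi'_cont (R η : ℝ) : Continuous (chi' R η) := by
  unfold chi'
  exact ((st_deriv_cont.comp (by fun_prop)).div_const η).neg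

theorem hasDerivAt_chi (R η y : ℝ) : HasDerivAt (chi R η) (chi' R η y) y := by
  have h1 : HasDerivAt (fun y => (R ^ 2 - y) / η) (-1 / η) y :=
    ((hasDerivAt_id y).const_sub (R ^ 2)).div_const η
  refine ((st_deriv _).comp y h1).congr_deriv ?_
  unfold chi'
  ring

theorem chi_nonneg (R η y : ℝ) : 0 ≤ chi R η y := Real.smoothTransition.nonneg _
theorem chi_le_one (R η y : ℝ) : chi R η y ≤ 1 := Real.smoothTransition.le_one _

theorem chi'_nonpos {R η : ℝ} (hη : 0 < η) (y : ℝ) : chi' R η y ≤ 0 := by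
  unfold chi'
  have := div_nonneg (st_deriv_nonneg ((R ^ 2 - y) / η)) hη.le
  linarith

theorem chi_zero {R η y : ℝ} (hη : 0 < η) (hy : R ^ 2 ≤ y) : chi R η y = 0 :=
  Real.smoothTransition.zero_of_nonpos (div_nonpos_of_nonpos_of_nonneg (by linarith) hη.le)

theorem chi'_zero {R η y : ℝ} (hη : 0 < η) (hy : R ^ 2 ≤ y) : chi' R η y = 0 := by
  unfold chi'
  rw [st_deriv_zero (div_nonpos_of_nonpos_of_nonneg (by linarith) hη.le)]
  simp

theorem chi_one {R η y : ℝ} (hη : 0 < η) (hy : y ≤ R ^ 2 - η) : chi R η y = 1 :=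
  Real.smoothTransition.one_of_one_le (by rw [le_div_iff₀ hη]; linarith)

/-- the cut-offs tend to the indicator function -/
theorem chi_tendsto {R y : ℝ} {η : ℕ → ℝ} (hη : ∀ n, 0 < η n) (hη0 : Tendsto η atTop (𝓝 0))
    (hy : y < R ^ 2) : ∀ᶠ n in atTop, chi R (η n) y = 1 := by
  filter_upwards [hη0.eventually (gt_mem_nhds (show (0 : ℝ) < R ^ 2 - y by linarith))] with n hn
  exact chi_one (hη n) (by linarith)

/-! ### the functions of `y = d²` -/

/-- the derivative of `Psi` -/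
noncomputable def qf (κ R η y : ℝ) : ℝ := hm1 κ (max 0 y) * chi R η y

/-- the second derivative of `Psi` -/
noncomputable def qf' (κ R η y : ℝ) : ℝ :=
  hm2 κ (max 0 y) * chi R η y + hm1 κ (max 0 y) * chi' R η y

/-- the smoothed version of `md_κ(√y) - md_κ(R)` -/
noncomputable def Psi (κ R η y : ℝ) : ℝ := ∫ t in (R ^ 2)..y, qf κ R η t

theorem qf_cont (κ R η : ℝ) : Continuous (qf κ R η) :=
  (continuous_clamp (continuousOn_hm1 κ)).mul (chi_cont R η)

theorem qf'_cont (κ R η : ℝ) : Continuous (qf' κ R η) :=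
  ((continuous_clamp (continuousOn_hm2 κ)).mul (chi_cont R η)).add
    ((continuous_clamp (continuousOn_hm1 κ)).mul (chi'_cont R η))

theorem hasDerivAt_Psi (κ R η y : ℝ) : HasDerivAt (Psi κ R η) (qf κ R η y) y :=
  intervalIntegral.integral_hasDerivAt_right ((qf_cont κ R η).intervalIntegrable _ _)
    ((qf_cont κ R η).stronglyMeasurableAtFilter _ _) (qf_cont κ R η).continuousAt

theorem Psi_cont (κ R η : ℝ) : Continuous (Psi κ R η) :=
  continuous_iff_continuousAt.2 fun y => (hasDerivAt_Psi κ R η y).continuousAt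

theorem hasDerivWithinAt_qf {κ R η y : ℝ} (hy : 0 ≤ y) :
    HasDerivWithinAt (qf κ R η) (qf' κ R η y) (Ici 0) y := by
  have h1 := (hasDerivWithinAt_hm1 (κ := κ) hy).mul (hasDerivAt_chi R η y).hasDerivWithinAt
  have e : qf' κ R η y = hm2 κ y * chi R η y + hm1 κ y * chi' R η y := by
    unfold qf'; rw [max_eq_right hy]
  rw [e]
  refine h1.congr (fun z hz => ?_) ?_
  · unfold qf; rw [max_eq_right (show (0 : ℝ) ≤ z from hz)]; rfl
  · unfold qf; rw [max_eq_right hy]; rfl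

theorem qf_zero {κ R η y : ℝ} (hη : 0 < η) (hy : R ^ 2 ≤ y) : qf κ R η y = 0 := by
  unfold qf; rw [chi_zero hη hy, mul_zero]

theorem qf'_zero {κ R η y : ℝ} (hη : 0 < η) (hy : R ^ 2 ≤ y) : qf' κ R η y = 0 := by
  unfold qf'; rw [chi_zero hη hy, chi'_zero hη hy, mul_zero, mul_zero, add_zero]

theorem Psi_zero {κ R η y : ℝ} (hη : 0 < η) (hy : R ^ 2 ≤ y) : Psi κ R η y = 0 := by
  unfold Psi
  rw [intervalIntegral.integral_congr (g := fun _ => (0 : ℝ)), intervalIntegral.integral_zero]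
  intro t ht
  rw [uIcc_of_le hy] at ht
  exact qf_zero hη ht.1

/-- a common bound -/
theorem exists_bounds (κ : ℝ) {L : ℝ} (hL : 0 < L) (hκ : √κ * L < Real.pi) :
    ∃ B c : ℝ, 0 < c ∧ 0 < B ∧ ∀ y ∈ Icc (0 : ℝ) (L ^ 2), c ≤ hm1 κ y ∧ hm1 κ y ≤ B ∧
      |hm2 κ y| ≤ B ∧ |cs κ (√y)| ≤ B := by
  have hcomp : IsCompact (Icc (0 : ℝ) (L ^ 2)) := isCompact_Icc
  have hsub : Icc (0 : ℝ) (L ^ 2) ⊆ Ici 0 := fun y hy => hy.1
  obtain ⟨B1, hB1⟩ := hcomp.exists_bound_of_continuousOn ((continuousOn_hm1 κ).mono hsub)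
  obtain ⟨B2, hB2⟩ := hcomp.exists_bound_of_continuousOn ((continuousOn_hm2 κ).mono hsub)
  obtain ⟨B3, hB3⟩ := hcomp.exists_bound_of_continuousOn
    (((continuous_cs κ).comp Real.continuous_sqrt).continuousOn (s := Icc (0 : ℝ) (L ^ 2)))
  obtain ⟨y₀, hy₀, hmin⟩ := hcomp.exists_isMinOn ⟨0, le_rfl, by positivity⟩
    ((continuousOn_hm1 κ).mono hsub)
  have hpos : ∀ y ∈ Icc (0 : ℝ) (L ^ 2), 0 < hm1 κ y := by
    intro y hy
    refine hm1_pos hy.1 fun _ => lt_of_le_of_lt ?_ hκ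
    refine mul_le_mul_of_nonneg_left ?_ (Real.sqrt_nonneg _)
    rw [← Real.sqrt_sq hL.le]
    exact Real.sqrt_le_sqrt hy.2
  refine ⟨max 1 (max B1 (max B2 B3)), hm1 κ y₀, hpos _ hy₀, by positivity, fun y hy => ⟨?_, ?_, ?_, ?_⟩⟩
  · exact hmin hy
  · refine le_trans ((le_abs_self _).trans (hB1 y hy)) ?_
    exact (le_max_left _ _).trans (le_max_right _ _)
  · refine (hB2 y hy).trans ?_
    exact (le_max_left _ _).trans ((le_max_right _ _).trans (le_max_right _ _))
  · refine (hB3 y hy).trans ?_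
    exact (le_max_right _ _).trans ((le_max_right _ _).trans (le_max_right _ _))

/-- bound for `Psi` -/
theorem abs_Psi_le {κ R η B y : ℝ} (hη : 0 < η) (hB0 : 0 ≤ B)
    (hB : ∀ y ∈ Icc (0 : ℝ) (R ^ 2), |hm1 κ y| ≤ B) (hy : 0 ≤ y) : |Psi κ R η y| ≤ B * R ^ 2 := by
  rcases le_total (R ^ 2) y with h | h
  · rw [Psi_zero hη h, abs_zero]; positivity
  · unfold Psi
    have h1 : ∀ t ∈ uIoc (R ^ 2) y, ‖qf κ R η t‖ ≤ B := by
      intro t ht
      rw [uIoc_comm, uIoc_of_le h] at ht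
      have ht0 : 0 ≤ t := hy.trans ht.1.le
      unfold qf
      rw [max_eq_right ht0, norm_mul, Real.norm_eq_abs, Real.norm_eq_abs,
        abs_of_nonneg (chi_nonneg _ _ _)]
      calc |hm1 κ t| * chi R η t ≤ B * 1 :=
            mul_le_mul (hB t ⟨ht0, ht.2⟩) (chi_le_one _ _ _) (chi_nonneg _ _ _) hB0
        _ = B := mul_one B
    refine (intervalIntegral.norm_integral_le_of_norm_le_const h1).trans ?_
    refine mul_le_mul_of_nonneg_left ?_ hB0
    rw [abs_sub_comm, abs_of_nonneg (by linarith)]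
    linarith

/-- `Psi → md_κ(√y) - md_κ(R)` -/
theorem Psi_tendsto {κ R : ℝ} (hR : 0 < R) {η : ℕ → ℝ} (hη : ∀ n, 0 < η n)
    (hη0 : Tendsto η atTop (𝓝 0)) {r : ℝ} (hr : 0 ≤ r) :
    Tendsto (fun n => Psi κ R (η n) (r ^ 2)) atTop (𝓝 (md κ (min r R) - md κ R)) := by
  rcases le_total R r with h | h
  · rw [min_eq_right h, sub_self]
    refine tendsto_const_nhds.congr fun n => ?_
    rw [Psi_zero (hη n) (by gcongr)]
  · rw [min_eq_left h, ← hm_sq hr, ← hm_sq hR.le]
    have hsq : r ^ 2 ≤ R ^ 2 := by gcongr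
    have hc : Continuous fun t => hm1 κ (max 0 t) := continuous_clamp (continuousOn_hm1 κ)
    have e : hm κ (r ^ 2) - hm κ (R ^ 2) = ∫ t in (R ^ 2)..(r ^ 2), hm1 κ (max 0 t) := by
      rw [intervalIntegral.integral_symm, intervalIntegral.integral_eq_sub_of_hasDerivAt_of_le hsq
        (f := hm κ)]
      · ring
      · exact (continuousOn_hm κ).mono fun t ht => (sq_nonneg r).trans ht.1
      · intro t ht
        have ht0 : 0 < t := lt_of_le_of_lt (sq_nonneg r) ht.1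
        rw [max_eq_right ht0.le]
        exact hasDerivAt_hm ht0
      · exact hc.intervalIntegrable _ _
    rw [e]
    refine intervalIntegral.tendsto_integral_filter_of_dominated_convergence
      (fun t => |hm1 κ (max 0 t)|) ?_ ?_ (hc.abs.intervalIntegrable _ _) ?_
    · exact Eventually.of_forall fun n => (qf_cont κ R (η n)).aestronglyMeasurable
    · refine Eventually.of_forall fun n => Eventually.of_forall fun t _ => ?_
      unfold qf
      rw [norm_mul, Real.norm_eq_abs, Real.norm_eq_abs, abs_of_nonneg (chi_nonneg _ _ _)]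
      calc |hm1 κ (max 0 t)| * chi R (η n) t ≤ |hm1 κ (max 0 t)| * 1 :=
            mul_le_mul_of_nonneg_left (chi_le_one _ _ _) (abs_nonneg _)
        _ = |hm1 κ (max 0 t)| := mul_one _
    · have hne : ∀ᵐ t : ℝ, t ≠ R ^ 2 := by
        simp [ae_iff, measure_singleton]
      filter_upwards [hne] with t ht htm
      rw [uIoc_comm, uIoc_of_le hsq] at htm
      have ht2 : t < R ^ 2 := lt_of_le_of_ne htm.2 ht
      refine tendsto_const_nhds.congr' ?_
      filter_upwards [chi_tendsto hη hη0 ht2] with n hn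
      unfold qf
      rw [hn, mul_one]

/-! ### `lct` and `bct` -/

theorem sn_eq_hm1 {κ l : ℝ} (hl : 0 < l) : sn κ l = 2 * l * hm1 κ (l ^ 2) := by
  unfold hm1
  rw [if_neg (by positivity), Real.sqrt_sq hl.le]
  field_simp

theorem lct_eq {κ l : ℝ} (hl : 0 ≤ l) : lct κ l = cs κ l / (2 * hm1 κ (l ^ 2)) := by
  unfold lct
  rcases hl.eq_or_lt with h | h
  · subst h
    rw [if_pos rfl]
    simp [cs_zero_arg, hm1]
  · rw [if_neg h.ne', sn_eq_hm1 h]
    field_simp

theorem bct_eq {κ l : ℝ} (hl : 0 ≤ l) (h0 : 0 < hm1 κ (l ^ 2)) :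
    bct κ l = -(2 * hm2 κ (l ^ 2)) / hm1 κ (l ^ 2) := by
  unfold bct
  rcases hl.eq_or_lt with h | h
  · subst h
    rw [if_pos rfl]
    simp [hm1, hm2]
    ring
  · rw [if_neg h.ne', lct_eq hl]
    have h1 := hm_ode (κ := κ) (sq_nonneg l)
    rw [Real.sqrt_sq hl] at h1
    rw [← h1]
    field_simp
    ring

theorem measurable_lct (κ : ℝ) : Measurable (lct κ) := by
  unfold lct
  refine Measurable.ite (measurableSet_singleton (0 : ℝ)) measurable_const ?_
  exact (measurable_id.mul (continuous_cs κ).measurable).div (continuous_sn κ).measurable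

theorem measurable_bct (κ : ℝ) : Measurable (bct κ) := by
  unfold bct
  refine Measurable.ite (measurableSet_singleton (0 : ℝ)) measurable_const ?_
  exact (measurable_const.sub (measurable_lct κ)).div (measurable_id.pow_const 2)

/-- the coefficients after the change of variables -/
noncomputable def aco (κ s r : ℝ) : ℝ := 2 * (1 + s) * hm1 κ (r ^ 2) * lct κ (r / (1 + s))

noncomputable def bco (κ s r : ℝ) : ℝ :=
  2 * (1 + s) * hm1 κ (r ^ 2) * bct κ (r / (1 + s)) + 4 * (1 + s) ^ 2 * hm2 κ (r ^ 2)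

theorem measurable_hm1 (κ : ℝ) : Measurable (hm1 κ) := by
  unfold hm1
  refine Measurable.ite (measurableSet_singleton (0 : ℝ)) measurable_const ?_
  exact ((continuous_sn κ).comp Real.continuous_sqrt).measurable.div
    (Real.continuous_sqrt.measurable.const_mul 2)

theorem measurable_hm2 (κ : ℝ) : Measurable (hm2 κ) := by
  unfold hm2
  refine Measurable.ite (measurableSet_singleton (0 : ℝ)) measurable_const ?_
  exact (((continuous_cs κ).comp Real.continuous_sqrt).measurable.sub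
    (((continuous_sn κ).comp Real.continuous_sqrt).measurable.div
      Real.continuous_sqrt.measurable)).div (measurable_id.const_mul 4)

theorem measurable_aco (κ s : ℝ) : Measurable (aco κ s) := by
  unfold aco
  exact (((measurable_hm1 κ).comp (measurable_id.pow_const 2)).const_mul _).mul
    ((measurable_lct κ).comp (measurable_id.div_const _))

theorem measurable_bco (κ s : ℝ) : Measurable (bco κ s) := by
  unfold bco
  exact ((((measurable_hm1 κ).comp (measurable_id.pow_const 2)).const_mul _).mul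
    ((measurable_bct κ).comp (measurable_id.div_const _))).add
    (((measurable_hm2 κ).comp (measurable_id.pow_const 2)).const_mul _)

section bounds

variable {κ L B c : ℝ}

theorem lct_abs_le (hL : 0 < L) (hc : 0 < c)
    (hb : ∀ y ∈ Icc (0 : ℝ) (L ^ 2), c ≤ hm1 κ y ∧ hm1 κ y ≤ B ∧ |hm2 κ y| ≤ B ∧ |cs κ (√y)| ≤ B)
    {l : ℝ} (h0 : 0 ≤ l) (h1 : l ≤ L) : |lct κ l| ≤ B / (2 * c) := by
  obtain ⟨a1, a2, a3, a4⟩ := hb (l ^ 2) ⟨sq_nonneg _, by gcongr⟩
  rw [Real.sqrt_sq h0] at a4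
  have hp : 0 < hm1 κ (l ^ 2) := hc.trans_le a1
  rw [lct_eq h0, abs_div, abs_of_pos (show 0 < 2 * hm1 κ (l ^ 2) by positivity)]
  have hB : 0 ≤ B := (abs_nonneg _).trans a4
  gcongr

theorem bct_abs_le (hL : 0 < L) (hc : 0 < c)
    (hb : ∀ y ∈ Icc (0 : ℝ) (L ^ 2), c ≤ hm1 κ y ∧ hm1 κ y ≤ B ∧ |hm2 κ y| ≤ B ∧ |cs κ (√y)| ≤ B)
    {l : ℝ} (h0 : 0 ≤ l) (h1 : l ≤ L) : |bct κ l| ≤ 2 * B / c := by
  obtain ⟨a1, a2, a3, a4⟩ := hb (l ^ 2) ⟨sq_nonneg _, by gcongr⟩
  have hp : 0 < hm1 κ (l ^ 2) := hc.trans_le a1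
  rw [bct_eq h0 hp, abs_div, abs_of_pos hp, abs_neg, abs_mul, abs_two]
  have hB : 0 ≤ B := (abs_nonneg _).trans a4
  gcongr

theorem aco_abs_le (hL : 0 < L) (hc : 0 < c)
    (hb : ∀ y ∈ Icc (0 : ℝ) (L ^ 2), c ≤ hm1 κ y ∧ hm1 κ y ≤ B ∧ |hm2 κ y| ≤ B ∧ |cs κ (√y)| ≤ B)
    {s r : ℝ} (hs0 : 0 ≤ s) (hs1 : s ≤ 1) (h0 : 0 ≤ r) (h1 : r ≤ L) :
    |aco κ s r| ≤ 4 * B * (B / (2 * c)) := by
  obtain ⟨a1, a2, a3, a4⟩ := hb (r ^ 2) ⟨sq_nonneg _, by gcongr⟩
  have hp : 0 < hm1 κ (r ^ 2) := hc.trans_le a1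
  have hl0 : 0 ≤ r / (1 + s) := by positivity
  have hl1 : r / (1 + s) ≤ L := (div_le_self h0 (by linarith)).trans h1
  have hl := lct_abs_le hL hc hb hl0 hl1
  have hB : 0 ≤ B := (abs_nonneg _).trans a4
  unfold aco
  rw [abs_mul, abs_mul, abs_of_pos hp, abs_of_nonneg (show 0 ≤ 2 * (1 + s) by linarith)]
  refine mul_le_mul (mul_le_mul (by linarith) a2 hp.le (by norm_num)) hl (abs_nonneg _) ?_
  positivity

theorem bco_abs_le (hL : 0 < L) (hc : 0 < c)
    (hb : ∀ y ∈ Icc (0 : ℝ) (L ^ 2), c ≤ hm1 κ y ∧ hm1 κ y ≤ B ∧ |hm2 κ y| ≤ B ∧ |cs κ (√y)| ≤ B)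
    {s r : ℝ} (hs0 : 0 ≤ s) (hs1 : s ≤ 1) (h0 : 0 ≤ r) (h1 : r ≤ L) :
    |bco κ s r| ≤ 4 * B * (2 * B / c) + 16 * B := by
  obtain ⟨a1, a2, a3, a4⟩ := hb (r ^ 2) ⟨sq_nonneg _, by gcongr⟩
  have hp : 0 < hm1 κ (r ^ 2) := hc.trans_le a1
  have hl0 : 0 ≤ r / (1 + s) := by positivity
  have hl1 : r / (1 + s) ≤ L := (div_le_self h0 (by linarith)).trans h1
  have hl := bct_abs_le hL hc hb hl0 hl1
  have hB : 0 ≤ B := (abs_nonneg _).trans a4
  unfold bco
  refine (abs_add_le _ _).trans (add_le_add ?_ ?_)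
  · rw [abs_mul, abs_mul, abs_of_pos hp, abs_of_nonneg (show 0 ≤ 2 * (1 + s) by linarith)]
    refine mul_le_mul (mul_le_mul (by linarith) a2 hp.le (by norm_num)) hl (abs_nonneg _) ?_
    positivity
  · rw [abs_mul, abs_of_nonneg (show 0 ≤ 4 * (1 + s) ^ 2 by positivity)]
    refine mul_le_mul ?_ a3 (abs_nonneg _) (by norm_num)
    nlinarith

end bounds

/-- limits of the coefficients -/
theorem co_tendsto {κ r : ℝ} (hr : 0 ≤ r) (h0 : 0 < hm1 κ (r ^ 2)) {s : ℕ → ℝ} (hs : ∀ n, 0 < s n)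
    (hs0 : Tendsto s atTop (𝓝 0)) :
    Tendsto (fun n => aco κ (s n) r) atTop (𝓝 (cs κ r)) ∧
      Tendsto (fun n => bco κ (s n) r) atTop (𝓝 0) := by
  have h1 : Tendsto (fun n => 1 + s n) atTop (𝓝 1) := by simpa using hs0.const_add 1
  have hl : Tendsto (fun n => r / (1 + s n)) atTop (𝓝 r) := by
    have h2 := (tendsto_const_nhds (x := r) (f := (atTop : Filter ℕ))).div h1 one_ne_zero
    rw [div_one] at h2
    exact h2
  have hl2 : Tendsto (fun n => (r / (1 + s n)) ^ 2) atTop (𝓝[Ici 0] (r ^ 2)) :=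
    tendsto_nhdsWithin_iff.2 ⟨hl.pow 2, Eventually.of_forall fun n => mem_Ici.2 (sq_nonneg _)⟩
  have hm1l : Tendsto (fun n => hm1 κ ((r / (1 + s n)) ^ 2)) atTop (𝓝 (hm1 κ (r ^ 2))) :=
    ((continuousOn_hm1 κ) (r ^ 2) (sq_nonneg r)).tendsto.comp hl2
  have hm2l : Tendsto (fun n => hm2 κ ((r / (1 + s n)) ^ 2)) atTop (𝓝 (hm2 κ (r ^ 2))) :=
    ((continuousOn_hm2 κ) (r ^ 2) (sq_nonneg r)).tendsto.comp hl2
  have hcs : Tendsto (fun n => cs κ (r / (1 + s n))) atTop (𝓝 (cs κ r)) :=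
    ((continuous_cs κ).tendsto r).comp hl
  have hpos : ∀ᶠ n in atTop, 0 < hm1 κ ((r / (1 + s n)) ^ 2) :=
    hm1l.eventually (lt_mem_nhds h0)
  have hL : Tendsto (fun n => lct κ (r / (1 + s n))) atTop (𝓝 (cs κ r / (2 * hm1 κ (r ^ 2)))) := by
    refine (hcs.div (hm1l.const_mul 2) (by positivity)).congr fun n => ?_
    rw [Pi.div_apply, lct_eq (div_nonneg hr (by linarith [hs n]))]
  have hBt : Tendsto (fun n => bct κ (r / (1 + s n))) atTop
      (𝓝 (-(2 * hm2 κ (r ^ 2)) / hm1 κ (r ^ 2))) := by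
    refine (((hm2l.const_mul 2).neg).div hm1l h0.ne').congr' ?_
    filter_upwards [hpos] with n hn
    rw [Pi.div_apply, bct_eq (div_nonneg hr (by linarith [hs n])) hn]
  constructor
  · have := ((h1.const_mul 2).mul_const (hm1 κ (r ^ 2))).mul hL
    have e : 2 * 1 * hm1 κ (r ^ 2) * (cs κ r / (2 * hm1 κ (r ^ 2))) = cs κ r := by
      field_simp
    rw [e] at this
    exact this
  · have := (((h1.const_mul 2).mul_const (hm1 κ (r ^ 2))).mul hBt).add
      (((h1.pow 2).const_mul 4).mul_const (hm2 κ (r ^ 2)))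
    have e : 2 * 1 * hm1 κ (r ^ 2) * (-(2 * hm2 κ (r ^ 2)) / hm1 κ (r ^ 2))
        + 4 * 1 ^ 2 * hm2 κ (r ^ 2) = 0 := by
      field_simp
      ring
    rw [e] at this
    exact this

end Vale.Agent.P233.H761
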