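import Vale.Agent.P233.H761.HessD1
import Vale.Agent.P233.H761.HessD2
import Vale.Agent.P233.H183.Unit

/-!
P233, block E6 (helper761): from the radial potentials with positive initial time to `md_κ(d_p)`.
-/

set_option linter.all false

open MeasureTheory Filter Topology Set
open scoped ENNReal NNReal

universe u

namespace Vale.Agent.P233.H761

section abs

variable {M : Type*} [MeasurableSpace M] {m : Measure M} {C : Calc m}
variable {f g : M →ₘ[m] ℝ}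

theorem Γ_mul_self_top (hC : IsDir C) (hf : f ∈ C.A) (hf' : MemLp (C.Γ f f) ∞ m) (hg : g ∈ C.A)
    (hg' : MemLp (C.Γ g g) ∞ m) : MemLp (C.Γ (f * g) (f * g)) ∞ m := by
  have hfg := hC.Γ_memTop hf.1 hf' hg.1 hg'
  have hgf := hC.Γ_memTop hg.1 hg' hf.1 hf'
  rw [hC.Γ_mul_left hf hg (hC.mul_mem_A hf hg).1, hC.Γ_mul_right hf hg hg.1,
    hC.Γ_mul_right hf hg hf.1]
  exact mem_add (mem_mul_top hf.2 (mem_add (mem_mul_top hf.2 hg') (mem_mul_top hg.2 hgf)))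
    (mem_mul_top hg.2 (mem_add (mem_mul_top hf.2 hfg) (mem_mul_top hg.2 hf')))

theorem comp_ae' {φ : ℝ → ℝ} (hφ : Continuous φ) (f : M →ₘ[m] ℝ) :
    ⇑(AEEqFun.comp φ hφ f) =ᵐ[m] fun x => φ (f x) := by
  filter_upwards [AEEqFun.coeFn_comp φ hφ f] with x hx
  exact hx

end abs

variable {M : Type u} [MetricSpace M] [MeasurableSpace M] [BorelSpace M]
  [SecondCountableTopology M] {m : Measure M}

theorem zr_cont (p : M) (s C₀ : ℝ) : Continuous (zr p s C₀ 1) := by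
  unfold zr
  have : Continuous fun x : M => dist p x := by fun_prop
  exact (((this.pow 2).div_const _).sub continuous_const).min continuous_const

theorem zr_cases {p : M} {s C₀ : ℝ} (hs : 0 ≤ s) (x : M) :
    (dist p x ^ 2 < 2 * C₀ * (1 + s) ∧ 2 * (1 + s) * (zr p s C₀ 1 x + C₀) = dist p x ^ 2) ∨
      (2 * C₀ * (1 + s) ≤ dist p x ^ 2 ∧ 2 * (1 + s) * (zr p s C₀ 1 x + C₀) = 2 * C₀ * (1 + s)) := by
  have h1 : 0 < 1 + s := by linarith
  unfold zr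
  rcases lt_or_ge (dist p x ^ 2) (2 * C₀ * (1 + s)) with h | h
  · left
    refine ⟨h, ?_⟩
    rw [min_eq_left]
    · field_simp; ring
    · rw [sub_nonpos, div_le_iff₀ (by positivity)]
      linarith
  · right
    refine ⟨h, ?_⟩
    rw [min_eq_right]
    · ring
    · rw [sub_nonneg, le_div_iff₀ (by positivity)]
      linarith

/-- the radial potential -/
theorem F_facts (hC : IsDir (sob m)) (hfin : ∀ (x : M) (r : ℝ), m (Metric.ball x r) < ∞) {p : M}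
    {s C₀ : ℝ} (hs : 0 ≤ s) (hC₀ : 0 < C₀) :
    cl m (zr p s C₀ 1) ∈ (sob m).A ∧
      (∀ᵐ x ∂m, (sob m).Γ (cl m (zr p s C₀ 1)) (cl m (zr p s C₀ 1)) x ≤ 2 * C₀) ∧
      (∀ᵐ x ∂m, cl m (zr p s C₀ 1) x = zr p s C₀ 1 x) ∧
      (∀ᵐ x ∂m, -C₀ ≤ cl m (zr p s C₀ 1) x ∧ cl m (zr p s C₀ 1) x ≤ 0) := by
  have h1 : 0 < 1 + s := by linarith
  have hae : ∀ᵐ x ∂m, cl m (zr p s C₀ 1) x = zr p s C₀ 1 x := H183.cl_cont (zr_cont p s C₀)
  have hρ2 : √(2 * C₀ * (1 + s)) ^ 2 = 2 * C₀ * (1 + s) := Real.sq_sqrt (by positivity)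
  have hA := H183.zr_mem_A hC hfin (p := p) h1 (Real.sqrt_nonneg _) hρ2
  have hD := H183.dtr_mem_A (m := m) hfin p √(2 * C₀ * (1 + s))
  refine ⟨hA, ?_, hae, ?_⟩
  · have e1 := H183.Γ_zr hC hfin (p := p) h1 (Real.sqrt_nonneg _) hρ2 hA.1
    have e2 := H183.Γ_zr hC hfin (p := p) h1 (Real.sqrt_nonneg _) hρ2 hD.1
    rw [hC.symm _ hA.1 _ hD.1] at e2
    have e3 := H183.Γ_cl_le (m := m) hfin (H183.dtr_lip p √(2 * C₀ * (1 + s))) (x₀ := p)
      (R := √(2 * C₀ * (1 + s))) (fun _ h => H183.dtr_zero h)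
    filter_upwards [e1, e2, e3, hC.Γ_nonneg_ae hD.1] with x a1 a2 a3 a4
    rw [a1, a2]
    have b1 : min (dist p x) √(2 * C₀ * (1 + s)) ≤ √(2 * C₀ * (1 + s)) := min_le_right _ _
    have b2 : 0 ≤ min (dist p x) √(2 * C₀ * (1 + s)) := le_min dist_nonneg (Real.sqrt_nonneg _)
    set a := min (dist p x) √(2 * C₀ * (1 + s)) with ha
    set G := (sob m).Γ (cl m (dtr p √(2 * C₀ * (1 + s)))) (cl m (dtr p √(2 * C₀ * (1 + s)))) x
      with hG
    have b3 : G ≤ 1 := by simpa using a3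
    have b4 : a ^ 2 ≤ 2 * C₀ * (1 + s) := by rw [← hρ2]; gcongr
    have e : a / (1 + s) * (a / (1 + s) * G) = a ^ 2 / (1 + s) ^ 2 * G := by
      field_simp
    rw [e]
    calc a ^ 2 / (1 + s) ^ 2 * G ≤ a ^ 2 / (1 + s) ^ 2 * 1 := by gcongr
      _ = a ^ 2 / (1 + s) ^ 2 := mul_one _
      _ ≤ 2 * C₀ := by
          rw [div_le_iff₀ (by positivity)]
          have : 2 * C₀ * (1 + s) ≤ 2 * C₀ * (1 + s) ^ 2 := by
            have : 1 + s ≤ (1 + s) ^ 2 := by nlinarith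
            gcongr
          linarith
  · filter_upwards [hae] with x hx
    rw [hx]
    refine ⟨?_, min_le_right _ _⟩
    have h2 : (0 : ℝ) ≤ dist p x ^ 2 / (2 * (1 + s)) := by positivity
    exact le_min (by linarith) (by linarith)

/-- the upper bound in the first step -/
noncomputable def gco (κ R C₀ s η : ℝ) (p x : M) : ℝ :=
  chi R η (dist p x ^ 2) * (aco κ s (dist p x) + 2 * C₀ * |bco κ s (dist p x)|)

theorem measurable_gco (κ R C₀ s η : ℝ) (p : M) : Measurable (gco κ R C₀ s η p) := by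
  unfold gco
  have hd : Measurable fun x : M => dist p x := by
    have : Continuous fun x : M => dist p x := by fun_prop
    exact this.measurable
  have h2 : Measurable fun x : M => bco κ s (dist p x) := (measurable_bco κ s).comp hd
  exact ((chi_cont R η).measurable.comp (hd.pow_const 2)).mul
    (((measurable_aco κ s).comp hd).add ((continuous_abs.measurable.comp h2).const_mul _))

theorem spd_eq (p : M) (s C₀ : ℝ) (x : M) :
    spd p s C₀ x = if dist p x ^ 2 < 2 * C₀ * (1 + s) then dist p x / (1 + s) else 0 := by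
  unfold spd
  split_ifs <;> rfl

theorem spd_nonneg {p : M} {s C₀ : ℝ} (hs : 0 ≤ s) (x : M) : 0 ≤ spd p s C₀ x := by
  rw [spd_eq]
  split_ifs
  · positivity
  · exact le_rfl

theorem spd_le {p : M} {s C₀ : ℝ} (hs : 0 ≤ s) (hC₀ : 0 < C₀) (x : M) :
    spd p s C₀ x ≤ √(2 * C₀) := by
  rw [spd_eq]
  split_ifs with h
  · apply Real.le_sqrt_of_sq_le
    rw [div_pow, div_le_iff₀ (by positivity)]
    have : 2 * C₀ * (1 + s) ≤ 2 * C₀ * (1 + s) ^ 2 := by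
      have : 1 + s ≤ (1 + s) ^ 2 := by nlinarith
      gcongr
    linarith
  · positivity

theorem measurable_spd (p : M) (s C₀ : ℝ) : Measurable (spd p s C₀) := by
  have e : spd p s C₀ = fun x => if dist p x ^ 2 < 2 * C₀ * (1 + s) then dist p x / (1 + s) else 0 :=
    funext fun x => spd_eq p s C₀ x
  rw [e]
  have hd : Continuous fun x : M => dist p x := by fun_prop
  exact Measurable.ite (measurableSet_lt (hd.pow 2).measurable measurable_const)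
    (hd.measurable.div_const _) measurable_const

/-- pointwise inequality of real numbers -/
theorem pt_ineq {κ C₀ s X X' q1 q2 G Γh al be a b w : ℝ} (hs : 0 ≤ s) (hC₀ : 0 < C₀)
    (hm0 : 0 ≤ q1) (c1 : 0 ≤ X) (c3 : X' ≤ 0) (hGG : G ^ 2 ≤ 2 * C₀ * Γh) (hw : 0 ≤ w)
    (ea : a = 2 * (1 + s) * q1 * al) (eb : b = 2 * (1 + s) * q1 * be + 4 * (1 + s) ^ 2 * q2) :
    2 * (1 + s) * (q1 * X) * w * (al * Γh + be * G ^ 2)
        + w * (4 * (1 + s) ^ 2 * (q2 * X + q1 * X') * G ^ 2)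
      ≤ w * (X * (a + 2 * C₀ * |b|) * Γh) := by
  have d1 : 4 * (1 + s) ^ 2 * (q1 * X') * G ^ 2 ≤ 0 := by
    have h1 : q1 * X' ≤ 0 := mul_nonpos_of_nonneg_of_nonpos hm0 c3
    have h5 : 0 ≤ 4 * (1 + s) ^ 2 * G ^ 2 := by positivity
    have h6 := mul_nonpos_of_nonneg_of_nonpos h5 h1
    linarith
  have d2 : b * G ^ 2 ≤ |b| * (2 * C₀ * Γh) :=
    (mul_le_mul_of_nonneg_right (le_abs_self b) (sq_nonneg G)).trans
      (mul_le_mul_of_nonneg_left hGG (abs_nonneg b))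
  have d3 : 2 * (1 + s) * (q1 * X) * w * (al * Γh + be * G ^ 2)
      + w * (4 * (1 + s) ^ 2 * (q2 * X + q1 * X') * G ^ 2)
      = w * (X * (a * Γh + b * G ^ 2) + 4 * (1 + s) ^ 2 * (q1 * X') * G ^ 2) := by
    rw [ea, eb]; ring
  have d4 : X * (a * Γh + b * G ^ 2) ≤ X * (a * Γh + |b| * (2 * C₀ * Γh)) :=
    mul_le_mul_of_nonneg_left (by linarith) c1
  have d5 : X * (a + 2 * C₀ * |b|) * Γh = X * (a * Γh + |b| * (2 * C₀ * Γh)) := by ring
  rw [d3, d5]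
  exact mul_le_mul_of_nonneg_left (by linarith) hw

/-- the bound of `gco` -/
noncomputable def Kg (B c C₀ : ℝ) : ℝ :=
  4 * B * (B / (2 * c)) + 2 * C₀ * (4 * B * (2 * B / c) + 16 * B)

theorem gco_abs_le {κ : ℝ} {p : M} {s C₀ R η : ℝ} (hs0 : 0 ≤ s) (hs1 : s ≤ 1) (hC₀ : 0 < C₀)
    (hR : 0 < R) (hRC : R ^ 2 < 2 * C₀)
    (hη : 0 < η) {B c : ℝ} (hc : 0 < c) (hb : ∀ y ∈ Icc (0 : ℝ) (√(2 * C₀) ^ 2),
      c ≤ hm1 κ y ∧ hm1 κ y ≤ B ∧ |hm2 κ y| ≤ B ∧ |cs κ (√y)| ≤ B) (x : M) :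
    |gco κ R C₀ s η p x| ≤ Kg B c C₀ := by
  have hL : 0 < √(2 * C₀) := Real.sqrt_pos.2 (by positivity)
  have hRL : R ≤ √(2 * C₀) := Real.le_sqrt_of_sq_le hRC.le
  have hB0 : 0 ≤ B := by
    have := hb 0 ⟨le_rfl, by positivity⟩
    linarith [this.1, this.2.1]
  unfold Kg
  have hK0 : 0 ≤ 4 * B * (B / (2 * c)) + 2 * C₀ * (4 * B * (2 * B / c) + 16 * B) := by positivity
  unfold gco
  rcases lt_or_ge (dist p x) R with hlt | hge
  · have a1 := aco_abs_le hL hc hb hs0 hs1 dist_nonneg (hlt.le.trans hRL)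
    have a2 := bco_abs_le hL hc hb hs0 hs1 dist_nonneg (hlt.le.trans hRL)
    have a3 := abs_le.1 a1
    have a4 : 2 * C₀ * |bco κ s (dist p x)| ≤ 2 * C₀ * (4 * B * (2 * B / c) + 16 * B) := by gcongr
    have a5 : 0 ≤ 2 * C₀ * |bco κ s (dist p x)| := by positivity
    have a6 : |(aco κ s (dist p x) + 2 * C₀ * |bco κ s (dist p x)|)|
        ≤ 4 * B * (B / (2 * c)) + 2 * C₀ * (4 * B * (2 * B / c) + 16 * B) := by
      rw [abs_le]
      constructor <;> linarith [a3.1, a3.2]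
    rw [abs_mul, abs_of_nonneg (chi_nonneg _ _ _)]
    calc _ ≤ 1 * (4 * B * (B / (2 * c)) + 2 * C₀ * (4 * B * (2 * B / c) + 16 * B)) :=
          mul_le_mul (chi_le_one _ _ _) a6 (abs_nonneg _) zero_le_one
      _ = _ := one_mul _
  · rw [chi_zero hη (by gcongr), zero_mul, abs_zero]
    exact hK0

/-- the change of variables, first part: chain rules -/
theorem stepA1 (hC : IsGamma (sob m))
    (hfin : ∀ (x : M) (r : ℝ), m (Metric.ball x r) < ∞) {κ : ℝ} {p : M}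
    {s C₀ R η : ℝ} (hs0 : 0 ≤ s) (hC₀ : 0 < C₀) (hR : 0 < R) (hRC : R ^ 2 < 2 * C₀)
    (hη : 0 < η) :
    cl m (fun x => Psi κ R η (dist p x ^ 2)) ∈ (sob m).A ∧ ∃ f1 f2 : M →ₘ[m] ℝ,
      f1 ∈ (sob m).A ∧ MemLp f2 ∞ m ∧ MemLp ((sob m).Γ f1 f1) ∞ m ∧
      (∀ g ∈ (sob m).W, (sob m).Γ (cl m (fun x => Psi κ R η (dist p x ^ 2))) g
        = f1 * (sob m).Γ (cl m (zr p s C₀ 1)) g) ∧
      (∀ g ∈ (sob m).W, (sob m).Γ f1 g = f2 * (sob m).Γ (cl m (zr p s C₀ 1)) g) ∧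
      ∀ᵐ x ∂m, (dist p x < R ∧ f1 x = 2 * (1 + s) * qf κ R η (dist p x ^ 2) ∧
        f2 x = 4 * (1 + s) ^ 2 * qf' κ R η (dist p x ^ 2)) ∨
        (R ≤ dist p x ∧ f1 x = 0 ∧ f2 x = 0) := by
  have hD := hC.toIsDir
  have h1s : 0 < 1 + s := by linarith
  obtain ⟨hFA, hFΓ, hFe, hFr⟩ := F_facts (p := p) hD hfin hs0 hC₀
  have hdc : Continuous fun x : M => dist p x := by fun_prop
  have huc : Continuous fun x : M => Psi κ R η (dist p x ^ 2) := (Psi_cont κ R η).comp (hdc.pow 2)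
  have hue : ∀ᵐ x ∂m, cl m (fun x => Psi κ R η (dist p x ^ 2)) x = Psi κ R η (dist p x ^ 2) :=
    H183.cl_cont huc
  set F := cl m (zr p s C₀ 1) with hF
  have hFΓ' : MemLp ((sob m).Γ F F) ∞ m := by
    rw [mem_top_iff]
    refine ⟨2 * C₀, ?_⟩
    filter_upwards [hFΓ, hD.Γ_nonneg_ae hFA.1] with x a1 a2
    rwa [abs_of_nonneg a2]
  -- the functions
  have hlin : Continuous fun σ : ℝ => 2 * (1 + s) * (σ + C₀) := by fun_prop
  have cΦ : Continuous fun σ : ℝ => Psi κ R η (2 * (1 + s) * (σ + C₀)) := (Psi_cont κ R η).comp hlin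
  have cΦ1 : Continuous fun σ : ℝ => 2 * (1 + s) * qf κ R η (2 * (1 + s) * (σ + C₀)) :=
    ((qf_cont κ R η).comp hlin).const_mul _
  have cΦ2 : Continuous fun σ : ℝ => 4 * (1 + s) ^ 2 * qf' κ R η (2 * (1 + s) * (σ + C₀)) :=
    ((qf'_cont κ R η).comp hlin).const_mul _
  have dlin : ∀ σ : ℝ, HasDerivAt (fun σ : ℝ => 2 * (1 + s) * (σ + C₀)) (2 * (1 + s)) σ := by
    intro σ
    have := ((hasDerivAt_id σ).add_const C₀).const_mul (2 * (1 + s))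
    simpa using this
  have hy0 : 2 * (1 + s) * ((0 : ℝ) + C₀) = 2 * C₀ * (1 + s) := by ring
  have hy0R : R ^ 2 ≤ 2 * C₀ * (1 + s) := by nlinarith
  have ch1 := hD.hc_chain hFA.1 (a := -C₀) (b := 0) (by linarith) le_rfl hFr cΦ cΦ1
    (fun t ht => by
      have := (hasDerivAt_Psi κ R η (2 * (1 + s) * (t + C₀))).comp t (dlin t)
      refine (this.congr_deriv ?_).hasDerivWithinAt
      ring) (by simp only [hy0]; exact Psi_zero hη hy0R)
  have ch2 := hD.hc_chain hFA.1 (a := -C₀) (b := 0) (by linarith) le_rfl hFr cΦ1 cΦ2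
    (fun t ht => by
      have hy : 0 ≤ 2 * (1 + s) * (t + C₀) := by
        have : 0 ≤ t + C₀ := by linarith [ht.1]
        positivity
      have h1 := (hasDerivWithinAt_qf (κ := κ) (R := R) (η := η) hy).comp t
        (dlin t).hasDerivWithinAt (s := Icc (-C₀) 0) (fun z hz => by
          have : 0 ≤ z + C₀ := by linarith [hz.1]
          exact mem_Ici.2 (by positivity))
      refine (h1.const_mul (2 * (1 + s))).congr_deriv ?_
      ring) (by simp only [hy0]; rw [qf_zero hη hy0R, mul_zero])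
  have tf := hc_comp_top hFr cΦ
  have tf1 := hc_comp_top hFr cΦ1
  have tf2 := hc_comp_top hFr cΦ2
  have ef := comp_ae' cΦ F
  have ef1 := comp_ae' cΦ1 F
  have ef2 := comp_ae' cΦ2 F
  have hfu : AEEqFun.comp _ cΦ F = cl m (fun x => Psi κ R η (dist p x ^ 2)) := by
    rw [eq_iff_ae]
    filter_upwards [ef, hue, hFe] with x a1 a2 a3
    rw [a1, a2, a3]
    rcases zr_cases (p := p) (C₀ := C₀) hs0 x with ⟨h1, h2⟩ | ⟨h1, h2⟩
    · rw [h2]
    · rw [h2, Psi_zero hη hy0R, Psi_zero hη (hy0R.trans h1)]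
  rw [hfu] at ch1 tf
  set f1 := AEEqFun.comp _ cΦ1 F with hf1
  set f2 := AEEqFun.comp _ cΦ2 F with hf2
  set u := cl m (fun x => Psi κ R η (dist p x ^ 2)) with hu
  have hf1A : f1 ∈ (sob m).A := ⟨ch2.1, tf1⟩
  have huA : u ∈ (sob m).A := ⟨ch1.1, tf⟩
  refine ⟨huA, f1, f2, hf1A, tf2, ?_, ch1.2, ch2.2, ?_⟩
  · rw [ch2.2 f1 hf1A.1, hD.symm F hFA.1 f1 hf1A.1, ch2.2 F hFA.1]
    exact mem_mul_top tf2 (mem_mul_top tf2 hFΓ')
  · filter_upwards [ef1, ef2, hFe] with x a1 a2 a3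
    rw [a1, a2, a3]
    rcases lt_or_ge (dist p x) R with hlt | hge
    · left
      have hd2 : dist p x ^ 2 < R ^ 2 := by gcongr
      rcases zr_cases (p := p) (C₀ := C₀) hs0 x with ⟨h1, h2⟩ | ⟨h1, h2⟩
      · rw [h2]; exact ⟨hlt, rfl, rfl⟩
      · linarith
    · right
      have hd2 : R ^ 2 ≤ dist p x ^ 2 := by gcongr
      rcases zr_cases (p := p) (C₀ := C₀) hs0 x with ⟨h1, h2⟩ | ⟨h1, h2⟩
      · rw [h2, qf_zero hη hd2, qf'_zero hη hd2]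
        exact ⟨hge, mul_zero _, mul_zero _⟩
      · rw [h2, qf_zero hη hy0R, qf'_zero hη hy0R]
        exact ⟨hge, mul_zero _, mul_zero _⟩

/-- energy bound -/
theorem stepA2 (hC : IsGamma (sob m))
    (hfin : ∀ (x : M) (r : ℝ), m (Metric.ball x r) < ∞) {κ : ℝ} {p : M}
    {s C₀ R η : ℝ} (hs0 : 0 ≤ s) (hs1 : s ≤ 1) (hC₀ : 0 < C₀) (hR : 0 < R) (hRC : R ^ 2 < 2 * C₀)
    (hη : 0 < η) {B c : ℝ} (hc : 0 < c) (hb : ∀ y ∈ Icc (0 : ℝ) (√(2 * C₀) ^ 2),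
      c ≤ hm1 κ y ∧ hm1 κ y ≤ B ∧ |hm2 κ y| ≤ B ∧ |cs κ (√y)| ≤ B) :
    I ((sob m).Γ (cl m (fun x => Psi κ R η (dist p x ^ 2)))
        (cl m (fun x => Psi κ R η (dist p x ^ 2))))
      ≤ ∫ x, (Metric.ball p R).indicator (fun _ => (4 * B) ^ 2 * (2 * C₀)) x ∂m := by
  have hD := hC.toIsDir
  have hL2 : √(2 * C₀) ^ 2 = 2 * C₀ := Real.sq_sqrt (by positivity)
  have hB0 : 0 ≤ B := by
    have := hb 0 ⟨le_rfl, by positivity⟩
    linarith [this.1, this.2.1]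
  obtain ⟨hFA, hFΓ, hFe, hFr⟩ := F_facts (p := p) hD hfin hs0 hC₀
  obtain ⟨huA, f1, f2, hf1A, tf2, hf1Γ, ch1, ch2, hv⟩ :=
    stepA1 (κ := κ) (p := p) hC hfin hs0 hC₀ hR hRC hη
  set F := cl m (zr p s C₀ 1) with hF
  set u := cl m (fun x => Psi κ R η (dist p x ^ 2)) with hu
  have e1 : (sob m).Γ u u = f1 * (f1 * (sob m).Γ F F) := by
    rw [ch1 u huA.1, hD.symm F hFA.1 u huA.1, ch1 F hFA.1]
  have hbm : MeasurableSet (Metric.ball p R) := Metric.isOpen_ball.measurableSet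
  have hi : Integrable ((Metric.ball p R).indicator fun _ => (4 * B) ^ 2 * (2 * C₀)) m :=
    (integrable_indicator_iff hbm).2 (integrableOn_const (hfin p R).ne)
  refine integral_mono_ae (int_of_mem (hD.mem1 _ huA.1)) hi ?_
  rw [e1]
  filter_upwards [mul_ae f1 (f1 * (sob m).Γ F F), mul_ae f1 ((sob m).Γ F F), hv, hFΓ,
    hD.Γ_nonneg_ae hFA.1] with x a1 a2 a3 a4 a5
  rw [a1, a2]
  rcases a3 with ⟨h1, h2, h3⟩ | ⟨h1, h2, h3⟩
  · have hx : x ∈ Metric.ball p R := by rw [Metric.mem_ball, dist_comm]; exact h1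
    rw [indicator_of_mem hx]
    have hd2 : dist p x ^ 2 ≤ √(2 * C₀) ^ 2 := by
      rw [hL2]
      have : dist p x ^ 2 ≤ R ^ 2 := by gcongr
      linarith
    obtain ⟨b1, b2, -, -⟩ := hb _ ⟨sq_nonneg _, hd2⟩
    have c1 := chi_nonneg R η (dist p x ^ 2)
    have c2 := chi_le_one R η (dist p x ^ 2)
    have q0 : 0 ≤ qf κ R η (dist p x ^ 2) := by
      unfold qf
      rw [max_eq_right (sq_nonneg _)]
      have : 0 ≤ hm1 κ (dist p x ^ 2) := by linarith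
      positivity
    have q1 : qf κ R η (dist p x ^ 2) ≤ B := by
      unfold qf
      rw [max_eq_right (sq_nonneg _)]
      calc hm1 κ (dist p x ^ 2) * chi R η (dist p x ^ 2) ≤ B * 1 :=
            mul_le_mul b2 c2 c1 hB0
        _ = B := mul_one B
    have g0 : 0 ≤ f1 x := by rw [h2]; positivity
    have g1 : f1 x ≤ 4 * B := by
      rw [h2]
      exact mul_le_mul (by linarith) q1 q0 (by norm_num)
    calc f1 x * (f1 x * (sob m).Γ F F x) = f1 x ^ 2 * (sob m).Γ F F x := by ring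
      _ ≤ (4 * B) ^ 2 * (2 * C₀) := by gcongr
  · have hx : x ∉ Metric.ball p R := by rw [Metric.mem_ball, dist_comm, not_lt]; exact h1
    rw [indicator_of_notMem hx, h2, zero_mul]

/-- the coefficients of `RadHess` -/
theorem co_facts {κ : ℝ} {p : M} {s C₀ : ℝ} (hs0 : 0 ≤ s) (hC₀ : 0 < C₀) {B c : ℝ} (hc : 0 < c)
    (hb : ∀ y ∈ Icc (0 : ℝ) (√(2 * C₀) ^ 2),
      c ≤ hm1 κ y ∧ hm1 κ y ≤ B ∧ |hm2 κ y| ≤ B ∧ |cs κ (√y)| ≤ B) :
    (∀ᵐ x ∂m, cl m (fun x => lct κ (spd p s C₀ x)) x = lct κ (spd p s C₀ x)) ∧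
    (∀ᵐ x ∂m, cl m (fun x => bct κ (spd p s C₀ x)) x = bct κ (spd p s C₀ x)) ∧
    MemLp (cl m (fun x => lct κ (spd p s C₀ x))) ∞ m ∧
    MemLp (cl m (fun x => bct κ (spd p s C₀ x))) ∞ m := by
  have hL : 0 < √(2 * C₀) := Real.sqrt_pos.2 (by positivity)
  have mA : Measurable fun x => lct κ (spd p s C₀ x) := (measurable_lct κ).comp (measurable_spd p s C₀)
  have mB : Measurable fun x => bct κ (spd p s C₀ x) := (measurable_bct κ).comp (measurable_spd p s C₀)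
  have eA : ∀ᵐ x ∂m, cl m (fun x => lct κ (spd p s C₀ x)) x = lct κ (spd p s C₀ x) :=
    H183.cl_ae mA.aestronglyMeasurable
  have eB : ∀ᵐ x ∂m, cl m (fun x => bct κ (spd p s C₀ x)) x = bct κ (spd p s C₀ x) :=
    H183.cl_ae mB.aestronglyMeasurable
  refine ⟨eA, eB, ?_, ?_⟩
  · rw [mem_top_iff]
    refine ⟨B / (2 * c), ?_⟩
    filter_upwards [eA] with x hx
    rw [hx]
    exact lct_abs_le hL hc hb (spd_nonneg hs0 x) (spd_le hs0 hC₀ x)
  · rw [mem_top_iff]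
    refine ⟨2 * B / c, ?_⟩
    filter_upwards [eB] with x hx
    rw [hx]
    exact bct_abs_le hL hc hb (spd_nonneg hs0 x) (spd_le hs0 hC₀ x)

/-- **Step A**: chain rule at fixed `s₀`. -/
theorem stepA3 (hC : IsGamma (sob m)) {k : ℝ} (hB : (sob m).BEi k)
    (hfin : ∀ (x : M) (r : ℝ), m (Metric.ball x r) < ∞) [SigmaFinite m] {κ : ℝ} {p : M}
    {s C₀ R η : ℝ} (hs0 : 0 ≤ s) (hs1 : s ≤ 1) (hC₀ : 0 < C₀) (hR : 0 < R) (hRC : R ^ 2 < 2 * C₀)
    (hη : 0 < η) {B c : ℝ} (hc : 0 < c) (hb : ∀ y ∈ Icc (0 : ℝ) (√(2 * C₀) ^ 2),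
      c ≤ hm1 κ y ∧ hm1 κ y ≤ B ∧ |hm2 κ y| ≤ B ∧ |cs κ (√y)| ≤ B)
    (H : RadHess m κ p s C₀) {h w : M →ₘ[m] ℝ} (hh : h ∈ (sob m).TestI) (hw : w ∈ (sob m).TestI)
    (hw0 : 0 ≤ w) :
    (sob m).wH (cl m (fun x => Psi κ R η (dist p x ^ 2))) h w
      ≤ I (w * (cl m (gco κ R C₀ s η p) * (sob m).Γ h h)) := by
  have hD := hC.toIsDir
  have hhA := hC.test_A hh.1
  have hwA := hC.test_A hw.1
  have hh' : MemLp ((sob m).Γ h h) ∞ m := (hC.mem_test_iff.1 hh.1).2.2.1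
  have hw' : MemLp ((sob m).Γ w w) ∞ m := (hC.mem_test_iff.1 hw.1).2.2.1
  have hL2 : √(2 * C₀) ^ 2 = 2 * C₀ := Real.sq_sqrt (by positivity)
  have hy0R : R ^ 2 ≤ 2 * C₀ * (1 + s) := by nlinarith
  obtain ⟨hFA, hFΓ, hFe, hFr⟩ := F_facts (p := p) hD hfin hs0 hC₀
  obtain ⟨huA, f1, f2, hf1A, tf2, hf1Γ, ch1, ch2, hv⟩ :=
    stepA1 (κ := κ) (p := p) hC hfin hs0 hC₀ hR hRC hη
  obtain ⟨eA, eB, tA, tB⟩ := co_facts (m := m) (p := p) hs0 hC₀ hc hb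
  set F := cl m (zr p s C₀ 1) with hF
  set u := cl m (fun x => Psi κ R η (dist p x ^ 2)) with hu
  set A := cl m (fun x => lct κ (spd p s C₀ x)) with hAd
  set Bc := cl m (fun x => bct κ (spd p s C₀ x)) with hBd
  have hFΓ' : MemLp ((sob m).Γ F F) ∞ m := by
    rw [mem_top_iff]
    refine ⟨2 * C₀, ?_⟩
    filter_upwards [hFΓ, hD.Γ_nonneg_ae hFA.1] with x a1 a2
    rwa [abs_of_nonneg a2]
  have hd2 : ∀ x : M, dist p x < R → dist p x ^ 2 ≤ √(2 * C₀) ^ 2 := fun x hx => by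
    rw [hL2]
    have : dist p x ^ 2 ≤ R ^ 2 := by gcongr
    linarith
  have hf1nn : 0 ≤ f1 := by
    rw [nonneg_iff_ae]
    filter_upwards [hv] with x hx
    rcases hx with ⟨h1, h2, h3⟩ | ⟨h1, h2, h3⟩
    · rw [h2]
      have := (hb _ ⟨sq_nonneg _, hd2 x h1⟩).1
      unfold qf
      rw [max_eq_right (sq_nonneg _)]
      have := chi_nonneg R η (dist p x ^ 2)
      have h3 : 0 ≤ hm1 κ (dist p x ^ 2) := by linarith
      positivity
    · rw [h2]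
  rw [wH_chain hC hB hFA hFΓ' hh hwA hf1A tf2 huA ch1 ch2]
  have hG2 : MemLp ((sob m).Γ F h) 2 m := hD.Γ_mem2 hFA.1 hFΓ' hhA.1
  have hGt : MemLp ((sob m).Γ F h) ∞ m := hD.Γ_memTop hFA.1 hFΓ' hhA.1 hh'
  have hZ : MemLp (A * (sob m).Γ h h + Bc * (sob m).Γ F h ^ 2 : M →ₘ[m] ℝ) 2 m := by
    refine mem_add (mem_mul_top tA (hD.Γ_mem2 hhA.1 hh' hhA.1)) (mem_mul_top tB ?_)
    rw [pow_two]
    exact mem_mul_top hGt hG2
  have hfw0 : 0 ≤ f1 * w := by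
    rw [nonneg_iff_ae] at hf1nn hw0 ⊢
    filter_upwards [mul_ae f1 w, hf1nn, hw0] with x a1 a2 a3
    rw [a1]; exact mul_nonneg a2 a3
  have k1 := wH_ext hC hB hFA hFΓ' hh hZ (fun w' hw' h0 => H h hh w' hw' h0)
    (hD.mul_mem_A hf1A hwA) (Γ_mul_self_top hD hf1A hf1Γ hwA hw') hfw0
  set g := cl m (gco κ R C₀ s η p) with hgd
  have eg : ∀ᵐ x ∂m, g x = gco κ R C₀ s η p x :=
    H183.cl_ae (measurable_gco κ R C₀ s η p).aestronglyMeasurable
  have tg : MemLp g ∞ m := by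
    rw [mem_top_iff]
    refine ⟨Kg B c C₀, ?_⟩
    filter_upwards [eg] with x hx
    rw [hx]; exact gco_abs_le hs0 hs1 hC₀ hR hRC hη hc hb x
  have hZ1 : MemLp (A * (sob m).Γ h h + Bc * (sob m).Γ F h ^ 2 : M →ₘ[m] ℝ) 1 m :=
    mem_add (mem_mul_top tA (hD.mem1 _ hhA.1)) (mem_mul_top tB (mem_sq hG2))
  have i1 : MemLp (f1 * w * (A * (sob m).Γ h h + Bc * (sob m).Γ F h ^ 2) : M →ₘ[m] ℝ) 1 m :=
    mem_mul_top (mem_mul_top hf1A.2 hwA.2) hZ1
  have i2 : MemLp (w * (f2 * (sob m).Γ F h ^ 2) : M →ₘ[m] ℝ) 1 m :=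
    mem_mul_top hwA.2 (mem_mul_top tf2 (mem_sq hG2))
  have i3 : MemLp (w * (g * (sob m).Γ h h) : M →ₘ[m] ℝ) 1 m :=
    mem_mul_top hwA.2 (mem_mul_top tg (hD.mem1 _ hhA.1))
  have k2 : I (f1 * w * (A * (sob m).Γ h h + Bc * (sob m).Γ F h ^ 2))
      + I (w * (f2 * (sob m).Γ F h ^ 2)) ≤ I (w * (g * (sob m).Γ h h)) := by
    rw [← I_add i1 i2]
    refine I_mono (mem_add i1 i2) i3 ?_
    rw [le_iff_ae]
    filter_upwards [add_ae (f1 * w * (A * (sob m).Γ h h + Bc * (sob m).Γ F h ^ 2))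
        (w * (f2 * (sob m).Γ F h ^ 2)),
      mul_ae (f1 * w) (A * (sob m).Γ h h + Bc * (sob m).Γ F h ^ 2), mul_ae f1 w,
      add_ae (A * (sob m).Γ h h) (Bc * (sob m).Γ F h ^ 2), mul_ae A ((sob m).Γ h h),
      mul_ae Bc ((sob m).Γ F h ^ 2), sq_ae ((sob m).Γ F h), mul_ae w (f2 * (sob m).Γ F h ^ 2),
      mul_ae f2 ((sob m).Γ F h ^ 2), mul_ae w (g * (sob m).Γ h h), mul_ae g ((sob m).Γ h h),
      hv, hFΓ, hD.Γ_cs_ae hFA.1 hhA.1, hD.Γ_nonneg_ae hhA.1, nonneg_iff_ae.1 hw0, eA, eB, eg]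
      with x a1 a2 a3 a4 a5 a6 a7 a8 a9 a10 a11 a12 a13 a14 a15 a16 a17 a18 a19
    rw [a1, a2, a3, a4, a5, a6, a7, a8, a9, a7, a10, a11, a17, a18, a19]
    rcases a12 with ⟨h1, h2, h3⟩ | ⟨h1, h2, h3⟩
    · have hd2R : dist p x ^ 2 < R ^ 2 := by gcongr
      obtain ⟨b1, b2, -, -⟩ := hb _ ⟨sq_nonneg _, hd2 x h1⟩
      have hsp : spd p s C₀ x = dist p x / (1 + s) := by
        rw [spd_eq, if_pos (lt_of_lt_of_le hd2R hy0R)]
      rw [h2, h3, hsp]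
      unfold qf qf' gco
      rw [max_eq_right (sq_nonneg _)]
      exact pt_ineq (κ := κ) hs0 hC₀ (by linarith) (chi_nonneg _ _ _) (chi'_nonpos hη _)
        (a14.trans (mul_le_mul_of_nonneg_right a13 a15)) a16 rfl rfl
    · rw [h2, h3]
      unfold gco
      rw [chi_zero hη (by gcongr)]
      simp
  exact (add_le_add_left k1 _).trans k2

end Vale.Agent.P233.H761
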