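import Vale.Agent.P233.MathlibUsed2

open MeasureTheory Filter Topology Set
open scoped ENNReal NNReal InnerProductSpace

namespace Vale.Agent.P233.H761

/-! ### E5: comparison of a matrix Riccati inequality with its model

`h : ℝ → V →L[ℝ] V` symmetric with `⟨hξ,ξ⟩' ≤ -|hξ|² - ρ (|ξ|² - ⟨v,ξ⟩²)` on `(0,T)`, in the weak
sense, `v` a unit vector, `b'' = -ρ b`, `b(0) = 0`, `b > 0`. Then
`⟨h(t)ξ,ξ⟩ ≤ ⟨v,ξ⟩² / t + (b'/b)(t) (|ξ|² - ⟨v,ξ⟩²)` for almost all `t`. -/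

variable {V : Type*} [NormedAddCommGroup V] [InnerProductSpace ℝ V]

/-- The quadratic form `|ξ|² - ⟨v,ξ⟩²`. -/
def prp (v ξ : V) : ℝ := ‖ξ‖ ^ 2 - ⟪v, ξ⟫_ℝ ^ 2

/-- The model function `b`: `b'' = -ρ b`, `b > 0` on `(0,T)`, `b(t) ≤ C t`. -/
structure Model (ρ T : ℝ) (b b' : ℝ → ℝ) : Prop where
  d1 : ∀ t ∈ Ioo 0 T, HasDerivAt b (b' t) t
  d2 : ∀ t ∈ Ioo 0 T, HasDerivAt b' (-(ρ * b t)) t
  pos : ∀ t ∈ Ioo 0 T, 0 < b t
  lin : ∃ C : ℝ, ∀ t ∈ Ioo 0 T, b t ≤ C * t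

theorem Model.mono {ρ T T' : ℝ} {b b' : ℝ → ℝ} (hb : Model ρ T b b') (h : T' ≤ T) :
    Model ρ T' b b' := by
  refine ⟨fun t ht => hb.d1 t ⟨ht.1, ht.2.trans_le h⟩, fun t ht => hb.d2 t ⟨ht.1, ht.2.trans_le h⟩,
    fun t ht => hb.pos t ⟨ht.1, ht.2.trans_le h⟩, ?_⟩
  obtain ⟨C, hC⟩ := hb.lin
  exact ⟨C, fun t ht => hC t ⟨ht.1, ht.2.trans_le h⟩⟩

/-- The case of a differentiable `h`. -/
theorem riccati_C1 {v : V} (hv : ‖v‖ = 1) {ρ T : ℝ} {b b' : ℝ → ℝ} (hb : Model ρ T b b')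
    {h h' : ℝ → V →L[ℝ] V} (hd : ∀ t ∈ Ioo 0 T, HasDerivAt h (h' t) t)
    (hs : ∀ t ∈ Ioo 0 T, ∀ x y, ⟪h t x, y⟫_ℝ = ⟪x, h t y⟫_ℝ)
    (hr : ∀ t ∈ Ioo 0 T, ∀ ξ, ⟪h' t ξ, ξ⟫_ℝ ≤ -‖h t ξ‖ ^ 2 - ρ * prp v ξ)
    {t₀ : ℝ} (ht₀ : t₀ ∈ Ioo 0 T) (ξ : V) :
    ⟪h t₀ ξ, ξ⟫_ℝ ≤ ⟪v, ξ⟫_ℝ ^ 2 / t₀ + b' t₀ / b t₀ * prp v ξ := by
  by_contra hcon
  rw [not_le] at hcon
  have hvv : ⟪v, v⟫_ℝ = 1 := by rw [real_inner_self_eq_norm_sq, hv]; norm_num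
  have ht0 : 0 < t₀ := ht₀.1
  have hb0 : 0 < b t₀ := hb.pos t₀ ht₀
  -- the two components of `ξ`
  set α : ℝ := ⟪v, ξ⟫_ℝ / t₀ with hα
  set q : V := (b t₀)⁻¹ • (ξ - ⟪v, ξ⟫_ℝ • v) with hq
  have hvq : ⟪v, q⟫_ℝ = 0 := by
    rw [hq, inner_smul_right, inner_sub_right, inner_smul_right, hvv]; ring
  have hqv : ⟪q, v⟫_ℝ = 0 := by rw [real_inner_comm]; exact hvq
  -- the field `X` and its derivative `Y`
  set X : ℝ → V := fun t => (t * α) • v + b t • q with hX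
  set Y : ℝ → V := fun t => α • v + b' t • q with hY
  have hXd : ∀ t ∈ Ioo 0 T, HasDerivAt X (Y t) t := by
    intro t ht
    have h1 : HasDerivAt (fun t : ℝ => t * α) α t := by
      simpa using (hasDerivAt_id t).mul_const α
    exact (h1.smul_const v).add ((hb.d1 t ht).smul_const q)
  have hX0 : X t₀ = ξ := by
    simp only [hX, hα, hq]
    rw [mul_div_cancel₀ _ ht0.ne', smul_smul, mul_inv_cancel₀ hb0.ne', one_smul]
    abel
  have hvX : ∀ t, ⟪v, X t⟫_ℝ = t * α := by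
    intro t
    simp only [hX, inner_add_right, inner_smul_right, hvv, hvq]; ring
  have hXX : ∀ t, ‖X t‖ ^ 2 = (t * α) ^ 2 + b t ^ 2 * ‖q‖ ^ 2 := by
    intro t
    rw [← real_inner_self_eq_norm_sq, ← real_inner_self_eq_norm_sq]
    simp only [hX, inner_add_right, inner_add_left, inner_smul_right, inner_smul_left, hvv, hvq,
      hqv, RCLike.conj_to_real]
    ring
  have hYY : ∀ t, ‖Y t‖ ^ 2 = α ^ 2 + b' t ^ 2 * ‖q‖ ^ 2 := by
    intro t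
    rw [← real_inner_self_eq_norm_sq, ← real_inner_self_eq_norm_sq]
    simp only [hY, inner_add_right, inner_add_left, inner_smul_right, inner_smul_left, hvv, hvq,
      hqv, RCLike.conj_to_real]
    ring
  have hYX : ∀ t, ⟪Y t, X t⟫_ℝ = t * α ^ 2 + b t * b' t * ‖q‖ ^ 2 := by
    intro t
    rw [← real_inner_self_eq_norm_sq (x := q)]
    simp only [hX, hY, inner_add_right, inner_add_left, inner_smul_right, inner_smul_left, hvv, hvq,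
      hqv, RCLike.conj_to_real]
    ring
  have hpX : ∀ t, prp v (X t) = b t ^ 2 * ‖q‖ ^ 2 := by
    intro t
    simp only [prp, hvX, hXX]; ring
  -- the function `f`
  set f : ℝ → ℝ := fun t => ⟪h t (X t), X t⟫_ℝ - (t * α ^ 2 + b t * b' t * ‖q‖ ^ 2) with hf
  set f' : ℝ → ℝ := fun t => ⟪h' t (X t), X t⟫_ℝ + 2 * ⟪h t (X t), Y t⟫_ℝ
    - (α ^ 2 + (b' t ^ 2 - ρ * b t ^ 2) * ‖q‖ ^ 2) with hf'
  have hfd : ∀ t ∈ Ioo 0 T, HasDerivAt f (f' t) t := by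
    intro t ht
    have h1 : HasDerivAt (fun s => h s (X s)) (h' t (X t) + h t (Y t)) t :=
      (hd t ht).clm_apply (hXd t ht)
    have h2 := h1.inner ℝ (hXd t ht)
    have h3 : HasDerivAt (fun s : ℝ => s * α ^ 2) (α ^ 2) t := by
      simpa using (hasDerivAt_id t).mul_const (α ^ 2)
    have h4 := ((hb.d1 t ht).mul (hb.d2 t ht)).mul_const (‖q‖ ^ 2)
    have h5 := h2.sub (h3.add h4)
    refine h5.congr_deriv ?_
    simp only [hf', inner_add_left]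
    rw [hs t ht (Y t) (X t), real_inner_comm (h t (X t)) (Y t)]
    ring
  have hf0 : 0 < f t₀ := by
    have h1 : t₀ * α ^ 2 + b t₀ * b' t₀ * ‖q‖ ^ 2
        = ⟪v, ξ⟫_ℝ ^ 2 / t₀ + b' t₀ / b t₀ * prp v ξ := by
      have h2 := hpX t₀
      rw [hX0] at h2
      rw [h2, hα]
      field_simp
    simp only [hf, hX0, h1]
    linarith
  have hfle : ∀ t ∈ Ioo 0 T, f t ^ 2 ≤ ‖X t‖ ^ 2 * (-f' t) := by
    intro t ht
    have h1 : f t = ⟪h t (X t) - Y t, X t⟫_ℝ := by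
      simp only [hf, inner_sub_left, hYX]
    have h2 : ‖h t (X t) - Y t‖ ^ 2 ≤ -f' t := by
      have h3 := hr t ht (X t)
      rw [hpX] at h3
      have h4 : ‖h t (X t) - Y t‖ ^ 2 = ‖h t (X t)‖ ^ 2 - 2 * ⟪h t (X t), Y t⟫_ℝ + ‖Y t‖ ^ 2 :=
        norm_sub_sq_real _ _
      rw [h4, hYY]
      simp only [hf']
      nlinarith
    have h3 : |f t| ≤ ‖h t (X t) - Y t‖ * ‖X t‖ := by
      rw [h1]; exact abs_real_inner_le_norm _ _
    have h4 : f t ^ 2 ≤ (‖h t (X t) - Y t‖ * ‖X t‖) ^ 2 := by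
      rw [← sq_abs]; exact pow_le_pow_left₀ (abs_nonneg _) h3 2
    calc f t ^ 2 ≤ (‖h t (X t) - Y t‖ * ‖X t‖) ^ 2 := h4
      _ = ‖X t‖ ^ 2 * ‖h t (X t) - Y t‖ ^ 2 := by ring
      _ ≤ _ := mul_le_mul_of_nonneg_left h2 (sq_nonneg _)
  have hf'0 : ∀ t ∈ Ioo 0 T, f' t ≤ 0 := by
    intro t ht
    have h3 := hr t ht (X t)
    rw [hpX] at h3
    have h4 : 0 ≤ ‖h t (X t) - Y t‖ ^ 2 := sq_nonneg _
    rw [norm_sub_sq_real, hYY] at h4
    simp only [hf']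
    nlinarith
  -- `f` is nonincreasing
  have hcont : ∀ s ∈ Ioo 0 t₀, ContinuousOn f (Icc s t₀) := by
    intro s hs t ht
    exact (hfd t ⟨hs.1.trans_le ht.1, ht.2.trans_lt ht₀.2⟩).continuousAt.continuousWithinAt
  have hfpos : ∀ t ∈ Ioc 0 t₀, 0 < f t := by
    intro t ht
    rcases eq_or_lt_of_le ht.2 with rfl | hlt
    · exact hf0
    have hanti : AntitoneOn f (Icc t t₀) := by
      apply antitoneOn_of_deriv_nonpos (convex_Icc _ _) (hcont t ⟨ht.1, hlt⟩)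
      · intro s hs'
        rw [interior_Icc] at hs'
        exact (hfd s ⟨ht.1.trans hs'.1, hs'.2.trans ht₀.2⟩).differentiableAt.differentiableWithinAt
      · intro s hs'
        rw [interior_Icc] at hs'
        have hs'' : s ∈ Ioo 0 T := ⟨ht.1.trans hs'.1, hs'.2.trans ht₀.2⟩
        rw [(hfd s hs'').deriv]
        exact hf'0 s hs''
    exact hf0.trans_le (hanti ⟨le_refl _, hlt.le⟩ ⟨hlt.le, le_refl _⟩ hlt.le)
  -- linear bound of `X`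
  obtain ⟨C, hC⟩ := hb.lin
  set L : ℝ := α ^ 2 + C ^ 2 * ‖q‖ ^ 2 + 1 with hL
  have hL0 : 0 < L := by positivity
  have hXL : ∀ t ∈ Ioo 0 T, ‖X t‖ ^ 2 ≤ L * t ^ 2 := by
    intro t ht
    have h1 : b t ^ 2 ≤ (C * t) ^ 2 := pow_le_pow_left₀ (hb.pos t ht).le (hC t ht) 2
    have h2 : b t ^ 2 * ‖q‖ ^ 2 ≤ (C * t) ^ 2 * ‖q‖ ^ 2 :=
      mul_le_mul_of_nonneg_right h1 (sq_nonneg _)
    rw [hXX, hL]
    nlinarith [sq_nonneg t]
  -- the function `1/f + 1/(L t)` is nondecreasing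
  set g : ℝ → ℝ := fun t => (f t)⁻¹ + (L * t)⁻¹ with hg
  have hgd : ∀ t ∈ Ioc 0 t₀, HasDerivAt g (-f' t / f t ^ 2 + -L / (L * t) ^ 2) t := by
    intro t ht
    have htT : t ∈ Ioo 0 T := ⟨ht.1, ht.2.trans_lt ht₀.2⟩
    have h1 := (hfd t htT).inv (hfpos t ht).ne'
    have h2 : HasDerivAt (fun t : ℝ => L * t) L t := by
      simpa using (hasDerivAt_id t).const_mul L
    exact h1.add (h2.inv (mul_pos hL0 ht.1).ne')
  have hgmono : ∀ t ∈ Ioo 0 t₀, g t ≤ g t₀ := by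
    intro t ht
    have hmono : MonotoneOn g (Icc t t₀) := by
      apply monotoneOn_of_deriv_nonneg (convex_Icc _ _)
      · intro s hs'
        exact (hgd s ⟨ht.1.trans_le hs'.1, hs'.2⟩).continuousAt.continuousWithinAt
      · intro s hs'
        rw [interior_Icc] at hs'
        exact (hgd s ⟨ht.1.trans hs'.1, hs'.2.le⟩).differentiableAt.differentiableWithinAt
      · intro s hs'
        rw [interior_Icc] at hs'
        have hs0 : 0 < s := ht.1.trans hs'.1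
        have hsT : s ∈ Ioo 0 T := ⟨hs0, hs'.2.trans ht₀.2⟩
        have hfs := hfpos s ⟨hs0, hs'.2.le⟩
        rw [(hgd s ⟨hs0, hs'.2.le⟩).deriv]
        have h1 : f s ^ 2 ≤ L * s ^ 2 * (-f' s) :=
          (hfle s hsT).trans (mul_le_mul_of_nonneg_right (hXL s hsT) (by linarith [hf'0 s hsT]))
        have h2 : (1 : ℝ) / (L * s ^ 2) ≤ -f' s / f s ^ 2 := by
          rw [div_le_div_iff₀ (by positivity) (by positivity)]
          linarith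
        have h3 : -L / (L * s) ^ 2 = -(1 / (L * s ^ 2)) := by
          field_simp
        rw [h3]; linarith
    exact hmono ⟨le_refl _, ht.2.le⟩ ⟨ht.2.le, le_refl _⟩ ht.2.le
  -- contradiction for small `t`
  have hG : 0 < g t₀ := by
    have : 0 < (f t₀)⁻¹ := inv_pos.2 hf0
    have : 0 < (L * t₀)⁻¹ := inv_pos.2 (mul_pos hL0 ht0)
    simp only [hg]; linarith
  set t₁ : ℝ := min (t₀ / 2) (1 / (2 * L * g t₀)) with ht₁
  have ht1 : t₁ ∈ Ioo 0 t₀ := by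
    refine ⟨lt_min (by linarith) (by positivity), ?_⟩
    exact (min_le_left _ _).trans_lt (by linarith)
  have h1 := hgmono t₁ ht1
  have h2 : (L * t₁)⁻¹ < g t₁ := by
    have : 0 < (f t₁)⁻¹ := inv_pos.2 (hfpos t₁ ⟨ht1.1, ht1.2.le⟩)
    simp only [hg]; linarith
  have h3 : 2 * g t₀ ≤ (L * t₁)⁻¹ := by
    have h4 : L * t₁ ≤ (2 * g t₀)⁻¹ := by
      have h5 : t₁ ≤ 1 / (2 * L * g t₀) := min_le_right _ _
      calc L * t₁ ≤ L * (1 / (2 * L * g t₀)) := mul_le_mul_of_nonneg_left h5 hL0.le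
        _ = (2 * g t₀)⁻¹ := by field_simp
    calc 2 * g t₀ = ((2 * g t₀)⁻¹)⁻¹ := (inv_inv _).symm
      _ ≤ (L * t₁)⁻¹ := inv_anti₀ (mul_pos hL0 ht1.1) h4
  linarith

end Vale.Agent.P233.H761
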