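import Mathlib

/-!
P233, stage 3 (helper761), row TAU: the distortion coefficients of Lott-Sturm-Villani.

`en c = sin √c / √c` (entire in `c`, `sinh` for `c < 0`), `sg t c = sin (t √c) / sin √c`
(`= t` at `c = 0`, `sinh` for `c < 0`), so that `σ^(t)_(K,N)(θ) = sg t (K θ² / N)`.

* `en_tendsto`: Euler product;
* `sg_logconvex`: `c ↦ log (sg t c)` is convex on `(-∞, π²)`;
* `sg_ge_exp`: `t exp ((1-t²) c / 6) ≤ sg t c`.
-/

set_option linter.all false

open MeasureTheory Filter Topology Set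
open scoped ENNReal NNReal

namespace Vale.Agent.P233.H761.Tau

/-- `sin √c / √c` -/
noncomputable def en (c : ℝ) : ℝ :=
  if 0 < c then Real.sin (√c) / √c else if c = 0 then 1 else Real.sinh (√(-c)) / √(-c)

/-- `sin (t √c) / sin √c` -/
noncomputable def sg (t c : ℝ) : ℝ :=
  if 0 < c then Real.sin (t * √c) / Real.sin (√c)
  else if c = 0 then t else Real.sinh (t * √(-c)) / Real.sinh (√(-c))

theorem en_pos_eq {c : ℝ} (h : 0 < c) : en c = Real.sin (√c) / √c := if_pos h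

theorem en_zero : en 0 = 1 := by simp [en]

theorem en_neg_eq {c : ℝ} (h : c < 0) : en c = Real.sinh (√(-c)) / √(-c) := by
  rw [en, if_neg h.le.not_gt, if_neg h.ne]

theorem sg_pos_eq {t c : ℝ} (h : 0 < c) : sg t c = Real.sin (t * √c) / Real.sin (√c) := if_pos h

theorem sg_zero {t : ℝ} : sg t 0 = t := by simp [sg]

theorem sg_neg_eq {t c : ℝ} (h : c < 0) :
    sg t c = Real.sinh (t * √(-c)) / Real.sinh (√(-c)) := by
  rw [sg, if_neg h.le.not_gt, if_neg h.ne]

theorem sqrt_lt_pi {c : ℝ} (h : c < Real.pi ^ 2) : √c < Real.pi := by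
  rw [Real.sqrt_lt' Real.pi_pos]; exact h

theorem en_pos {c : ℝ} (h : c < Real.pi ^ 2) : 0 < en c := by
  rcases lt_trichotomy c 0 with h0 | h0 | h0
  · rw [en_neg_eq h0]
    have : 0 < √(-c) := Real.sqrt_pos.2 (by linarith)
    exact div_pos (Real.sinh_pos_iff.2 this) this
  · rw [h0, en_zero]; exact one_pos
  · rw [en_pos_eq h0]
    have : 0 < √c := Real.sqrt_pos.2 h0
    exact div_pos (Real.sin_pos_of_pos_of_lt_pi this (sqrt_lt_pi h)) this

theorem sg_eq {t c : ℝ} (ht : 0 ≤ t) : sg t c = t * en (t ^ 2 * c) / en c := by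
  rcases ht.eq_or_lt with h | h
  · subst h
    rcases lt_trichotomy c 0 with h0 | h0 | h0
    · rw [sg_neg_eq h0]; simp
    · rw [h0, sg_zero]; simp
    · rw [sg_pos_eq h0]; simp
  · rcases lt_trichotomy c 0 with h0 | h0 | h0
    · have hc : 0 < √(-c) := Real.sqrt_pos.2 (by linarith)
      have h1 : t ^ 2 * c < 0 := mul_neg_of_pos_of_neg (by positivity) h0
      have h2 : √(-(t ^ 2 * c)) = t * √(-c) := by
        rw [← mul_neg, Real.sqrt_mul (by positivity), Real.sqrt_sq h.le]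
      rw [sg_neg_eq h0, en_neg_eq h0, en_neg_eq h1, h2]
      have h3 : 0 < Real.sinh (√(-c)) := Real.sinh_pos_iff.2 hc
      field_simp
    · rw [h0, sg_zero]; simp [en_zero]
    · have hc : 0 < √c := Real.sqrt_pos.2 h0
      have h1 : 0 < t ^ 2 * c := by positivity
      have h2 : √(t ^ 2 * c) = t * √c := by
        rw [Real.sqrt_mul (by positivity), Real.sqrt_sq h.le]
      rw [sg_pos_eq h0, en_pos_eq h0, en_pos_eq h1, h2]
      rcases eq_or_ne (Real.sin (√c)) 0 with h3 | h3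
      · rw [h3]; simp
      · field_simp

/-! ### the Euler product -/

/-- `1 / (π² (j+1)²)` -/
noncomputable def aj (j : ℕ) : ℝ := 1 / (Real.pi ^ 2 * ((j : ℝ) + 1) ^ 2)

theorem aj_pos (j : ℕ) : 0 < aj j := by
  have := Real.pi_pos
  rw [aj]; positivity

theorem aj_le (j : ℕ) : aj j ≤ 1 / Real.pi ^ 2 := by
  have := Real.pi_pos
  rw [aj]
  apply one_div_le_one_div_of_le (by positivity)
  have h : (1 : ℝ) ≤ ((j : ℝ) + 1) ^ 2 := by
    have : (0 : ℝ) ≤ j := Nat.cast_nonneg j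
    nlinarith
  nlinarith [sq_nonneg Real.pi]

theorem mul_aj_lt_one {c : ℝ} (h : c < Real.pi ^ 2) (j : ℕ) : c * aj j < 1 := by
  have hp := Real.pi_pos
  rcases le_or_gt c 0 with h0 | h0
  · have := mul_nonpos_of_nonpos_of_nonneg h0 (aj_pos j).le
    linarith
  · calc c * aj j ≤ c * (1 / Real.pi ^ 2) := by
          exact mul_le_mul_of_nonneg_left (aj_le j) h0.le
      _ = c / Real.pi ^ 2 := by ring
      _ < 1 := by rw [div_lt_one (by positivity)]; exact h

theorem en_tendsto (c : ℝ) :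
    Tendsto (fun n : ℕ => ∏ j ∈ Finset.range n, (1 - c * aj j)) atTop (𝓝 (en c)) := by
  have hp := Real.pi_pos
  rcases lt_trichotomy c 0 with h0 | h0 | h0
  · have hs : 0 < √(-c) := Real.sqrt_pos.2 (by linarith)
    set z : ℂ := Complex.I * ((√(-c) / Real.pi : ℝ) : ℂ) with hz
    have h1 := Complex.tendsto_euler_sin_prod z
    have h2 : (Real.pi : ℂ) * z = Complex.I * ((√(-c) : ℝ) : ℂ) := by
      rw [hz]; push_cast
      have : (Real.pi : ℂ) ≠ 0 := by exact_mod_cast hp.ne'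
      field_simp
    have h3 : Complex.sin ((Real.pi : ℂ) * z) = Complex.I * ((Real.sinh (√(-c)) : ℝ) : ℂ) := by
      rw [h2, mul_comm, Complex.sin_mul_I, Complex.ofReal_sinh, mul_comm]
    have h4 : ∀ n : ℕ, (Real.pi : ℂ) * z * ∏ j ∈ Finset.range n, (1 - z ^ 2 / ((j : ℂ) + 1) ^ 2)
        = Complex.I * (((√(-c)) * ∏ j ∈ Finset.range n, (1 - c * aj j) : ℝ) : ℂ) := by
      intro n
      rw [h2]
      push_cast
      rw [mul_assoc]
      congr 2
      apply Finset.prod_congr rfl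
      intro j _
      congr 1
      have h5 : z ^ 2 = ((c / Real.pi ^ 2 : ℝ) : ℂ) := by
        rw [hz, mul_pow, Complex.I_sq, ← Complex.ofReal_pow, div_pow,
          Real.sq_sqrt (by linarith : (0 : ℝ) ≤ -c)]
        push_cast; ring
      rw [h5, aj]
      push_cast
      have h6 : (Real.pi : ℂ) ≠ 0 := by exact_mod_cast hp.ne'
      have h7 : ((j : ℂ) + 1) ≠ 0 := by exact_mod_cast Nat.succ_ne_zero j
      field_simp
    rw [h3] at h1
    simp only [h4] at h1
    have h5 : Tendsto (fun n : ℕ => (√(-c)) * ∏ j ∈ Finset.range n, (1 - c * aj j)) atTop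
        (𝓝 (Real.sinh (√(-c)))) := by
      have h6 := (Complex.continuous_im.tendsto _).comp h1
      have h7 : ∀ r : ℝ, (Complex.I * (r : ℂ)).im = r := by intro r; simp
      rw [h7] at h6
      refine h6.congr fun n => ?_
      rw [Function.comp_apply, h7]
    have h6 := h5.const_mul (√(-c))⁻¹
    rw [en_neg_eq h0, div_eq_inv_mul]
    refine h6.congr fun n => ?_
    rw [← mul_assoc, inv_mul_cancel₀ hs.ne', one_mul]
  · subst h0
    simp [en_zero]
  · have hs : 0 < √c := Real.sqrt_pos.2 h0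
    have h1 := Real.tendsto_euler_sin_prod (√c / Real.pi)
    have h2 : Real.pi * (√c / Real.pi) = √c := by field_simp
    have h4 : ∀ n : ℕ, Real.pi * (√c / Real.pi) *
        ∏ j ∈ Finset.range n, (1 - (√c / Real.pi) ^ 2 / ((j : ℝ) + 1) ^ 2)
        = (√c) * ∏ j ∈ Finset.range n, (1 - c * aj j) := by
      intro n
      rw [h2]
      congr 1
      apply Finset.prod_congr rfl
      intro j _
      congr 1
      rw [div_pow, Real.sq_sqrt h0.le, aj]
      field_simp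
    rw [h2] at h1
    simp only [h2] at h4
    simp only [h4] at h1
    have h6 := h1.const_mul (√c)⁻¹
    rw [en_pos_eq h0, div_eq_inv_mul]
    refine h6.congr fun n => ?_
    rw [← mul_assoc, inv_mul_cancel₀ hs.ne', one_mul]

/-- one factor of the product of `en (t² c) / en c` -/
noncomputable def fj (t : ℝ) (j : ℕ) (c : ℝ) : ℝ := (1 - t ^ 2 * c * aj j) / (1 - c * aj j)

theorem fj_eq {t c : ℝ} (j : ℕ) (hc : c < Real.pi ^ 2) :
    fj t j c = t ^ 2 + (1 - t ^ 2) * (1 / (1 - c * aj j)) := by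
  have h1 : 0 < 1 - c * aj j := by have := mul_aj_lt_one hc j; linarith
  rw [fj]; field_simp; ring

theorem prod_fj_tendsto {t c : ℝ} (hc : c < Real.pi ^ 2) :
    Tendsto (fun n : ℕ => ∏ j ∈ Finset.range n, fj t j c) atTop (𝓝 (en (t ^ 2 * c) / en c)) := by
  have h := (en_tendsto (t ^ 2 * c)).div (en_tendsto c) (en_pos hc).ne'
  refine h.congr fun n => ?_
  simp only [fj, Pi.div_apply]
  rw [Finset.prod_div_distrib]

theorem fj_pos {t c : ℝ} (h0 : 0 ≤ t) (ht : t ≤ 1) (j : ℕ) (hc : c < Real.pi ^ 2) :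
    0 < fj t j c := by
  have h1 : 0 < 1 - c * aj j := by have := mul_aj_lt_one hc j; linarith
  rw [fj]
  refine div_pos ?_ h1
  rcases le_or_gt c 0 with h | h
  · have : t ^ 2 * c * aj j ≤ 0 :=
      mul_nonpos_of_nonpos_of_nonneg (mul_nonpos_of_nonneg_of_nonpos (sq_nonneg t) h) (aj_pos j).le
    linarith
  · have h2 : t ^ 2 ≤ 1 := by nlinarith
    have h3 : 0 < c * aj j := mul_pos h (aj_pos j)
    nlinarith [mul_aj_lt_one hc j]

/-- Hoelder for two terms -/
theorem two_terms {x₁ x₂ y₁ y₂ l m : ℝ} (hx₁ : 0 ≤ x₁) (hx₂ : 0 ≤ x₂) (hy₁ : 0 ≤ y₁)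
    (hy₂ : 0 ≤ y₂) (hl : 0 ≤ l) (hm : 0 ≤ m) (h : l + m = 1) :
    x₁ ^ l * x₂ ^ m + y₁ ^ l * y₂ ^ m ≤ (x₁ + y₁) ^ l * (x₂ + y₂) ^ m := by
  rcases (add_nonneg hx₁ hy₁).eq_or_lt with h1 | h1
  · have h2 : x₁ = 0 := by linarith
    have h3 : y₁ = 0 := by linarith
    subst h2; subst h3
    rcases hl.eq_or_lt with h4 | h4
    · subst h4
      have h5 : m = 1 := by linarith
      subst h5
      simp
    · simp [Real.zero_rpow h4.ne']
  rcases (add_nonneg hx₂ hy₂).eq_or_lt with h2 | h2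
  · have h3 : x₂ = 0 := by linarith
    have h4 : y₂ = 0 := by linarith
    subst h3; subst h4
    rcases hm.eq_or_lt with h5 | h5
    · subst h5
      have h6 : l = 1 := by linarith
      subst h6
      simp
    · simp [Real.zero_rpow h5.ne']
  have hA : 0 < (x₁ + y₁) ^ l := Real.rpow_pos_of_pos h1 _
  have hB : 0 < (x₂ + y₂) ^ m := Real.rpow_pos_of_pos h2 _
  have h3 := Real.geom_mean_le_arith_mean2_weighted hl hm (div_nonneg hx₁ h1.le)
    (div_nonneg hx₂ h2.le) h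
  have h4 := Real.geom_mean_le_arith_mean2_weighted hl hm (div_nonneg hy₁ h1.le)
    (div_nonneg hy₂ h2.le) h
  rw [Real.div_rpow hx₁ h1.le, Real.div_rpow hx₂ h2.le] at h3
  rw [Real.div_rpow hy₁ h1.le, Real.div_rpow hy₂ h2.le] at h4
  have h5 : x₁ ^ l / (x₁ + y₁) ^ l * (x₂ ^ m / (x₂ + y₂) ^ m)
      + y₁ ^ l / (x₁ + y₁) ^ l * (y₂ ^ m / (x₂ + y₂) ^ m) ≤ 1 := by
    calc _ ≤ l * (x₁ / (x₁ + y₁)) + m * (x₂ / (x₂ + y₂))
          + (l * (y₁ / (x₁ + y₁)) + m * (y₂ / (x₂ + y₂))) := add_le_add h3 h4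
      _ = l * ((x₁ + y₁) / (x₁ + y₁)) + m * ((x₂ + y₂) / (x₂ + y₂)) := by ring
      _ = 1 := by rw [div_self h1.ne', div_self h2.ne']; linarith
  have h6 : x₁ ^ l * x₂ ^ m + y₁ ^ l * y₂ ^ m =
      (x₁ ^ l / (x₁ + y₁) ^ l * (x₂ ^ m / (x₂ + y₂) ^ m)
      + y₁ ^ l / (x₁ + y₁) ^ l * (y₂ ^ m / (x₂ + y₂) ^ m)) *
        ((x₁ + y₁) ^ l * (x₂ + y₂) ^ m) := by
    field_simp
  rw [h6]
  calc _ ≤ 1 * ((x₁ + y₁) ^ l * (x₂ + y₂) ^ m) :=
        mul_le_mul_of_nonneg_right h5 (by positivity)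
    _ = _ := one_mul _

theorem fj_logconvex {t c₁ c₂ l m : ℝ} (h0 : 0 ≤ t) (ht : t ≤ 1) (j : ℕ)
    (hc₁ : c₁ < Real.pi ^ 2) (hc₂ : c₂ < Real.pi ^ 2) (hl : 0 ≤ l) (hm : 0 ≤ m) (h : l + m = 1) :
    fj t j (l * c₁ + m * c₂) ≤ fj t j c₁ ^ l * fj t j c₂ ^ m := by
  have hc : l * c₁ + m * c₂ < Real.pi ^ 2 := by
    rcases hl.eq_or_lt with h1 | h1
    · subst h1
      have : m = 1 := by linarith
      subst this; linarith
    · have h2 : m = 1 - l := by linarith
      subst h2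
      nlinarith [mul_lt_mul_of_pos_left hc₁ h1, mul_le_mul_of_nonneg_left hc₂.le hm]
  rw [fj_eq j hc, fj_eq j hc₁, fj_eq j hc₂]
  have h1 : 0 < 1 - c₁ * aj j := by have := mul_aj_lt_one hc₁ j; linarith
  have h2 : 0 < 1 - c₂ * aj j := by have := mul_aj_lt_one hc₂ j; linarith
  have h3 : 0 < 1 - (l * c₁ + m * c₂) * aj j := by have := mul_aj_lt_one hc j; linarith
  have ht2 : 0 ≤ t ^ 2 := sq_nonneg t
  have ht3 : 0 ≤ 1 - t ^ 2 := by nlinarith
  have h4 : 1 / (1 - (l * c₁ + m * c₂) * aj j) ≤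
      (1 / (1 - c₁ * aj j)) ^ l * (1 / (1 - c₂ * aj j)) ^ m := by
    rw [Real.div_rpow zero_le_one h1.le, Real.div_rpow zero_le_one h2.le, Real.one_rpow,
      Real.one_rpow, one_div_mul_one_div]
    apply one_div_le_one_div_of_le
    · exact mul_pos (Real.rpow_pos_of_pos h1 _) (Real.rpow_pos_of_pos h2 _)
    · have := Real.geom_mean_le_arith_mean2_weighted hl hm h1.le h2.le h
      calc _ ≤ _ := this
        _ = _ := by
          have : m = 1 - l := by linarith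
          subst this; ring
  have h5 : (t ^ 2) ^ l * (t ^ 2) ^ m = t ^ 2 := by
    rcases ht2.eq_or_lt with h6 | h6
    · rw [← h6]
      rcases hl.eq_or_lt with h7 | h7
      · subst h7
        have : m = 1 := by linarith
        subst this; simp
      · rw [Real.zero_rpow h7.ne', zero_mul]
    · rw [← Real.rpow_add h6, h, Real.rpow_one]
  have h6 : (1 - t ^ 2) ^ l * (1 - t ^ 2) ^ m = 1 - t ^ 2 := by
    rcases ht3.eq_or_lt with h6 | h6
    · rw [← h6]
      rcases hl.eq_or_lt with h7 | h7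
      · subst h7
        have : m = 1 := by linarith
        subst this; simp
      · rw [Real.zero_rpow h7.ne', zero_mul]
    · rw [← Real.rpow_add h6, h, Real.rpow_one]
  calc t ^ 2 + (1 - t ^ 2) * (1 / (1 - (l * c₁ + m * c₂) * aj j))
      ≤ t ^ 2 + (1 - t ^ 2) * ((1 / (1 - c₁ * aj j)) ^ l * (1 / (1 - c₂ * aj j)) ^ m) := by
        have := mul_le_mul_of_nonneg_left h4 ht3
        linarith
    _ = (t ^ 2) ^ l * (t ^ 2) ^ m + ((1 - t ^ 2) * (1 / (1 - c₁ * aj j))) ^ l *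
        ((1 - t ^ 2) * (1 / (1 - c₂ * aj j))) ^ m := by
        rw [Real.mul_rpow ht3 (by positivity), Real.mul_rpow ht3 (by positivity), h5]
        have : (1 - t ^ 2) * ((1 / (1 - c₁ * aj j)) ^ l * (1 / (1 - c₂ * aj j)) ^ m) =
          (1 - t ^ 2) ^ l * (1 / (1 - c₁ * aj j)) ^ l *
            ((1 - t ^ 2) ^ m * (1 / (1 - c₂ * aj j)) ^ m) := by
          nth_rewrite 1 [← h6]; ring
        rw [this]
    _ ≤ _ := two_terms ht2 ht2 (by positivity) (by positivity) hl hm h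

/-- `c ↦ log (en (t² c) / en c)` is convex -/
theorem en_ratio_logconvex {t c₁ c₂ l m : ℝ} (h0 : 0 ≤ t) (ht : t ≤ 1)
    (hc₁ : c₁ < Real.pi ^ 2) (hc₂ : c₂ < Real.pi ^ 2) (hl : 0 ≤ l) (hm : 0 ≤ m) (h : l + m = 1) :
    en (t ^ 2 * (l * c₁ + m * c₂)) / en (l * c₁ + m * c₂) ≤
      (en (t ^ 2 * c₁) / en c₁) ^ l * (en (t ^ 2 * c₂) / en c₂) ^ m := by
  have hc : l * c₁ + m * c₂ < Real.pi ^ 2 := by
    rcases hl.eq_or_lt with h1 | h1
    · subst h1
      have : m = 1 := by linarith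
      subst this; linarith
    · have h2 : m = 1 - l := by linarith
      subst h2
      nlinarith [mul_lt_mul_of_pos_left hc₁ h1, mul_le_mul_of_nonneg_left hc₂.le hm]
  have hp := Real.pi_pos
  have hsq : ∀ {c : ℝ}, c < Real.pi ^ 2 → t ^ 2 * c < Real.pi ^ 2 := by
    intro c hc
    rcases le_or_gt c 0 with h3 | h3
    · have := mul_nonpos_of_nonneg_of_nonpos (sq_nonneg t) h3
      have : 0 < Real.pi ^ 2 := by positivity
      linarith
    · have : t ^ 2 ≤ 1 := by nlinarith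
      nlinarith
  have hr₁ : 0 < en (t ^ 2 * c₁) / en c₁ := div_pos (en_pos (hsq hc₁)) (en_pos hc₁)
  have hr₂ : 0 < en (t ^ 2 * c₂) / en c₂ := div_pos (en_pos (hsq hc₂)) (en_pos hc₂)
  have hL := prod_fj_tendsto (t := t) hc
  have hR := ((prod_fj_tendsto (t := t) hc₁).rpow_const (p := l) (Or.inl hr₁.ne')).mul
    ((prod_fj_tendsto (t := t) hc₂).rpow_const (p := m) (Or.inl hr₂.ne'))
  refine le_of_tendsto_of_tendsto' hL hR fun n => ?_
  have e1 := Real.finset_prod_rpow (Finset.range n) (fun j => fj t j c₁)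
    (fun j _ => (fj_pos h0 ht j hc₁).le) l
  have e2 := Real.finset_prod_rpow (Finset.range n) (fun j => fj t j c₂)
    (fun j _ => (fj_pos h0 ht j hc₂).le) m
  rw [← e1, ← e2, ← Finset.prod_mul_distrib]
  exact Finset.prod_le_prod (fun j _ => (fj_pos h0 ht j hc).le)
    (fun j _ => fj_logconvex h0 ht j hc₁ hc₂ hl hm h)

theorem sg_nonneg {t c : ℝ} (h0 : 0 ≤ t) (ht : t ≤ 1) (hc : c < Real.pi ^ 2) : 0 ≤ sg t c := by
  have hsq : t ^ 2 * c < Real.pi ^ 2 := by
    have hp := Real.pi_pos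
    rcases le_or_gt c 0 with h3 | h3
    · have := mul_nonpos_of_nonneg_of_nonpos (sq_nonneg t) h3
      have : 0 < Real.pi ^ 2 := by positivity
      linarith
    · have : t ^ 2 ≤ 1 := by nlinarith
      nlinarith
  rw [sg_eq h0]
  exact div_nonneg (mul_nonneg h0 (en_pos hsq).le) (en_pos hc).le

theorem sg_pos {t c : ℝ} (h0 : 0 < t) (ht : t ≤ 1) (hc : c < Real.pi ^ 2) : 0 < sg t c := by
  have hsq : t ^ 2 * c < Real.pi ^ 2 := by
    have hp := Real.pi_pos
    rcases le_or_gt c 0 with h3 | h3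
    · have := mul_nonpos_of_nonneg_of_nonpos (sq_nonneg t) h3
      have : 0 < Real.pi ^ 2 := by positivity
      linarith
    · have : t ^ 2 ≤ 1 := by nlinarith
      nlinarith
  rw [sg_eq h0.le]
  exact div_pos (mul_pos h0 (en_pos hsq)) (en_pos hc)

/-- **convexity** of `c ↦ log (sg t c)` on `(-∞, π²)` -/
theorem sg_logconvex {t c₁ c₂ l m : ℝ} (h0 : 0 ≤ t) (ht : t ≤ 1)
    (hc₁ : c₁ < Real.pi ^ 2) (hc₂ : c₂ < Real.pi ^ 2) (hl : 0 ≤ l) (hm : 0 ≤ m) (h : l + m = 1) :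
    sg t (l * c₁ + m * c₂) ≤ sg t c₁ ^ l * sg t c₂ ^ m := by
  have hsq : ∀ {c : ℝ}, c < Real.pi ^ 2 → t ^ 2 * c < Real.pi ^ 2 := by
    intro c hc
    have hp := Real.pi_pos
    rcases le_or_gt c 0 with h3 | h3
    · have := mul_nonpos_of_nonneg_of_nonpos (sq_nonneg t) h3
      have : 0 < Real.pi ^ 2 := by positivity
      linarith
    · have : t ^ 2 ≤ 1 := by nlinarith
      nlinarith
  have hr₁ : 0 < en (t ^ 2 * c₁) / en c₁ := div_pos (en_pos (hsq hc₁)) (en_pos hc₁)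
  have hr₂ : 0 < en (t ^ 2 * c₂) / en c₂ := div_pos (en_pos (hsq hc₂)) (en_pos hc₂)
  rw [sg_eq h0, sg_eq h0, sg_eq h0, mul_div_assoc, mul_div_assoc, mul_div_assoc,
    Real.mul_rpow h0 hr₁.le, Real.mul_rpow h0 hr₂.le]
  have h5 : t ^ l * t ^ m = t := by
    rcases h0.eq_or_lt with h6 | h6
    · rw [← h6]
      rcases hl.eq_or_lt with h7 | h7
      · subst h7
        have : m = 1 := by linarith
        subst this; simp
      · rw [Real.zero_rpow h7.ne', zero_mul]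
    · rw [← Real.rpow_add h6, h, Real.rpow_one]
  calc _ ≤ t * ((en (t ^ 2 * c₁) / en c₁) ^ l * (en (t ^ 2 * c₂) / en c₂) ^ m) :=
        mul_le_mul_of_nonneg_left (en_ratio_logconvex h0 ht hc₁ hc₂ hl hm h) h0
    _ = _ := by nth_rewrite 1 [← h5]; ring

/-- `t exp ((1-t²) c / 6) ≤ sg t c` -/
theorem sg_ge_exp {t c : ℝ} (h0 : 0 ≤ t) (ht : t ≤ 1) (hc : c < Real.pi ^ 2) :
    t * Real.exp ((1 - t ^ 2) * c / 6) ≤ sg t c := by
  have hp := Real.pi_pos
  rw [sg_eq h0, mul_div_assoc t]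
  refine mul_le_mul_of_nonneg_left ?_ h0
  have hsum : HasSum aj (1 / 6) := by
    have h1 := hasSum_zeta_two
    have h2 : HasSum (fun n : ℕ => (1 : ℝ) / (((n + 1 : ℕ) : ℝ)) ^ 2) (Real.pi ^ 2 / 6) := by
      have := (hasSum_nat_add_iff' (f := fun n : ℕ => (1 : ℝ) / (n : ℝ) ^ 2) 1).2 h1
      simpa using this
    have h3 := h2.mul_left (1 / Real.pi ^ 2)
    have h4 : 1 / Real.pi ^ 2 * (Real.pi ^ 2 / 6) = 1 / 6 := by field_simp
    rw [h4] at h3
    refine h3.congr_fun ?_ |> id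
    intro j
    simp only [aj]
    push_cast
    field_simp
  have h1 : Tendsto (fun n : ℕ => Real.exp (∑ j ∈ Finset.range n, (1 - t ^ 2) * c * aj j)) atTop
      (𝓝 (Real.exp ((1 - t ^ 2) * c / 6))) := by
    apply (Real.continuous_exp.tendsto _).comp
    have := (hsum.mul_left ((1 - t ^ 2) * c)).tendsto_sum_nat
    rw [mul_one_div] at this
    exact this
  refine le_of_tendsto_of_tendsto' h1 (prod_fj_tendsto hc) fun n => ?_
  rw [Real.exp_sum]
  refine Finset.prod_le_prod (fun j _ => (Real.exp_pos _).le) fun j _ => ?_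
  have h2 : 0 < 1 - c * aj j := by have := mul_aj_lt_one hc j; linarith
  rw [fj_eq j hc]
  have h3 : Real.exp (c * aj j) ≤ 1 / (1 - c * aj j) := by
    have h4 : 1 - c * aj j ≤ Real.exp (-(c * aj j)) := by
      have := Real.add_one_le_exp (-(c * aj j)); linarith
    rw [le_div_iff₀ h2]
    calc Real.exp (c * aj j) * (1 - c * aj j) ≤ Real.exp (c * aj j) * Real.exp (-(c * aj j)) :=
          mul_le_mul_of_nonneg_left h4 (Real.exp_pos _).le
      _ = 1 := by rw [← Real.exp_add]; simp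
  have ht3 : 0 ≤ 1 - t ^ 2 := by nlinarith
  have h5 := (convexOn_exp).2 (x := 0) (mem_univ _) (y := c * aj j) (mem_univ _) (sq_nonneg t) ht3
    (by ring)
  simp only [smul_eq_mul, mul_zero, zero_add, Real.exp_zero, mul_one] at h5
  calc Real.exp ((1 - t ^ 2) * c * aj j) = Real.exp ((1 - t ^ 2) * (c * aj j)) := by ring_nf
    _ ≤ t ^ 2 + (1 - t ^ 2) * Real.exp (c * aj j) := h5
    _ ≤ _ := by
      have := mul_le_mul_of_nonneg_left h3 ht3
      linarith

end Vale.Agent.P233.H761.Tau
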